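import Vale.Agent.P207.H391.PiH
import Vale.Agent.P207.H662.Lad

/-!
# P207, block PI: theorem PI in the language of the ladder algebra

`Flw L` : the geodesic flow on the ladder algebra `L : Lad W`.  `PI_lad`, `PI_lad_loc` : the
nonlocal half of the positivity, with `F`, `G` finite sums of translates of `f`.
-/

open Filter Topology MeasureTheory
open scoped InnerProductSpace

noncomputable section

universe u

namespace Vale.Agent.P207.H391

open Vale.Agent.P207.H662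

section one

variable {W : Type u} [AddCommGroup W] [Module ℝ W] {ip : W →ₗ[ℝ] W →ₗ[ℝ] ℝ}
  {X : W →ₗ[ℝ] W} {κ q k : ℝ} (L : Lad1 W ip X κ q) (U : ℝ → W →ₗ[ℝ] W)

/-- the product rule for `t ↦ ⟨D U_t f, U_t g⟩` at `0` -/
def HasD (ip : W →ₗ[ℝ] W →ₗ[ℝ] ℝ) (X : W →ₗ[ℝ] W) (U : ℝ → W →ₗ[ℝ] W) (D : W →ₗ[ℝ] W) : Prop :=
  ∀ f g, HasDerivAt (fun t => ip (D (U t f)) (U t g)) (ip (D (X f)) g + ip (D f) (X g)) 0

/-- the form in the coordinates `(V - H/k) u + (V + H/k) v` -/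
def bet (k : ℝ) (p p' : W × W) : ℝ :=
  L.inn (p.1 + p.2) (k⁻¹ • (p.2 - p.1)) (p'.1 + p'.2) (k⁻¹ • (p'.2 - p'.1))

/-- the group -/
def Wt (k t : ℝ) : W × W →ₗ[ℝ] W × W :=
  LinearMap.prodMap (Real.exp (k * t) • U t) (Real.exp (-(k * t)) • U t)

theorem Wt_apply (k t : ℝ) (p : W × W) :
    Wt U k t p = (Real.exp (k * t) • U t p.1, Real.exp (-(k * t)) • U t p.2) := rfl

/-- its derivative -/
def Yt (X : W →ₗ[ℝ] W) (k : ℝ) : W × W →ₗ[ℝ] W × W :=
  LinearMap.prodMap (X + k • LinearMap.id) (X - k • LinearMap.id)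

theorem Yt_apply (k : ℝ) (p : W × W) :
    Yt X k p = (X p.1 + k • p.1, X p.2 - k • p.2) := rfl

theorem inn_add_left (a b a' b' c e : W) :
    L.inn (a + a') (b + b') c e = L.inn a b c e + L.inn a' b' c e := by
  simp only [Lad1.inn, map_add, LinearMap.add_apply]; ring

theorem inn_smul_left' (r : ℝ) (a b c e : W) :
    L.inn (r • a) (r • b) c e = r * L.inn a b c e := by
  simp only [Lad1.inn, map_smul, LinearMap.smul_apply, smul_eq_mul]; ring

theorem inn_add_right (a b c e c' e' : W) :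
    L.inn a b (c + c') (e + e') = L.inn a b c e + L.inn a b c' e' := by
  simp only [Lad1.inn, map_add, LinearMap.add_apply]; ring

theorem inn_smul_right' (r : ℝ) (a b c e : W) :
    L.inn a b (r • c) (r • e) = r * L.inn a b c e := by
  simp only [Lad1.inn, map_smul, LinearMap.smul_apply, smul_eq_mul]; ring

/-- skewness of the derivative -/
theorem bet_skew (hk : k ≠ 0) (hκ : κ = k ^ 2) (hs : ∀ f g, ip f g = ip g f)
    (hX : ∀ f g, ip (X f) g = - ip f (X g)) (p p' : W × W) :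
    bet L k (Yt X k p) p' = - bet L k p (Yt X k p') := by
  have h := L.inn_skew hs hX (p.1 + p.2) (k⁻¹ • (p.2 - p.1)) (p'.1 + p'.2) (k⁻¹ • (p'.2 - p'.1))
  have e : κ * k⁻¹ = k := by rw [hκ]; field_simp
  have e1 : ∀ p : W × W, X (p.1 + p.2) - κ • k⁻¹ • (p.2 - p.1) =
      (Yt X k p).1 + (Yt X k p).2 := by
    intro p
    rw [Yt_apply, smul_smul, e, map_add]
    module
  have e2 : ∀ p : W × W, X (k⁻¹ • (p.2 - p.1)) - (p.1 + p.2) =
      k⁻¹ • ((Yt X k p).2 - (Yt X k p).1) := by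
    intro p
    rw [Yt_apply, map_smul, map_sub]
    have e3 : p.1 + p.2 = k⁻¹ • (k • (p.1 + p.2)) := by
      rw [smul_smul, inv_mul_cancel₀ hk, one_smul]
    rw [e3, ← smul_sub]
    congr 1
    simp only []
    module
  rw [e1, e2, e1, e2] at h
  exact h

variable {U}

/-- a term of the form along the flow -/
theorem dpair (hs : ∀ f g, ip f g = ip g f) (h0 : ∀ f, U 0 f = f)
    (hΔ : HasD ip X U L.Δ) (hE : HasD ip X U L.E) (hS : HasD ip X U L.S) (c σ σ' : ℝ)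
    (p p' : W) :
    HasDerivAt (fun t => Real.exp (c * t) *
      L.inn (U t p) (σ • U t p) (U t p') (σ' • U t p'))
      (c * L.inn p (σ • p) p' (σ' • p') + (L.inn (X p) (σ • X p) p' (σ' • p') +
        L.inn p (σ • p) (X p') (σ' • X p'))) 0 := by
  have h1 : HasDerivAt (fun t => L.inn (U t p) (σ • U t p) (U t p') (σ' • U t p'))
      (L.inn (X p) (σ • X p) p' (σ' • p') + L.inn p (σ • p) (X p') (σ' • X p')) 0 := by
    have e : (fun t => L.inn (U t p) (σ • U t p) (U t p') (σ' • U t p')) = fun t =>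
        ip (L.Δ (U t p)) (U t p') - σ' * ip (L.E (U t p')) (U t p) -
          σ * ip (L.E (U t p)) (U t p') + σ * σ' * ip (L.S (U t p)) (U t p') := by
      funext t
      simp only [Lad1.inn, map_smul, LinearMap.smul_apply, smul_eq_mul]
      rw [hs (U t p) (L.E (U t p')), hs (U t p') (L.E (U t p))]
      ring
    rw [e]
    have h2 := (((hΔ p p').sub ((hE p' p).const_mul σ')).sub ((hE p p').const_mul σ)).add
      ((hS p p').const_mul (σ * σ'))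
    refine h2.congr_deriv ?_
    simp only [Lad1.inn, map_smul, LinearMap.smul_apply, smul_eq_mul]
    rw [hs (X p) (L.E p'), hs p (L.E (X p')), hs p' (L.E (X p)), hs (X p') (L.E p)]
    ring
  have h3 : HasDerivAt (fun t : ℝ => Real.exp (c * t)) c 0 := by
    have h := ((hasDerivAt_id' (0:ℝ)).const_mul c).exp
    simpa using h
  refine (h3.mul h1).congr_deriv ?_
  simp [h0]

/-- the derivative of the form along the group at time `0` -/
theorem bet_deriv (hk : k ≠ 0) (hs : ∀ f g, ip f g = ip g f) (h0 : ∀ f, U 0 f = f)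
    (hΔ : HasD ip X U L.Δ) (hE : HasD ip X U L.E) (hS : HasD ip X U L.S) (p p' : W × W) :
    HasDerivAt (fun t => bet L k (Wt U k t p) (Wt U k t p'))
      (bet L k (Yt X k p) p' + bet L k p (Yt X k p')) 0 := by
  have d1 := dpair L hs h0 hΔ hE hS (2 * k) (-k⁻¹) (-k⁻¹) p.1 p'.1
  have d2 := dpair L hs h0 hΔ hE hS 0 (-k⁻¹) k⁻¹ p.1 p'.2
  have d3 := dpair L hs h0 hΔ hE hS 0 k⁻¹ (-k⁻¹) p.2 p'.1
  have d4 := dpair L hs h0 hΔ hE hS (-(2 * k)) k⁻¹ k⁻¹ p.2 p'.2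
  have e : (fun t => bet L k (Wt U k t p) (Wt U k t p')) = fun t =>
      (Real.exp (2 * k * t) * L.inn (U t p.1) ((-k⁻¹) • U t p.1) (U t p'.1) ((-k⁻¹) • U t p'.1) +
      Real.exp (0 * t) * L.inn (U t p.1) ((-k⁻¹) • U t p.1) (U t p'.2) (k⁻¹ • U t p'.2) +
      Real.exp (0 * t) * L.inn (U t p.2) (k⁻¹ • U t p.2) (U t p'.1) ((-k⁻¹) • U t p'.1)) +
      Real.exp (-(2 * k) * t) * L.inn (U t p.2) (k⁻¹ • U t p.2) (U t p'.2) (k⁻¹ • U t p'.2) := by
    funext t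
    have e1 : Real.exp (2 * k * t) = Real.exp (k * t) * Real.exp (k * t) := by
      rw [← Real.exp_add]; congr 1; ring
    have e2 : Real.exp (-(2 * k) * t) = Real.exp (-(k * t)) * Real.exp (-(k * t)) := by
      rw [← Real.exp_add]; congr 1; ring
    have e3 : Real.exp (0 * t) = Real.exp (k * t) * Real.exp (-(k * t)) := by
      rw [← Real.exp_add]; congr 1; ring
    rw [e1, e2, e3]
    simp only [bet, Wt_apply, Lad1.inn, map_smul, map_add, map_sub, LinearMap.smul_apply,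
      LinearMap.add_apply, LinearMap.sub_apply, smul_eq_mul]
    ring
  rw [e]
  refine (((d1.add d2).add d3).add d4).congr_deriv ?_
  have e4 : k⁻¹ * k = 1 := inv_mul_cancel₀ hk
  simp only [bet, Yt_apply, Lad1.inn, map_smul, map_add, map_sub, LinearMap.smul_apply,
      LinearMap.add_apply, LinearMap.sub_apply, smul_eq_mul]
  ring

/-- the form is invariant -/
theorem bet_iso (hk : k ≠ 0) (hκ : κ = k ^ 2) (hs : ∀ f g, ip f g = ip g f)
    (hX : ∀ f g, ip (X f) g = - ip f (X g)) (h0 : ∀ f, U 0 f = f)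
    (hadd : ∀ s t f, U (s + t) f = U s (U t f))
    (hΔ : HasD ip X U L.Δ) (hE : HasD ip X U L.E) (hS : HasD ip X U L.S) (t : ℝ)
    (p p' : W × W) : bet L k (Wt U k t p) (Wt U k t p') = bet L k p p' := by
  have hW : ∀ s t p, Wt U k (s + t) p = Wt U k s (Wt U k t p) := by
    intro s t p
    simp only [Wt_apply, map_smul, hadd, smul_smul]
    rw [← Real.exp_add, ← Real.exp_add]
    congr 3 <;> ring
  have h1 : ∀ t, HasDerivAt (fun t => bet L k (Wt U k t p) (Wt U k t p')) 0 t := by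
    intro t
    have h2 := bet_deriv L hk hs h0 hΔ hE hS (Wt U k t p) (Wt U k t p')
    rw [bet_skew L hk hκ hs hX, neg_add_cancel] at h2
    have h3 : HasDerivAt (fun s => bet L k (Wt U k s (Wt U k t p)) (Wt U k s (Wt U k t p'))) 0
        (t - t) := by rw [sub_self]; exact h2
    have h4 := h3.comp_sub_const t t
    refine h4.congr_of_eventuallyEq (Eventually.of_forall fun s => ?_)
    simp only
    rw [← hW, ← hW, sub_add_cancel]
  have h5 := is_const_of_deriv_eq_zero (fun t => (h1 t).differentiableAt)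
    (fun t => (h1 t).deriv) t 0
  rw [h5]
  simp [Wt_apply, h0]

/-- the weak derivative -/
theorem bet_der (hs : ∀ f g, ip f g = ip g f) (h0 : ∀ f, U 0 f = f)
    (hder : ∀ f g, HasDerivAt (fun t => ip (U t f) g) (ip (X f) g) 0) (p p' : W × W) :
    HasDerivAt (fun t => bet L k (Wt U k t p) p') (bet L k (Yt X k p) p') 0 := by
  set z1 := L.Δ (p'.1 + p'.2) - L.E (k⁻¹ • (p'.2 - p'.1)) with hz1
  set z2 := L.S (k⁻¹ • (p'.2 - p'.1)) - L.E (p'.1 + p'.2) - q • X (p'.1 + p'.2) with hz2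
  have e : ∀ r : W × W, bet L k r p' = ip r.1 (z1 - k⁻¹ • z2) + ip r.2 (z1 + k⁻¹ • z2) := by
    intro r
    rw [bet, L.inn_eq hs, ← hz1, ← hz2]
    simp only [map_add, map_sub, map_smul, LinearMap.add_apply, LinearMap.sub_apply,
      LinearMap.smul_apply, smul_eq_mul]
    ring
  simp only [e, Wt_apply, Yt_apply, map_smul, LinearMap.smul_apply, smul_eq_mul]
  have h3 : ∀ c : ℝ, HasDerivAt (fun t : ℝ => Real.exp (c * t)) c 0 := by
    intro c
    have h := ((hasDerivAt_id' (0:ℝ)).const_mul c).exp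
    simpa using h
  have a1 := (h3 k).mul (hder p.1 (z1 - k⁻¹ • z2))
  have a2 := (h3 (-k)).mul (hder p.2 (z1 + k⁻¹ • z2))
  have e2 : (fun t => Real.exp (k * t) * ip (U t p.1) (z1 - k⁻¹ • z2) +
      Real.exp (-(k * t)) * ip (U t p.2) (z1 + k⁻¹ • z2)) = fun t =>
      Real.exp (k * t) * ip (U t p.1) (z1 - k⁻¹ • z2) +
      Real.exp (-k * t) * ip (U t p.2) (z1 + k⁻¹ • z2) := by
    funext t; rw [neg_mul]
  rw [e2]
  refine (a1.add a2).congr_deriv ?_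
  simp only [h0, mul_zero, Real.exp_zero, one_mul, map_add, map_sub, map_smul,
    LinearMap.add_apply, LinearMap.sub_apply, LinearMap.smul_apply, smul_eq_mul]
  ring

/-- the system at one root -/
def frm (hk : k ≠ 0) (hκ : κ = k ^ 2) (hs : ∀ f g, ip f g = ip g f)
    (hX : ∀ f g, ip (X f) g = - ip f (X g)) (h0 : ∀ f, U 0 f = f)
    (hadd : ∀ s t f, U (s + t) f = U s (U t f))
    (hder : ∀ f g, HasDerivAt (fun t => ip (U t f) g) (ip (X f) g) 0)
    (hΔ : HasD ip X U L.Δ) (hE : HasD ip X U L.E) (hS : HasD ip X U L.S) : Frm (W × W) where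
  β := bet L k
  add_left x y z := by
    simp only [bet, Lad1.inn, Prod.fst_add, Prod.snd_add, map_add, map_sub, map_smul,
      LinearMap.add_apply, LinearMap.sub_apply, LinearMap.smul_apply, smul_eq_mul]
    ring
  smul_left r x y := by
    simp only [bet, Lad1.inn, Prod.smul_fst, Prod.smul_snd, map_add, map_sub, map_smul,
      LinearMap.add_apply, LinearMap.sub_apply, LinearMap.smul_apply, smul_eq_mul]
    ring
  symm x y := L.inn_symm hs _ _ _ _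
  nonneg x := by
    rw [bet, L.inn_self]; exact L.nsq_nonneg _ _
  W := Wt U k
  zero x := by simp [Wt_apply, h0]
  add s t x := by
    simp only [Wt_apply, map_smul, hadd, smul_smul]
    rw [← Real.exp_add, ← Real.exp_add]
    congr 3 <;> ring
  iso t x y := bet_iso L hk hκ hs hX h0 hadd hΔ hE hS t x y
  Y := Yt X k
  der x y := bet_der L hs h0 hder x y

end one

variable {W : Type u} [AddCommGroup W] [Module ℝ W]

/-- The geodesic flow on the ladder algebra. -/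
structure Flw (L : Lad W) where
  U : ℝ → W →ₗ[ℝ] W
  zero : ∀ f, U 0 f = f
  add : ∀ s t f, U (s + t) f = U s (U t f)
  iso : ∀ t f g, L.ip (U t f) (U t g) = L.ip f g
  der : ∀ f g, HasDerivAt (fun t => L.ip (U t f) g) (L.ip (L.X f) g) 0
  dΔ1 : HasD L.ip L.X U L.L1.Δ
  dE1 : HasD L.ip L.X U L.L1.E
  dS1 : HasD L.ip L.X U L.L1.S
  dΔ2 : HasD L.ip L.X U L.L2.Δ
  dE2 : HasD L.ip L.X U L.L2.E
  dS2 : HasD L.ip L.X U L.L2.S

namespace Flw

variable {L : Lad W} (Φ : Flw L)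

/-- the function system -/
def frm0 : Frm W where
  β f g := L.ip f g
  add_left x y z := by simp
  smul_left r x y := by simp
  symm := L.symm
  nonneg := L.nonneg
  W := Φ.U
  zero := Φ.zero
  add := Φ.add
  iso := Φ.iso
  Y := L.X
  der := Φ.der

/-- the finite sum `(T/2N) ∑ (U_t f - U_{-t} f)` -/
def Fs (N : ℕ) (T : ℝ) (f : W) : W :=
  ∑ j ∈ Finset.range N, ((1 / 2 : ℝ) * (T / N)) •
    (Φ.U (j * (T / N)) f - Φ.U (-(j * (T / N))) f)

/-- the finite sum `- (T/2N) ∑ (U_t f + U_{-t} f)` -/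
def Gs (N : ℕ) (T : ℝ) (f : W) : W :=
  -∑ j ∈ Finset.range N, ((1 / 2 : ℝ) * (T / N)) •
    (Φ.U (j * (T / N)) f + Φ.U (-(j * (T / N))) f)

end Flw

section main

variable {ip : W →ₗ[ℝ] W →ₗ[ℝ] ℝ} {X : W →ₗ[ℝ] W} {κ q k : ℝ} (L : Lad1 W ip X κ q)
  {U : ℝ → W →ₗ[ℝ] W}

/-- the functional of `PiA` is the functional of the ladder algebra -/
theorem q_eq {H : Type*} [NormedAddCommGroup H] [InnerProductSpace ℝ H] (hk : k ≠ 0)
    (hκ : κ = k ^ 2) {ι : W × W →ₗ[ℝ] H} (hι : ∀ x y, ⟪ι x, ι y⟫_ℝ = bet L k x y) (f F G : W) :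
    Gr.q k ((1 / 2 : ℝ) • (ι (Yt X k (0, f)) - k • ι (0, f) + ι (Yt X k (f, 0)) + k • ι (f, 0)))
      (ι ((1 / 2 : ℝ) • (F - k • G), (1 / 2 : ℝ) • (F + k • G)))
      (ι (Yt X k ((1 / 2 : ℝ) • (F - k • G), (1 / 2 : ℝ) • (F + k • G)))) = L.qf f F G := by
  have e : κ * k⁻¹ = k := by rw [hκ]; field_simp
  have e' : k⁻¹ * k = 1 := inv_mul_cancel₀ hk
  have eZ : (1 / 2 : ℝ) • (ι (Yt X k (0, f)) - k • ι (0, f) + ι (Yt X k (f, 0)) +
      k • ι (f, 0)) = ι ((1 / 2 : ℝ) • (X f + (2 * k) • f), (1 / 2 : ℝ) • (X f - (2 * k) • f)) := by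
    rw [← map_smul, ← map_smul, ← map_sub, ← map_add, ← map_add, ← map_smul]
    congr 1
    simp only [Yt_apply, Prod.smul_mk, Prod.mk_sub_mk, Prod.mk_add_mk, map_zero, smul_zero]
    congr 1 <;> module
  -- the form in the coordinates `V F + H G`
  have hb : ∀ a b c d : W, bet L k ((1 / 2 : ℝ) • (a - k • b), (1 / 2 : ℝ) • (a + k • b))
      ((1 / 2 : ℝ) • (c - k • d), (1 / 2 : ℝ) • (c + k • d)) = L.inn a b c d := by
    intro a b c d
    have h1 : ∀ a b : W, (1 / 2 : ℝ) • (a - k • b) + (1 / 2 : ℝ) • (a + k • b) = a := by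
      intro a b; module
    have h2 : ∀ a b : W, k⁻¹ • ((1 / 2 : ℝ) • (a + k • b) - (1 / 2 : ℝ) • (a - k • b)) = b := by
      intro a b
      have : (1 / 2 : ℝ) • (a + k • b) - (1 / 2 : ℝ) • (a - k • b) = k • b := by module
      rw [this, smul_smul, e', one_smul]
    simp only [bet, h1, h2]
  have hY : ι (Yt X k ((1 / 2 : ℝ) • (F - k • G), (1 / 2 : ℝ) • (F + k • G))) =
      ι ((1 / 2 : ℝ) • ((X F - κ • G) - k • (X G - F)),
        (1 / 2 : ℝ) • ((X F - κ • G) + k • (X G - F))) := by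
    congr 1
    rw [Yt_apply]
    simp only [map_smul, map_sub, map_add, hκ]
    congr 1 <;> module
  have hZ : ((1 / 2 : ℝ) • (X f + (2 * k) • f), (1 / 2 : ℝ) • (X f - (2 * k) • f)) =
      ((1 / 2 : ℝ) • (X f - k • (-(2:ℝ) • f)), (1 / 2 : ℝ) • (X f + k • (-(2:ℝ) • f))) := by
    congr 1 <;> module
  rw [eZ, hZ, hY, Gr.q, hι, hι, hι, hb, hb, hb, L.inn_self, L.inn_self, Lad1.qf, ← hκ]

/-- the correlation function -/
theorem bet_corr (hk : k ≠ 0) (hκ : κ = k ^ 2) (hs : ∀ f g, ip f g = ip g f)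
    (hX : ∀ f g, ip (X f) g = - ip f (X g)) (f g : W) :
    bet L k (g, 0) (0, f) = q / k * ip g (X f) - 1 / k ^ 2 * ip g (L.C f) := by
  have e1 := L.E_adj f g
  have e2 := hX f g
  have e3 := L.Δ_symm g f
  have e4 := L.S_symm g f
  have e5 := hs (X f) g
  have e6 := hs (L.E f) g
  rw [map_add, map_smul, smul_eq_mul] at e1
  have h1 : (q / k) = k⁻¹ * q := by field_simp
  have h2 : (1 / k ^ 2) = k⁻¹ * k⁻¹ := by field_simp
  have h3 : k⁻¹ * k⁻¹ * κ = 1 := by rw [hκ]; field_simp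
  rw [h1, h2]
  simp only [bet, Lad1.inn, Lad1.C_apply, add_zero, zero_add, zero_sub, sub_zero, smul_neg,
    map_smul, map_neg, map_sub, LinearMap.smul_apply, LinearMap.neg_apply, smul_eq_mul]
  linear_combination e3 - k⁻¹ * k⁻¹ * e4 - k⁻¹ * e1 + k⁻¹ * e6 + k⁻¹ * q * e5 - k⁻¹ * q * e2 -
    ip g (L.Δ f) * h3

/-- convergence of the functional along the sums -/
theorem tendsto_qf {H : Type*} [NormedAddCommGroup H] [InnerProductSpace ℝ H] [CompleteSpace H]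
    (hk : k ≠ 0) (hκ : κ = k ^ 2) {ι : W × W →ₗ[ℝ] H} (G : Gr H)
    (hι : ∀ x y, ⟪ι x, ι y⟫_ℝ = bet L k x y) (hU : ∀ t x, G.U t (ι x) = ι (Wt U k t x))
    (hD : ∀ x, G.D (ι x) (ι (Yt X k x))) {T : ℝ} (hT : 0 ≤ T) (f : W) :
    Tendsto (fun N : ℕ => L.qf f (∑ j ∈ Finset.range N, ((1 / 2 : ℝ) * (T / N)) •
        (U (j * (T / N)) f - U (-(j * (T / N))) f))
      (k⁻¹ • -∑ j ∈ Finset.range N, ((1 / 2 : ℝ) * (T / N)) •
        (U (j * (T / N)) f + U (-(j * (T / N))) f))) atTop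
      (𝓝 (Gr.q k ((1 / 2 : ℝ) • (ι (Yt X k (0, f)) - k • ι (0, f) + ι (Yt X k (f, 0)) +
        k • ι (f, 0))) (G.yT k T (ι (f, 0)) (ι (0, f))) (G.zT k T (ι (f, 0)) (ι (0, f))))) := by
  -- the translates
  have c1 : ∀ t, Real.exp (-(k * t)) • G.U t (ι (f, 0)) = ι (U t f, 0) := by
    intro t
    rw [hU, ← map_smul, Wt_apply]
    congr 1
    simp only [Prod.smul_mk, map_zero, smul_zero, smul_smul, ← Real.exp_add]
    simp
  have c2 : ∀ t, Real.exp (-(k * t)) • G.U (-t) (ι (0, f)) = ι (0, U (-t) f) := by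
    intro t
    rw [hU, ← map_smul, Wt_apply]
    congr 1
    simp only [Prod.smul_mk, map_zero, smul_zero, smul_smul, ← Real.exp_add]
    simp
  have hYU : ∀ t x, G.U t (ι (Yt X k x)) = ι (Yt X k (Wt U k t x)) := by
    intro t x
    have h1 := Gr.D.U G (hD x) t
    rw [hU] at h1
    exact h1.unique (hD _)
  have c3 : ∀ t, Real.exp (-(k * t)) • G.U t (ι (Yt X k (f, 0))) = ι (Yt X k (U t f, 0)) := by
    intro t
    rw [hYU, ← map_smul, ← map_smul, Wt_apply]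
    congr 2
    simp only [Prod.smul_mk, map_zero, smul_zero, smul_smul, ← Real.exp_add]
    simp
  have c4 : ∀ t, Real.exp (-(k * t)) • G.U (-t) (ι (Yt X k (0, f))) =
      ι (Yt X k (0, U (-t) f)) := by
    intro t
    rw [hYU, ← map_smul, ← map_smul, Wt_apply]
    congr 2
    simp only [Prod.smul_mk, map_zero, smul_zero, smul_smul, ← Real.exp_add]
    simp
  -- the pairs
  set ps : ℕ → W × W := fun N => ∑ j ∈ Finset.range N, ((1 / 2 : ℝ) * (T / N)) •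
    ((U (j * (T / N)) f, (0:W)) - ((0:W), U (-(j * (T / N))) f)) with hps
  have t1 : Tendsto (fun N => ι (ps N)) atTop (𝓝 (G.yT k T (ι (f, 0)) (ι (0, f)))) := by
    have h1 := ((riemann (G.cont_al k (ι (f, 0))) hT).sub
      (riemann (G.cont_be k (ι (0, f))) hT)).const_smul (1 / 2 : ℝ)
    refine h1.congr fun N => ?_
    rw [hps, map_sum, ← Finset.sum_sub_distrib, Finset.smul_sum]
    refine Finset.sum_congr rfl fun j _ => ?_
    rw [c1, c2, ← smul_sub, smul_smul, map_smul, map_sub]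
  have t2 : Tendsto (fun N => ι (Yt X k (ps N))) atTop
      (𝓝 (G.zT k T (ι (f, 0)) (ι (0, f)))) := by
    have h1 := ((riemann (G.cont_al k (ι (Yt X k (f, 0)))) hT).sub
      (riemann (G.cont_be k (ι (Yt X k (0, f)))) hT)).const_smul (1 / 2 : ℝ)
    have e1 := G.al' k T (hD (f, 0))
    have e2 := G.be' k T (hD (0, f))
    simp only [Gr.al, Gr.be] at e1 e2
    rw [e1, e2] at h1
    have e3 : (1 / 2 : ℝ) • (Real.exp (-(k * T)) • G.U T (ι (f, 0)) - ι (f, 0) +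
        (k • ∫ t in (0:ℝ)..T, Real.exp (-(k * t)) • G.U t (ι (f, 0))) -
        -(Real.exp (-(k * T)) • G.U (-T) (ι (0, f)) - ι (0, f) +
          k • ∫ t in (0:ℝ)..T, Real.exp (-(k * t)) • G.U (-t) (ι (0, f)))) =
        G.zT k T (ι (f, 0)) (ι (0, f)) := by
      rw [Gr.zT, Gr.al, Gr.be, smul_add k]
      congr 1
      abel
    rw [e3] at h1
    refine h1.congr fun N => ?_
    rw [hps, map_sum, map_sum, ← Finset.sum_sub_distrib, Finset.smul_sum]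
    refine Finset.sum_congr rfl fun j _ => ?_
    rw [c3, c4, ← smul_sub, smul_smul, map_smul, map_smul, map_sub, map_sub]
  -- the functional
  have a1 : Tendsto (fun N : ℕ => ⟪(1 / 2 : ℝ) • (ι (Yt X k (0, f)) - k • ι (0, f) +
      ι (Yt X k (f, 0)) + k • ι (f, 0)), ι (ps N)⟫_ℝ) atTop _ := tendsto_const_nhds.inner t1
  have a2 : Tendsto (fun N : ℕ => ⟪ι (Yt X k (ps N)), ι (Yt X k (ps N))⟫_ℝ) atTop _ :=
    t2.inner t2
  have a3 : Tendsto (fun N : ℕ => ⟪ι (ps N), ι (ps N)⟫_ℝ) atTop _ := t1.inner t1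
  have h4 := ((a1.const_mul 2).sub a2).sub (a3.const_mul (k ^ 2))
  refine h4.congr fun N => ?_
  rw [← q_eq L hk hκ hι, Gr.q]
  have e1 : ps N = ((1 / 2 : ℝ) • ((∑ j ∈ Finset.range N, ((1 / 2 : ℝ) * (T / N)) •
        (U (j * (T / N)) f - U (-(j * (T / N))) f)) -
        k • (k⁻¹ • -∑ j ∈ Finset.range N, ((1 / 2 : ℝ) * (T / N)) •
        (U (j * (T / N)) f + U (-(j * (T / N))) f))),
      (1 / 2 : ℝ) • ((∑ j ∈ Finset.range N, ((1 / 2 : ℝ) * (T / N)) •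
        (U (j * (T / N)) f - U (-(j * (T / N))) f)) +
        k • (k⁻¹ • -∑ j ∈ Finset.range N, ((1 / 2 : ℝ) * (T / N)) •
        (U (j * (T / N)) f + U (-(j * (T / N))) f)))) := by
    have e2 : ∀ x : W, k • (k⁻¹ • x) = x := by
      intro x; rw [smul_smul, mul_inv_cancel₀ hk, one_smul]
    rw [e2, hps]
    refine Prod.ext ?_ ?_
    · simp only [Prod.fst_sum, sub_neg_eq_add]
      rw [← Finset.sum_add_distrib, Finset.smul_sum]
      refine Finset.sum_congr rfl fun j _ => ?_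
      simp only [Prod.smul_fst, Prod.fst_sub, sub_zero]
      module
    · simp only [Prod.snd_sum, ← sub_eq_add_neg]
      rw [← Finset.sum_sub_distrib, Finset.smul_sum]
      refine Finset.sum_congr rfl fun j _ => ?_
      simp only [Prod.smul_snd, Prod.snd_sub, zero_sub]
      module
  rw [← e1]

end main

variable {L : Lad W}

/-- THEOREM PI in the ladder algebra. -/
theorem PI_lad (Φ : Flw L) (he : 0 ≤ L.e) (hd : 0 ≤ L.d) {f : W} {lam : ℝ} (hlam : 0 ≤ lam)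
    (hf : L.Lam f = lam • f) {ε : ℝ} (hε : 0 < ε) :
    ∃ (T : ℝ) (N : ℕ), 0 ≤ T ∧ 0 < N ∧
      L.ip (L.L1.Δ f) f + 2 * L.ip (L.L2.Δ f) f - (L.e + 2 * L.d) * L.ip f f - ε ≤
      L.L1.qf f (Φ.Fs N T f) (Φ.Gs N T f) +
        2 * L.L2.qf f (Φ.Fs N T f) ((1 / 2 : ℝ) • Φ.Gs N T f) := by
  have k1 : (1:ℝ) ≠ 0 := one_ne_zero
  have k2 : (2:ℝ) ≠ 0 := two_ne_zero
  have q1 : (1:ℝ) = 1 ^ 2 := by norm_num
  have q2 : (4:ℝ) = 2 ^ 2 := by norm_num
  obtain ⟨E, _, _, _, ι₀, G₀, i0, u0, d0⟩ := exists_hilb Φ.frm0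
  obtain ⟨B₁, _, _, _, ι₁, G₁, i1, u1, d1⟩ := exists_hilb
    (frm L.L1 k1 q1 L.symm L.skew Φ.zero Φ.add Φ.der Φ.dΔ1 Φ.dE1 Φ.dS1)
  obtain ⟨B₂, _, _, _, ι₂, G₂, i2, u2, d2⟩ := exists_hilb
    (frm L.L2 k2 q2 L.symm L.skew Φ.zero Φ.add Φ.der Φ.dΔ2 Φ.dE2 Φ.dS2)
  have i0' : ∀ x y, ⟪ι₀ x, ι₀ y⟫_ℝ = L.ip x y := i0
  have u0' : ∀ t x, G₀.U t (ι₀ x) = ι₀ (Φ.U t x) := u0
  have d0' : ∀ x, G₀.D (ι₀ x) (ι₀ (L.X x)) := d0
  have i1' : ∀ x y, ⟪ι₁ x, ι₁ y⟫_ℝ = bet L.L1 1 x y := i1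
  have u1' : ∀ t x, G₁.U t (ι₁ x) = ι₁ (Wt Φ.U 1 t x) := u1
  have d1' : ∀ x, G₁.D (ι₁ x) (ι₁ (Yt L.X 1 x)) := d1
  have i2' : ∀ x y, ⟪ι₂ x, ι₂ y⟫_ℝ = bet L.L2 2 x y := i2
  have u2' : ∀ t x, G₂.U t (ι₂ x) = ι₂ (Wt Φ.U 2 t x) := u2
  have d2' : ∀ x, G₂.D (ι₂ x) (ι₂ (Yt L.X 2 x)) := d2
  have hL : ι₀ (L.L1.C f) + ι₀ (L.L2.C f) = lam • ι₀ f + ι₀ (L.X (L.X f)) := by
    rw [← map_add, ← map_smul, ← map_add]
    congr 1
    rw [← hf, Lad.Lam_apply]
    abel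
  have hc : ∀ {κ q k : ℝ} (L' : Lad1 W L.ip L.X κ q) (hk : k ≠ 0) (hκ : κ = k ^ 2)
      {H : Type u} [NormedAddCommGroup H] [InnerProductSpace ℝ H] {ι : W × W →ₗ[ℝ] H}
      {G : Gr H} (hi : ∀ x y, ⟪ι x, ι y⟫_ℝ = bet L' k x y)
      (hu : ∀ t x, G.U t (ι x) = ι (Wt Φ.U k t x)) (t : ℝ),
      G.c k (ι (f, 0)) (ι (0, f)) t =
        q / k * ⟪G₀.U t (ι₀ f), ι₀ (L.X f)⟫_ℝ - 1 / k ^ 2 * ⟪G₀.U t (ι₀ f), ι₀ (L'.C f)⟫_ℝ := by
    intro κ q k L' hk hκ H _ _ ι G hi hu t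
    have e1 := bet_corr L' hk hκ L.symm L.skew f (Φ.U t f)
    rw [u0', i0', i0', ← e1, Gr.c, hu, ← real_inner_smul_left, ← map_smul, Wt_apply, ← hi]
    congr 2
    simp only [Prod.smul_mk, map_zero, smul_zero, smul_smul, ← Real.exp_add]
    simp
  -- the choice of `S`
  set K := ‖ι₀ f‖ ^ 2 + (‖ι₁ (f, 0)‖ + ‖ι₁ (0, f)‖) ^ 2 / 8 +
    (‖ι₂ (f, 0)‖ + ‖ι₂ (0, f)‖) ^ 2 / 8 with hK
  have hK0 : 0 ≤ K := by positivity
  have hS : 0 < 4 * (K + 1) / ε := by positivity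
  have hSK : 2 / (4 * (K + 1) / ε) * K ≤ ε / 2 := by
    have : 2 / (4 * (K + 1) / ε) * K = ε / 2 * (K / (K + 1)) := by field_simp; ring
    rw [this]
    have h1 : K / (K + 1) ≤ 1 := by rw [div_le_one (by linarith)]; linarith
    nlinarith
  obtain ⟨T, hT, h⟩ := exists_T G₀ G₁ G₂ (d0' f) (d0' (L.X f)) hL hlam he hd
    (d1' (f, 0)) (d1' (0, f)) (d2' (f, 0)) (d2' (0, f))
    (fun t => by rw [hc L.L1 k1 q1 i1' u1']; ring)
    (fun t => by rw [hc L.L2 k2 q2 i2' u2']; ring) hS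
  rw [← hK] at h
  have t1 := tendsto_qf L.L1 k1 q1 G₁ i1' u1' d1' hT.1 f
  have t2 := tendsto_qf L.L2 k2 q2 G₂ i2' u2' d2' hT.1 f
  have ht := t1.add (t2.const_mul 2)
  -- the norms
  have n0 : ‖ι₀ f‖ ^ 2 = L.ip f f := by rw [← real_inner_self_eq_norm_sq, i0']
  have n1 : ‖ι₁ (f, 0) + ι₁ (0, f)‖ ^ 2 = 4 * L.ip (L.L1.Δ f) f := by
    rw [← map_add, ← real_inner_self_eq_norm_sq, i1', bet]
    simp only [Prod.mk_add_mk, add_zero, zero_add, sub_self, smul_zero, Lad1.inn, map_add,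
      map_zero, LinearMap.add_apply]
    ring
  have n2 : ‖ι₂ (f, 0) + ι₂ (0, f)‖ ^ 2 = 4 * L.ip (L.L2.Δ f) f := by
    rw [← map_add, ← real_inner_self_eq_norm_sq, i2', bet]
    simp only [Prod.mk_add_mk, add_zero, zero_add, sub_self, smul_zero, Lad1.inn, map_add,
      map_zero, LinearMap.add_apply]
    ring
  rw [n0, n1, n2] at h
  have hev := (ht.eventually (lt_mem_nhds (lt_of_lt_of_le (sub_lt_self _ (half_pos hε)) h))).and
    (eventually_gt_atTop 0)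
  obtain ⟨N, hN, hN0⟩ := hev.exists
  refine ⟨T, N, hT.1, hN0, ?_⟩
  have e1 : ((1:ℝ)⁻¹ • -∑ j ∈ Finset.range N, ((1 / 2 : ℝ) * (T / N)) •
        (Φ.U (j * (T / N)) f + Φ.U (-(j * (T / N))) f)) = Φ.Gs N T f := by
    rw [inv_one, one_smul]; rfl
  have e2 : ((2:ℝ)⁻¹ • -∑ j ∈ Finset.range N, ((1 / 2 : ℝ) * (T / N)) •
        (Φ.U (j * (T / N)) f + Φ.U (-(j * (T / N))) f)) = (1 / 2 : ℝ) • Φ.Gs N T f := by
    rw [show (2:ℝ)⁻¹ = 1 / 2 by norm_num]; rfl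
  rw [e1, e2] at hN
  have e3 : (∑ j ∈ Finset.range N, ((1 / 2 : ℝ) * (T / N)) •
        (Φ.U (j * (T / N)) f - Φ.U (-(j * (T / N))) f)) = Φ.Fs N T f := rfl
  rw [e3] at hN
  linarith [hN]

/-- concavity -/
theorem qf_mid {ip : W →ₗ[ℝ] W →ₗ[ℝ] ℝ} {X : W →ₗ[ℝ] W} {κ q : ℝ} (L : Lad1 W ip X κ q)
    (hκ : 0 ≤ κ) (f F G F' G' : W) :
    1 / 2 * L.qf f F G + 1 / 2 * L.qf f F' G' ≤
      L.qf f ((1 / 2 : ℝ) • (F + F')) ((1 / 2 : ℝ) • (G + G')) := by
  have h1 := L.nsq_nonneg (X (F - F') - κ • (G - G')) (X (G - G') - (F - F'))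
  have h2 := mul_nonneg hκ (L.nsq_nonneg (F - F') (G - G'))
  simp only [Lad1.qf, Lad1.nsq, Lad1.inn, map_add, map_sub, map_smul, LinearMap.add_apply,
    LinearMap.sub_apply, LinearMap.smul_apply, smul_eq_mul] at h1 h2 ⊢
  nlinarith [h1, h2]

/-- THEOREM PI with a local field. -/
theorem PI_lad_loc (Φ : Flw L) (he : 0 ≤ L.e) (hd : 0 ≤ L.d) {f : W} {lam : ℝ} (hlam : 0 ≤ lam)
    (hf : L.Lam f = lam • f) (F' G' : W) {ε : ℝ} (hε : 0 < ε) :
    ∃ (T : ℝ) (N : ℕ), 0 ≤ T ∧ 0 < N ∧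
      1 / 2 * (L.L1.qf f F' G' - L.ip (L.L1.Δ f) f + L.e * L.ip f f) - ε ≤
      L.L1.qf f ((1 / 2 : ℝ) • (Φ.Fs N T f + F')) ((1 / 2 : ℝ) • (Φ.Gs N T f + G')) +
        L.L2.qf f (Φ.Fs N T f) ((1 / 2 : ℝ) • Φ.Gs N T f) -
        L.ip (L.L1.Δ f) f - L.ip (L.L2.Δ f) f + (L.e + L.d) * L.ip f f := by
  obtain ⟨T, N, hT, hN, h⟩ := PI_lad Φ he hd hlam hf (by positivity : 0 < 2 * ε)
  refine ⟨T, N, hT, hN, ?_⟩
  have h1 := qf_mid L.L1 zero_le_one f (Φ.Fs N T f) (Φ.Gs N T f) F' G'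
  linarith

end Vale.Agent.P207.H391
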