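import Mathlib

/-!
# P207, line N4: stable holonomies are smooth along the leaves (abstract part)

`HSM`: a family of curves `t ↦ q t x` with
`q s x = q t x - NN t (q t x) (D(A t)(q t x)ᵀ ((s - t) y)) + O(|s - t|^(1+θ))`, where `NN t`, `A t`
are smooth with uniform bounds and continuous in `t`, is smooth in `x` with uniform bounds. It uses
the theorem on the smooth dependence on the initial value (`DepS`, 467).
-/

open Set Filter Topology Metric
open scoped ContDiff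

noncomputable section

namespace Vale.Agent.P207.H391.Hsm

/-- The literal statement of 467's `dep`. -/
def DepS (E : Type) [NormedAddCommGroup E] [NormedSpace ℝ E] : Prop :=
  ∀ M : ℕ → ℝ, ∃ K : ℕ → ℝ, ∀ (f : ℝ → E → E) (U : Set E), IsOpen U →
    (∀ t ∈ Icc (0 : ℝ) 1, ContDiffOn ℝ ∞ (f t) U) →
    (∀ k, ∀ t ∈ Icc (0 : ℝ) 1, ∀ x ∈ U, ‖iteratedFDeriv ℝ k (f t) x‖ ≤ M k) →
    ContinuousOn (fun p : ℝ × E => f p.1 p.2) (Icc (0 : ℝ) 1 ×ˢ U) →
    ∀ (V : Set E), IsOpen V → ∀ (X : ℝ → E → E), (∀ y ∈ V, X 0 y = y) →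
    (∀ y ∈ V, ∀ t ∈ Icc (0 : ℝ) 1, X t y ∈ U) →
    (∀ y ∈ V, ∀ t ∈ Icc (0 : ℝ) 1,
      HasDerivWithinAt (fun s => X s y) (f t (X t y)) (Icc (0 : ℝ) 1) t) →
    ∀ t ∈ Icc (0 : ℝ) 1, ContDiffOn ℝ ∞ (X t) V ∧
      ∀ k, ∀ y ∈ V, ‖iteratedFDeriv ℝ k (X t) y‖ ≤ K k

section one

variable {E : Type} [NormedAddCommGroup E] [NormedSpace ℝ E]

theorem deriv_of_pow {g : ℝ → E} {v : E} {t C θ : ℝ} (hθ : 0 < θ)
    (h : ∀ s ∈ Icc (0 : ℝ) 1, ‖g s - g t - (s - t) • v‖ ≤ C * |s - t| ^ (1 + θ)) :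
    HasDerivWithinAt g v (Icc (0 : ℝ) 1) t := by
  rw [hasDerivWithinAt_iff_isLittleO]
  have h1 : (fun s => g s - g t - (s - t) • v) =O[𝓝[Icc (0 : ℝ) 1] t]
      fun s => |s - t| ^ (1 + θ) := by
    refine Asymptotics.IsBigO.of_bound C ?_
    filter_upwards [self_mem_nhdsWithin] with s hs
    rw [Real.norm_of_nonneg (Real.rpow_nonneg (abs_nonneg _) _)]
    exact h s hs
  refine h1.trans_isLittleO ?_
  have h2 : (fun s : ℝ => |s - t| ^ (1 + θ)) =o[𝓝[Icc (0 : ℝ) 1] t] fun s => |s - t| := by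
    have h3 : Tendsto (fun s : ℝ => |s - t| ^ θ) (𝓝[Icc (0 : ℝ) 1] t) (𝓝 0) := by
      have h4 : ContinuousAt (fun s : ℝ => |s - t| ^ θ) t :=
        (((continuous_id.sub continuous_const).abs).continuousAt).rpow_const (Or.inr hθ.le)
      have h5 := h4.tendsto.mono_left (nhdsWithin_le_nhds (s := Icc (0 : ℝ) 1))
      simpa [Real.zero_rpow hθ.ne'] using h5
    rw [Asymptotics.isLittleO_iff]
    intro c hc
    filter_upwards [h3.eventually (gt_mem_nhds hc)] with s hs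
    rw [Real.norm_of_nonneg (Real.rpow_nonneg (abs_nonneg _) _), Real.norm_of_nonneg
      (abs_nonneg _)]
    rcases (abs_nonneg (s - t)).eq_or_lt with h0 | h0
    · rw [← h0, Real.zero_rpow (by linarith : (1 + θ) ≠ 0)]
      simp
    · rw [Real.rpow_add h0, Real.rpow_one, mul_comm]
      exact mul_le_mul_of_nonneg_right hs.le (abs_nonneg _)
  exact h2.trans_isBigO (Asymptotics.isBigO_of_le _ fun s => by
    rw [Real.norm_eq_abs, Real.norm_eq_abs, abs_abs])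

end one

variable {E : Type} [NormedAddCommGroup E] [InnerProductSpace ℝ E] [CompleteSpace E]

/-- the vector field of the holonomies -/
def fld (NN : ℝ → E → E →L[ℝ] E) (A : ℝ → E → E) (y : E) (t : ℝ) (q : E) : E :=
  -(NN t q (ContinuousLinearMap.adjoint (fderiv ℝ (A t) q) y))

/-- evaluation of the adjoint at a vector, as a continuous linear map -/
def adjEv (y : E) : (E →L[ℝ] E) →L[ℝ] E :=
  LinearMap.mkContinuous
    { toFun := fun T => ContinuousLinearMap.adjoint T y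
      map_add' := fun S T => by simp
      map_smul' := fun c T => by simp } ‖y‖ fun T => by
    show ‖ContinuousLinearMap.adjoint T y‖ ≤ ‖y‖ * ‖T‖
    refine (ContinuousLinearMap.le_opNorm _ _).trans ?_
    rw [LinearIsometryEquiv.norm_map]
    exact le_of_eq (mul_comm _ _)

theorem adjEv_apply (y : E) (T : E →L[ℝ] E) :
    adjEv y T = ContinuousLinearMap.adjoint T y := rfl

theorem norm_adjEv_le (y : E) : ‖adjEv y‖ ≤ ‖y‖ :=
  LinearMap.mkContinuous_norm_le _ (norm_nonneg _) _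

theorem fld_smooth {NN : ℝ → E → E →L[ℝ] E} {A : ℝ → E → E} {y : E} {t : ℝ} {U : Set E}
    (hU : IsOpen U) (hN : ContDiffOn ℝ ∞ (NN t) U) (hA : ContDiffOn ℝ ∞ (A t) U) :
    ContDiffOn ℝ ∞ (fld NN A y t) U := by
  have h1 : ContDiffOn ℝ ∞ (fun q => fderiv ℝ (A t) q) U :=
    hA.fderiv_of_isOpen hU (by simp)
  have h2 : ContDiffOn ℝ ∞ (fun q => adjEv y (fderiv ℝ (A t) q)) U :=
    (adjEv y).contDiff.comp_contDiffOn h1
  exact (hN.clm_apply h2).neg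

theorem fld_bound (M : ℕ → ℝ) (k : ℕ) : ∃ K : ℝ, ∀ {NN : ℝ → E → E →L[ℝ] E} {A : ℝ → E → E}
    {y : E} {t : ℝ} {U : Set E}, IsOpen U → ‖y‖ ≤ 1 → ContDiffOn ℝ ∞ (NN t) U →
    ContDiffOn ℝ ∞ (A t) U → (∀ k, ∀ q ∈ U, ‖iteratedFDeriv ℝ k (NN t) q‖ ≤ M k) →
    (∀ k, ∀ q ∈ U, ‖iteratedFDeriv ℝ k (A t) q‖ ≤ M k) →
    ∀ q ∈ U, ‖iteratedFDeriv ℝ k (fld NN A y t) q‖ ≤ K := by
  refine ⟨∑ i ∈ Finset.range (k + 1), (k.choose i : ℝ) * M i * M (k - i + 1), ?_⟩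
  intro NN A y t U hU hy hN hA hMN hMA q hq
  have h1 : ContDiffOn ℝ ∞ (fun q => fderiv ℝ (A t) q) U :=
    hA.fderiv_of_isOpen hU (by simp)
  have h2 : ContDiffOn ℝ ∞ (fun q => adjEv y (fderiv ℝ (A t) q)) U :=
    (adjEv y).contDiff.comp_contDiffOn h1
  have hfl : fld NN A y t = fun q => -(NN t q (adjEv y (fderiv ℝ (A t) q))) := rfl
  have h3 : ‖iteratedFDeriv ℝ k (fld NN A y t) q‖
      = ‖iteratedFDerivWithin ℝ k (fun q => NN t q (adjEv y (fderiv ℝ (A t) q))) U q‖ := by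
    rw [hfl, ← iteratedFDerivWithin_of_isOpen k hU hq]
    have := iteratedFDerivWithin_neg_apply (𝕜 := ℝ) (i := k) hU.uniqueDiffOn hq
      (f := fun q => NN t q (adjEv y (fderiv ℝ (A t) q)))
    rw [show (fun q => -(NN t q (adjEv y (fderiv ℝ (A t) q))))
      = -(fun q => NN t q (adjEv y (fderiv ℝ (A t) q))) from rfl, this, norm_neg]
  rw [h3]
  refine (norm_iteratedFDerivWithin_clm_apply hN h2 hU.uniqueDiffOn hq (n := k)
    (by exact_mod_cast le_top)).trans ?_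
  refine Finset.sum_le_sum fun i _ => ?_
  have h4 : ‖iteratedFDerivWithin ℝ i (NN t) U q‖ ≤ M i := by
    rw [iteratedFDerivWithin_of_isOpen i hU hq]
    exact hMN i q hq
  have h5 : ‖iteratedFDerivWithin ℝ (k - i) (fun q => adjEv y (fderiv ℝ (A t) q)) U q‖
      ≤ M (k - i + 1) := by
    have h6 := ContinuousLinearMap.norm_iteratedFDerivWithin_comp_left (adjEv y)
      (h1 q hq) hU.uniqueDiffOn hq (n := k - i) (WithTop.coe_le_coe.2 (le_top : ((k - i : ℕ) : ℕ∞) ≤ ⊤))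
    refine (show ‖iteratedFDerivWithin ℝ (k - i) (fun q => adjEv y (fderiv ℝ (A t) q)) U q‖
      ≤ ‖adjEv y‖ * ‖iteratedFDerivWithin ℝ (k - i) (fun q => fderiv ℝ (A t) q) U q‖
      from h6).trans ?_
    rw [iteratedFDerivWithin_of_isOpen (k - i) hU hq]
    have h7 : ‖iteratedFDeriv ℝ (k - i) (fun q => fderiv ℝ (A t) q) q‖ ≤ M (k - i + 1) := by
      have h8 := norm_iteratedFDeriv_fderiv (𝕜 := ℝ) (f := A t) (x := q) (n := k - i)
      rw [show (fun q => fderiv ℝ (A t) q) = fderiv ℝ (A t) from rfl, h8]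
      exact hMA _ q hq
    calc ‖adjEv y‖ * ‖iteratedFDeriv ℝ (k - i) (fun q => fderiv ℝ (A t) q) q‖
        ≤ 1 * ‖iteratedFDeriv ℝ (k - i) (fun q => fderiv ℝ (A t) q) q‖ :=
          mul_le_mul_of_nonneg_right ((norm_adjEv_le y).trans hy) (norm_nonneg _)
      _ ≤ M (k - i + 1) := by rw [one_mul]; exact h7
  have h9 : 0 ≤ M i := (norm_nonneg _).trans h4
  calc (k.choose i : ℝ) * ‖iteratedFDerivWithin ℝ i (NN t) U q‖
        * ‖iteratedFDerivWithin ℝ (k - i) (fun q => adjEv y (fderiv ℝ (A t) q)) U q‖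
      ≤ (k.choose i : ℝ) * M i * M (k - i + 1) := by
        refine mul_le_mul (mul_le_mul_of_nonneg_left h4 (by positivity)) h5 (norm_nonneg _) ?_
        positivity

/-- **Holonomies are smooth along the leaves**, abstract form. -/
theorem hsm (hD : DepS E) (M : ℕ → ℝ) : ∃ K : ℕ → ℝ, ∀ (NN : ℝ → E → E →L[ℝ] E)
    (A : ℝ → E → E) (y : E) (q : ℝ → E → E) (U V : Set E), IsOpen U → IsOpen V →
    ‖y‖ ≤ 1 →
    (∀ t ∈ Icc (0 : ℝ) 1, ContDiffOn ℝ ∞ (NN t) U ∧ ContDiffOn ℝ ∞ (A t) U) →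
    (∀ t ∈ Icc (0 : ℝ) 1, ∀ k, ∀ x ∈ U, ‖iteratedFDeriv ℝ k (NN t) x‖ ≤ M k ∧
      ‖iteratedFDeriv ℝ k (A t) x‖ ≤ M k) →
    ContinuousOn (fun p : ℝ × E => NN p.1 p.2) (Icc (0 : ℝ) 1 ×ˢ U) →
    ContinuousOn (fun p : ℝ × E => fderiv ℝ (A p.1) p.2) (Icc (0 : ℝ) 1 ×ˢ U) →
    (∀ x ∈ V, q 0 x = x) → (∀ x ∈ V, ∀ t ∈ Icc (0 : ℝ) 1, q t x ∈ U) →
    (∀ x ∈ V, ∀ t ∈ Icc (0 : ℝ) 1, HasDerivWithinAt (fun s => q s x)
      (-(NN t (q t x) (ContinuousLinearMap.adjoint (fderiv ℝ (A t) (q t x)) y)))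
        (Icc (0 : ℝ) 1) t) →
    ∀ t ∈ Icc (0 : ℝ) 1, ContDiffOn ℝ ∞ (q t) V ∧
      ∀ k, ∀ x ∈ V, ‖iteratedFDeriv ℝ k (q t) x‖ ≤ K k := by
  choose K' hK' using fun k => fld_bound (E := E) M k
  obtain ⟨K, hK⟩ := hD K'
  refine ⟨K, ?_⟩
  intro NN A y q U V hU hV hy hs hM hcN hcA h0 hmem hq
  refine hK (fld NN A y) U hU (fun t ht => fld_smooth hU (hs t ht).1 (hs t ht).2)
    (fun k t ht x hx => hK' k hU hy (hs t ht).1 (hs t ht).2
      (fun k x hx => (hM t ht k x hx).1) (fun k x hx => (hM t ht k x hx).2) x hx) ?_ V hV q h0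
    hmem (fun x hx t ht => hq x hx t ht)
  have h1 : ContinuousOn (fun p : ℝ × E => adjEv y (fderiv ℝ (A p.1) p.2))
      (Icc (0 : ℝ) 1 ×ˢ U) := (adjEv y).continuous.comp_continuousOn hcA
  exact (hcN.clm_apply h1).neg

omit [CompleteSpace E] in
/-- The crossing points `q s` with `G s (q s) + g (q s) = 0` are differentiable in `s`. -/
theorem crossing_deriv {G : ℝ → E → E} {g : E → E} {q : ℝ → E} {S : Set ℝ} {t : ℝ}
    {H : E ≃L[ℝ] E} {w : E} (ht : t ∈ S) (hq : ContinuousWithinAt q S t)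
    (h0 : ∀ s ∈ S, G s (q s) + g (q s) = 0)
    (hH : HasFDerivAt (fun z => G t z + g z) (H : E →L[ℝ] E) (q t))
    (hw : (fun s => G s (q s) - G t (q s) - (s - t) • w) =o[𝓝[S] t] fun s => s - t) :
    HasDerivWithinAt q (-(H.symm w)) S t := by
  set u : ℝ → E := fun s => q s - q t with hu
  have hF0 : G t (q t) + g (q t) = 0 := h0 t ht
  have h1 : (fun s => G t (q s) + g (q s) - (H : E →L[ℝ] E) (u s)) =o[𝓝[S] t] u := by
    have h2 := (hasFDerivAt_iff_isLittleO.1 hH).comp_tendsto hq.tendsto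
    refine (h2.congr_left fun s => ?_)
    simp only [Function.comp_apply, hF0, sub_zero, hu]
  -- `H u = - (s - t) w + o(s - t) + o(u)`
  have h3 : (fun s => (H : E →L[ℝ] E) (u s) + (s - t) • w) =o[𝓝[S] t] fun s => ‖s - t‖ + ‖u s‖ := by
    have h4 : (fun s => (H : E →L[ℝ] E) (u s) + (s - t) • w) =ᶠ[𝓝[S] t]
        fun s => -(G t (q s) + g (q s) - (H : E →L[ℝ] E) (u s))
          - (G s (q s) - G t (q s) - (s - t) • w) := by
      filter_upwards [self_mem_nhdsWithin] with s hs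
      have h5 := h0 s hs
      have h6 : G s (q s) = - g (q s) := eq_neg_of_add_eq_zero_left h5
      rw [h6]
      abel
    refine Asymptotics.IsLittleO.congr' ?_ h4.symm (EventuallyEq.refl _ _)
    have hA : u =O[𝓝[S] t] fun s => ‖s - t‖ + ‖u s‖ := by
      refine Asymptotics.IsBigO.of_bound 1 (Eventually.of_forall fun s => ?_)
      rw [one_mul, Real.norm_of_nonneg (by positivity)]
      linarith [norm_nonneg (s - t)]
    have hB : (fun s => s - t) =O[𝓝[S] t] fun s => ‖s - t‖ + ‖u s‖ := by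
      refine Asymptotics.IsBigO.of_bound 1 (Eventually.of_forall fun s => ?_)
      rw [one_mul, Real.norm_of_nonneg (by positivity : 0 ≤ ‖s - t‖ + ‖u s‖)]
      linarith [norm_nonneg (u s)]
    exact (h1.neg_left.trans_isBigO hA).sub (hw.trans_isBigO hB)
  -- `u = O(s - t)`
  have h7 : u =O[𝓝[S] t] fun s => s - t := by
    obtain ⟨K, hK0, hK⟩ : ∃ K : ℝ, 0 < K ∧ ∀ z : E, ‖z‖ ≤ K * ‖H z‖ := by
      refine ⟨‖(H.symm : E →L[ℝ] E)‖ + 1, by positivity, fun z => ?_⟩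
      calc ‖z‖ = ‖(H.symm : E →L[ℝ] E) (H z)‖ := by simp
        _ ≤ ‖(H.symm : E →L[ℝ] E)‖ * ‖H z‖ := ContinuousLinearMap.le_opNorm _ _
        _ ≤ (‖(H.symm : E →L[ℝ] E)‖ + 1) * ‖H z‖ := by
            gcongr
            linarith
    have h8 := (Asymptotics.isLittleO_iff.1 h3) (show (0 : ℝ) < 1 / (2 * K) by positivity)
    refine Asymptotics.IsBigO.of_bound (2 * K * (‖w‖ + 1 / (2 * K))) ?_
    filter_upwards [h8] with s hs
    rw [Real.norm_of_nonneg (by positivity : 0 ≤ ‖s - t‖ + ‖u s‖)] at hs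
    have h9 : ‖H (u s)‖ ≤ ‖w‖ * ‖s - t‖ + 1 / (2 * K) * (‖s - t‖ + ‖u s‖) := by
      calc ‖H (u s)‖ = ‖((H : E →L[ℝ] E) (u s) + (s - t) • w) - (s - t) • w‖ := by simp
        _ ≤ ‖(H : E →L[ℝ] E) (u s) + (s - t) • w‖ + ‖(s - t) • w‖ := norm_sub_le _ _
        _ ≤ 1 / (2 * K) * (‖s - t‖ + ‖u s‖) + ‖s - t‖ * ‖w‖ := by
            rw [norm_smul]
            gcongr
        _ = _ := by ring
    have h10 := hK (u s)
    have h11 : K * (1 / (2 * K)) = 1 / 2 := by field_simp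
    have h12 : K * ‖H (u s)‖ ≤ K * (‖w‖ * ‖s - t‖ + 1 / (2 * K) * (‖s - t‖ + ‖u s‖)) :=
      mul_le_mul_of_nonneg_left h9 hK0.le
    have h13 : K * (‖w‖ * ‖s - t‖ + 1 / (2 * K) * (‖s - t‖ + ‖u s‖))
        = K * ‖w‖ * ‖s - t‖ + 1 / 2 * ‖s - t‖ + 1 / 2 * ‖u s‖ := by
      rw [mul_add, ← mul_assoc K (1 / (2 * K)), h11]
      ring
    have h14 : 2 * K * (‖w‖ + 1 / (2 * K)) * ‖s - t‖ = 2 * (K * ‖w‖ * ‖s - t‖) + ‖s - t‖ := by
      field_simp
    rw [h14]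
    linarith
  have h15 : (fun s => (H : E →L[ℝ] E) (u s) + (s - t) • w) =o[𝓝[S] t] fun s => s - t := by
    refine h3.trans_isBigO ?_
    exact (Asymptotics.isBigO_refl _ _).norm_left.add h7.norm_left
  rw [hasDerivWithinAt_iff_isLittleO]
  have h16 := ((H.symm : E →L[ℝ] E).isBigO_comp
    (fun s => (H : E →L[ℝ] E) (u s) + (s - t) • w) (𝓝[S] t)).trans_isLittleO h15
  refine h16.congr_left fun s => ?_
  simp only [ContinuousLinearEquiv.coe_coe, map_add, map_smul,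
    ContinuousLinearEquiv.symm_apply_apply, smul_neg, sub_neg_eq_add, hu]

end Vale.Agent.P207.H391.Hsm
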