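import Mathlib

/-!
# P207, line N4: nondegenerate minima depending on parameters, over a compact set of parameters
-/

open Set Filter Topology Metric

noncomputable section

namespace Vale.Agent.P207.H391.PMin

/-- If `h > 0` wherever `g = 0` on a compact set, then `h > ε` wherever `g < ε`. -/
theorem tube {W : Type*} [TopologicalSpace W] {A : Set W} (hA : IsCompact A) {g h : W → ℝ}
    (hg : ContinuousOn g A) (hh : ContinuousOn h A) (h0 : ∀ w ∈ A, 0 ≤ g w)
    (hpos : ∀ w ∈ A, g w = 0 → 0 < h w) : ∃ ε > 0, ∀ w ∈ A, g w < ε → ε < h w := by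
  have hk : ContinuousOn (fun w => max (g w) (h w)) A := hg.sup hh
  obtain ⟨ε, hε, hmin⟩ := hA.exists_forall_le' hk (a := 0) fun w hw => by
    rcases (h0 w hw).eq_or_lt with h1 | h1
    · exact lt_max_of_lt_right (hpos w hw h1.symm)
    · exact lt_max_of_lt_left h1
  refine ⟨ε / 2, by positivity, fun w hw hgw => ?_⟩
  have h1 := hmin w hw
  rcases le_max_iff.1 h1 with h2 | h2 <;> linarith

variable {E : Type*} [NormedAddCommGroup E] [InnerProductSpace ℝ E]

/-- Strong monotonicity of a gradient on a convex set. -/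
theorem strong {G : E → E} {H : E → E →L[ℝ] E} {S : Set E} (hS : Convex ℝ S) {m : ℝ}
    (hG : ∀ q ∈ S, HasFDerivAt G (H q) q) (hm : ∀ q ∈ S, ∀ v, m * ‖v‖ ^ 2 ≤ inner ℝ (H q v) v)
    {a b : E} (ha : a ∈ S) (hb : b ∈ S) : m * ‖a - b‖ ^ 2 ≤ inner ℝ (G a - G b) (a - b) := by
  set φ : ℝ → ℝ := fun s => inner ℝ (G (b + s • (a - b))) (a - b) with hφ
  have hmem : ∀ s ∈ Icc (0 : ℝ) 1, b + s • (a - b) ∈ S := fun s hs => by
    have := hS.add_smul_sub_mem hb ha hs
    exact this
  have hd : ∀ s ∈ Icc (0 : ℝ) 1, HasDerivAt φ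
      (inner ℝ (H (b + s • (a - b)) (a - b)) (a - b)) s := by
    intro s hs
    have h1 : HasDerivAt (fun s : ℝ => b + s • (a - b)) (a - b) s := by
      simpa using ((hasDerivAt_id s).smul_const (a - b)).const_add b
    have h2 := (hG _ (hmem s hs)).comp_hasDerivAt s h1
    have h3 := h2.inner ℝ (hasDerivAt_const s (a - b))
    simpa [hφ] using h3
  have h4 : m * ‖a - b‖ ^ 2 * (1 - 0) ≤ φ 1 - φ 0 := by
    refine Convex.mul_sub_le_image_sub_of_le_deriv (convex_Icc (0 : ℝ) 1)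
      (fun s hs => (hd s hs).continuousAt.continuousWithinAt)
      (fun s hs => (hd s (interior_subset hs)).differentiableAt.differentiableWithinAt)
      (fun s hs => ?_) 0 (by simp) 1 (by simp) (by norm_num)
    rw [(hd s (interior_subset hs)).deriv]
    exact hm _ (hmem s (interior_subset hs)) _
  have h5 : φ 1 - φ 0 = inner ℝ (G a - G b) (a - b) := by
    simp only [hφ, one_smul, zero_smul, add_zero, add_sub_cancel, inner_sub_left]
  linarith

theorem strong_norm {G : E → E} {H : E → E →L[ℝ] E} {S : Set E} (hS : Convex ℝ S) {m : ℝ}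
    (hG : ∀ q ∈ S, HasFDerivAt G (H q) q) (hm : ∀ q ∈ S, ∀ v, m * ‖v‖ ^ 2 ≤ inner ℝ (H q v) v)
    {a b : E} (ha : a ∈ S) (hb : b ∈ S) : m * ‖a - b‖ ≤ ‖G a - G b‖ := by
  rcases (norm_nonneg (a - b)).eq_or_lt with h0 | h0
  · rw [← h0]
    simp
  · have h1 := strong hS hG hm ha hb
    have h2 := real_inner_le_norm (G a - G b) (a - b)
    have h3 : (m * ‖a - b‖) * ‖a - b‖ ≤ ‖G a - G b‖ * ‖a - b‖ := by
      calc (m * ‖a - b‖) * ‖a - b‖ = m * ‖a - b‖ ^ 2 := by ring
        _ ≤ _ := h1.trans h2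
    exact le_of_mul_le_mul_right h3 h0

/-- Nondegenerate minima depending on a parameter. -/
theorem param_min [FiniteDimensional ℝ E] {Z : Type*} [TopologicalSpace Z] {K : Set Z}
    (hK : IsCompact K) {ν : Z → ℝ} (hν : ContinuousOn ν K) (hν0 : ∀ z ∈ K, 0 ≤ ν z)
    {c : Z → E} (hc : ContinuousOn c K) {r R : ℝ} (hrR : r < R)
    (hcr : ∀ z ∈ K, c z ∈ closedBall (0 : E) r)
    {f : Z → E → ℝ} (hf : ContinuousOn (fun p : Z × E => f p.1 p.2) (K ×ˢ closedBall 0 R))
    {H : Z → E → E →L[ℝ] E}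
    (hH : ContinuousOn (fun p : Z × E => H p.1 p.2) (K ×ˢ closedBall 0 R))
    (hmin : ∀ z ∈ K, ν z = 0 → ∀ q ∈ closedBall (0 : E) R, q ≠ c z → f z (c z) < f z q)
    (hpos : ∀ z ∈ K, ν z = 0 → ∀ v ≠ 0, 0 < inner ℝ (H z (c z) v) v) {ε₀ : ℝ} (hε₀ : 0 < ε₀) :
    ∃ ρ > 0, ∃ m > 0, ∃ ε > 0, ε ≤ ε₀ ∧ ε ≤ R - r ∧ ∀ z ∈ K, ν z < ρ →
      (∃ q ∈ ball (c z) ε, ∀ q' ∈ closedBall (0 : E) R, f z q ≤ f z q') ∧
      (∀ q ∈ closedBall (0 : E) R, f z q ≤ f z (c z) → q ∈ ball (c z) ε) ∧
      ∀ q ∈ ball (c z) ε, ∀ v, m * ‖v‖ ^ 2 ≤ inner ℝ (H z q v) v := by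
  -- uniform positivity of the Hessian
  obtain ⟨m, hm, h1⟩ : ∃ m > 0, ∀ w ∈ (K ×ˢ closedBall (0 : E) R) ×ˢ sphere (0 : E) 1,
      ν w.1.1 + ‖w.1.2 - c w.1.1‖ < m → m < inner ℝ (H w.1.1 w.1.2 w.2) w.2 := by
    refine tube ((hK.prod (isCompact_closedBall 0 R)).prod (isCompact_sphere 0 1)) ?_ ?_ ?_ ?_
    · refine ContinuousOn.add ?_ (ContinuousOn.norm (ContinuousOn.sub ?_ ?_))
      · exact hν.comp (continuous_fst.comp continuous_fst).continuousOn fun w hw => hw.1.1
      · exact (continuous_snd.comp continuous_fst).continuousOn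
      · exact hc.comp (continuous_fst.comp continuous_fst).continuousOn fun w hw => hw.1.1
    · have h2 : ContinuousOn (fun w : (Z × E) × E => H w.1.1 w.1.2)
          ((K ×ˢ closedBall (0 : E) R) ×ˢ sphere (0 : E) 1) :=
        hH.comp continuous_fst.continuousOn fun w hw => hw.1
      exact (h2.clm_apply continuous_snd.continuousOn).inner continuous_snd.continuousOn
    · intro w hw
      exact add_nonneg (hν0 _ hw.1.1) (norm_nonneg _)
    · intro w hw h2
      have h3 := hν0 _ hw.1.1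
      have h4 := norm_nonneg (w.1.2 - c w.1.1)
      have h5 : ν w.1.1 = 0 := by linarith
      have h6 : w.1.2 = c w.1.1 := by
        rw [← sub_eq_zero, ← norm_eq_zero]
        linarith
      rw [h6]
      refine hpos _ hw.1.1 h5 _ ?_
      rintro h7
      have h8 := hw.2
      rw [h7] at h8
      simp at h8
  set ε := min (min (m / 2) ε₀) (R - r) with hε
  have hε0 : 0 < ε := by
    refine lt_min (lt_min (by positivity) hε₀) (by linarith)
  -- the gap
  obtain ⟨ρ', hρ', h2⟩ : ∃ ρ > 0, ∀ w ∈ {w : Z × E | w ∈ K ×ˢ closedBall (0 : E) R ∧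
      ε ≤ ‖w.2 - c w.1‖}, ν w.1 < ρ → ρ < f w.1 w.2 - f w.1 (c w.1) := by
    have hcc : ContinuousOn (fun w : Z × E => c w.1) (K ×ˢ closedBall (0 : E) R) :=
      hc.comp continuous_fst.continuousOn fun w hw => hw.1
    have hcl : IsCompact {w : Z × E | w ∈ K ×ˢ closedBall (0 : E) R ∧ ε ≤ ‖w.2 - c w.1‖} := by
      have h3 : ContinuousOn (fun w : Z × E => ‖w.2 - c w.1‖) (K ×ˢ closedBall (0 : E) R) :=
        (continuous_snd.continuousOn.sub hcc).norm
      have h4 := (hK.prod (isCompact_closedBall (0 : E) R))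
      have h5 : IsCompact ((K ×ˢ closedBall (0 : E) R) ∩ (fun w : Z × E => ‖w.2 - c w.1‖) ⁻¹'
          (Ici ε)) := by
        obtain ⟨u, hu, hu2⟩ := (continuousOn_iff_isClosed.1 h3) (Ici ε) isClosed_Ici
        rw [inter_comm, hu2, inter_comm]
        exact h4.inter_right hu
      exact h5
    refine tube hcl ?_ ?_ ?_ ?_
    · exact hν.comp continuous_fst.continuousOn fun w hw => hw.1.1
    · refine (hf.mono fun w hw => hw.1).sub ?_
      refine hf.comp (continuous_fst.continuousOn.prodMk (hcc.mono fun w hw => hw.1)) ?_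
      intro w hw
      exact ⟨hw.1.1, (closedBall_subset_closedBall hrR.le) (hcr _ hw.1.1)⟩
    · exact fun w hw => hν0 _ hw.1.1
    · intro w hw h3
      have h4 : w.2 ≠ c w.1 := by
        rintro h5
        have h6 := hw.2
        rw [h5, sub_self, norm_zero] at h6
        linarith
      linarith [hmin _ hw.1.1 h3 _ hw.1.2 h4]
  refine ⟨min (m / 2) ρ', lt_min (by positivity) hρ', m, hm, ε, hε0,
    (min_le_left _ _).trans (min_le_right _ _), min_le_right _ _, fun z hz hzν => ?_⟩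
  have hcz : c z ∈ closedBall (0 : E) R := (closedBall_subset_closedBall hrR.le) (hcr z hz)
  have hloc : ∀ q ∈ closedBall (0 : E) R, f z q ≤ f z (c z) → q ∈ ball (c z) ε := by
    intro q hq hqf
    rw [mem_ball, dist_eq_norm]
    by_contra h3
    push Not at h3
    have h4 := h2 (z, q) ⟨⟨hz, hq⟩, h3⟩ (hzν.trans_le (min_le_right _ _))
    simp only at h4
    linarith
  refine ⟨?_, hloc, ?_⟩
  · have h3 : ContinuousOn (f z) (closedBall (0 : E) R) :=
      hf.comp (f := fun q : E => ((z, q) : Z × E)) (by fun_prop) fun q hq => ⟨hz, hq⟩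
    obtain ⟨q, hq, hqm⟩ := (isCompact_closedBall (0 : E) R).exists_isMinOn ⟨c z, hcz⟩ h3
    exact ⟨q, hloc q hq (hqm hcz), fun q' hq' => hqm hq'⟩
  · intro q hq v
    rcases eq_or_ne v 0 with rfl | hv
    · simp
    · have hv' : 0 < ‖v‖ := norm_pos_iff.2 hv
      have hqn : ‖q - c z‖ < ε := by rwa [mem_ball, dist_eq_norm] at hq
      have hqR : q ∈ closedBall (0 : E) R := by
        rw [mem_closedBall_zero_iff]
        have h3 := hcr z hz
        rw [mem_closedBall_zero_iff] at h3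
        have h4 : ε ≤ R - r := min_le_right _ _
        calc ‖q‖ = ‖(q - c z) + c z‖ := by rw [sub_add_cancel]
          _ ≤ ‖q - c z‖ + ‖c z‖ := norm_add_le _ _
          _ ≤ R := by linarith
      have h5 := h1 ((z, q), (‖v‖⁻¹ : ℝ) • v) ⟨⟨hz, hqR⟩, by
        rw [mem_sphere_zero_iff_norm, norm_smul, norm_inv, norm_norm]
        exact inv_mul_cancel₀ hv'.ne'⟩ (by
          have h6 : ε ≤ m / 2 := (min_le_left _ _).trans (min_le_left _ _)
          have h7 : ν z < m / 2 := hzν.trans_le (min_le_left _ _)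
          simp only
          linarith)
      simp only [map_smul, inner_smul_left, inner_smul_right, conj_trivial] at h5
      have h8 : ‖v‖ ^ 2 * (‖v‖⁻¹ * (‖v‖⁻¹ * inner ℝ (H z q v) v)) = inner ℝ (H z q v) v := by
        field_simp
      have h9 := mul_le_mul_of_nonneg_left h5.le (sq_nonneg ‖v‖)
      rw [h8] at h9
      linarith

end Vale.Agent.P207.H391.PMin
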