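import Mathlib

/-!
# P207, block PI0: the leaf Darboux equation, scalar part

`sinh(2t) (K + φ'') + 2 q cosh(2t) φ' = 0`, `|K| ≤ M` implies
`|φ'(t)| ≤ M tanh(2t) / (2q)` and
`|∫₀ᴿ K + φ'(R) + 2 q (φ(R) - φ(0))| ≤ M log 2 / 2` for `R ≥ 0`.
-/

open Filter Topology MeasureTheory intervalIntegral

noncomputable section

namespace Vale.Agent.P207.H391

/-- `tanh(2t)` -/
def th (t : ℝ) : ℝ := Real.sinh (2 * t) / Real.cosh (2 * t)

theorem hasDerivAt_sinh2 (t : ℝ) :
    HasDerivAt (fun t => Real.sinh (2 * t)) (2 * Real.cosh (2 * t)) t := by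
  have h := ((hasDerivAt_id' t).const_mul (2:ℝ)).sinh
  simpa [mul_comm] using h

theorem hasDerivAt_cosh2 (t : ℝ) :
    HasDerivAt (fun t => Real.cosh (2 * t)) (2 * Real.sinh (2 * t)) t := by
  have h := ((hasDerivAt_id' t).const_mul (2:ℝ)).cosh
  simpa [mul_comm] using h

theorem hasDerivAt_th (t : ℝ) : HasDerivAt th (2 * (1 - th t ^ 2)) t := by
  have h := (hasDerivAt_sinh2 t).div (hasDerivAt_cosh2 t) (Real.cosh_pos _).ne'
  refine h.congr_deriv ?_
  have hc := (Real.cosh_pos (2 * t)).ne'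
  unfold th
  field_simp

theorem th_zero : th 0 = 0 := by simp [th]

theorem th_nonneg {t : ℝ} (ht : 0 ≤ t) : 0 ≤ th t :=
  div_nonneg (Real.sinh_nonneg_iff.2 (by linarith)) (Real.cosh_pos _).le

theorem th_le_one (t : ℝ) : th t ≤ 1 := by
  unfold th
  rw [div_le_one (Real.cosh_pos _)]
  have h := Real.exp_pos (-(2 * t))
  have h1 := Real.cosh_sub_sinh (2 * t)
  linarith

theorem cosh_th (t : ℝ) : Real.cosh (2 * t) * th t = Real.sinh (2 * t) := by
  unfold th
  have hc := (Real.cosh_pos (2 * t)).ne'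
  field_simp

section ode

variable {q M : ℝ} {φ φ' φ'' K : ℝ → ℝ}

theorem ode_zero (hq : 0 < q)
    (h : ∀ t, Real.sinh (2 * t) * (K t + φ'' t) + 2 * q * Real.cosh (2 * t) * φ' t = 0) :
    φ' 0 = 0 := by
  have h0 := h 0
  simp at h0
  rcases h0 with h0 | h0
  · exact absurd h0 hq.ne'
  · exact h0

/-- the barrier -/
theorem ode_lower (hq : 0 < q) (h1 : ∀ t, HasDerivAt φ' (φ'' t) t) (hK : ∀ t, K t ≤ M)
    (hM : 0 ≤ M)
    (h : ∀ t, Real.sinh (2 * t) * (K t + φ'' t) + 2 * q * Real.cosh (2 * t) * φ' t = 0)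
    {t : ℝ} (ht : 0 ≤ t) : -(M * th t / (2 * q)) ≤ φ' t := by
  set g : ℝ → ℝ := fun t => φ' t + M * th t / (2 * q) with hg
  have hgd : ∀ t, HasDerivAt g (φ'' t + M * (2 * (1 - th t ^ 2)) / (2 * q)) t := fun t =>
    (h1 t).add (((hasDerivAt_th t).const_mul M).div_const (2 * q))
  have hgc : Continuous g := continuous_iff_continuousAt.2 fun t => (hgd t).continuousAt
  have hg0 : g 0 = 0 := by simp [hg, ode_zero hq h, th_zero]
  suffices hgt : 0 ≤ g t by simp only [hg] at hgt; linarith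
  obtain ⟨u, hu, hmin⟩ := isCompact_Icc.exists_isMinOn (Set.nonempty_Icc.2 ht) hgc.continuousOn
  have hut : g u ≤ g t := hmin (Set.right_mem_Icc.2 ht)
  refine le_trans ?_ hut
  by_contra hneg
  push Not at hneg
  have hu0 : 0 < u := by
    rcases hu.1.eq_or_lt with h0 | h0
    · rw [← h0, hg0] at hneg; exact absurd hneg (lt_irrefl _)
    · exact h0
  have hs : 0 < Real.sinh (2 * u) := Real.sinh_pos_iff.2 (by linarith)
  have hc : 0 < Real.cosh (2 * u) := Real.cosh_pos _
  have ht1 := th_le_one u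
  have ht0 := th_nonneg hu0.le
  -- the derivative at `u` is positive
  have hd : 0 < φ'' u + M * (2 * (1 - th u ^ 2)) / (2 * q) := by
    have e1 : Real.sinh (2 * u) * (φ'' u + M * (2 * (1 - th u ^ 2)) / (2 * q)) =
        Real.sinh (2 * u) * (M - K u) + Real.sinh (2 * u) * (M * (1 - th u ^ 2) / q) -
          2 * q * Real.cosh (2 * u) * g u := by
      have e2 := h u
      have e3 := cosh_th u
      have e4 : 2 * q * Real.cosh (2 * u) * g u = 2 * q * Real.cosh (2 * u) * φ' u +
          M * Real.sinh (2 * u) := by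
        rw [← e3]; simp only [hg]; field_simp
      rw [e4]
      have e5 : M * (2 * (1 - th u ^ 2)) / (2 * q) = M * (1 - th u ^ 2) / q := by
        field_simp
      rw [e5]
      linear_combination e2
    have p1 : 0 ≤ Real.sinh (2 * u) * (M - K u) := mul_nonneg hs.le (by linarith [hK u])
    have p2 : 0 ≤ Real.sinh (2 * u) * (M * (1 - th u ^ 2) / q) := by
      refine mul_nonneg hs.le (div_nonneg (mul_nonneg hM ?_) hq.le)
      nlinarith
    have p3 : 0 < -(2 * q * Real.cosh (2 * u) * g u) := by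
      have : 0 < 2 * q * Real.cosh (2 * u) := by positivity
      nlinarith
    have p4 : 0 < Real.sinh (2 * u) * (φ'' u + M * (2 * (1 - th u ^ 2)) / (2 * q)) := by
      rw [e1]; linarith
    exact (mul_pos_iff_of_pos_left hs).1 p4
  -- contradiction with the minimum
  have hsl := (hasDerivAt_iff_tendsto_slope.1 (hgd u)).eventually (lt_mem_nhds hd)
  have hlt : ∀ᶠ s in 𝓝[<] u, 0 < slope g u s := hsl.filter_mono
    (nhdsWithin_mono _ fun s (hs : s < u) => hs.ne)
  have hin : ∀ᶠ s in 𝓝[<] u, s ∈ Set.Ioo 0 u := Ioo_mem_nhdsLT hu0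
  obtain ⟨s, hs1, hs2⟩ := (hlt.and hin).exists
  rw [slope_def_field] at hs1
  have h5 : g s - g u < 0 := by
    have h6 : s - u < 0 := by linarith [hs2.2]
    by_contra hcon
    push Not at hcon
    exact absurd hs1 (not_lt.2 (div_nonpos_of_nonneg_of_nonpos hcon h6.le))
  have h7 : g u ≤ g s := hmin ⟨hs2.1.le, hs2.2.le.trans hu.2⟩
  linarith

theorem ode_bound (hq : 0 < q) (h1 : ∀ t, HasDerivAt φ' (φ'' t) t) (hK : ∀ t, |K t| ≤ M)
    (h : ∀ t, Real.sinh (2 * t) * (K t + φ'' t) + 2 * q * Real.cosh (2 * t) * φ' t = 0)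
    {t : ℝ} (ht : 0 ≤ t) : |φ' t| ≤ M * th t / (2 * q) := by
  have hM : 0 ≤ M := (abs_nonneg _).trans (hK 0)
  have a1 := ode_lower hq h1 (fun t => (abs_le.1 (hK t)).2) hM h ht
  have a2 := ode_lower (φ' := fun t => -φ' t) (φ'' := fun t => -φ'' t) (K := fun t => -K t)
    hq (fun t => (h1 t).neg) (fun t => by linarith [(abs_le.1 (hK t)).1]) hM
    (fun t => by linear_combination -(h t)) ht
  rw [abs_le]
  constructor
  · exact a1
  · linarith

theorem ode_int (hq : 0 < q) (h0 : ∀ t, HasDerivAt φ (φ' t) t)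
    (h1 : ∀ t, HasDerivAt φ' (φ'' t) t) (hKc : Continuous K) (hK : ∀ t, |K t| ≤ M)
    (h : ∀ t, Real.sinh (2 * t) * (K t + φ'' t) + 2 * q * Real.cosh (2 * t) * φ' t = 0)
    {R : ℝ} (hR : 0 ≤ R) :
    |(∫ t in (0:ℝ)..R, K t) + φ' R + 2 * q * (φ R - φ 0)| ≤ M * (Real.log 2 / 2) := by
  have hM : 0 ≤ M := (abs_nonneg _).trans (hK 0)
  set F : ℝ → ℝ := fun R => (∫ t in (0:ℝ)..R, K t) + φ' R + 2 * q * (φ R - φ 0) with hF
  have hFd : ∀ t, HasDerivAt F (K t + φ'' t + 2 * q * φ' t) t := by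
    intro t
    have a1 := integral_hasDerivAt_right (hKc.intervalIntegrable 0 t)
      (hKc.stronglyMeasurableAtFilter _ _) hKc.continuousAt
    exact (a1.add (h1 t)).add (((h0 t).sub_const (φ 0)).const_mul (2 * q))
  have hF0 : F 0 = 0 := by simp [hF, ode_zero hq h]
  -- the majorant
  set B : ℝ → ℝ := fun t => M * (t - Real.log (Real.cosh (2 * t)) / 2) with hB
  have hBd : ∀ t, HasDerivAt B (M * (1 - th t)) t := by
    intro t
    have a1 := ((hasDerivAt_cosh2 t).log (Real.cosh_pos _).ne').div_const 2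
    have a2 := ((hasDerivAt_id' t).sub a1).const_mul M
    refine a2.congr_deriv ?_
    unfold th
    ring
  have hB0 : B 0 = 0 := by simp [hB]
  have hder : ∀ t, 0 < t → |K t + φ'' t + 2 * q * φ' t| ≤ M * (1 - th t) := by
    intro t ht
    have hs : 0 < Real.sinh (2 * t) := Real.sinh_pos_iff.2 (by linarith)
    have hc : 0 < Real.cosh (2 * t) := Real.cosh_pos _
    have e1 : K t + φ'' t + 2 * q * φ' t =
        -(2 * q * ((Real.cosh (2 * t) - Real.sinh (2 * t)) / Real.sinh (2 * t)) * φ' t) := by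
      have e2 := h t
      field_simp
      linear_combination e2
    have hcs : 0 ≤ Real.cosh (2 * t) - Real.sinh (2 * t) := by
      rw [Real.cosh_sub_sinh]; exact (Real.exp_pos _).le
    have a1 := ode_bound hq h1 hK h ht.le
    rw [e1, abs_neg, abs_mul, abs_of_nonneg (by positivity)]
    calc 2 * q * ((Real.cosh (2 * t) - Real.sinh (2 * t)) / Real.sinh (2 * t)) * |φ' t|
        ≤ 2 * q * ((Real.cosh (2 * t) - Real.sinh (2 * t)) / Real.sinh (2 * t)) *
          (M * th t / (2 * q)) := mul_le_mul_of_nonneg_left a1 (by positivity)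
      _ = M * (1 - th t) := by
          unfold th
          field_simp
  have mono : ∀ σ : ℝ, |σ| = 1 → MonotoneOn (fun t => B t + σ * F t) (Set.Ici 0) := by
    intro σ hσ
    refine monotoneOn_of_deriv_nonneg (convex_Ici 0) ?_ ?_ ?_
    · exact fun t _ => ((hBd t).add ((hFd t).const_mul σ)).continuousAt.continuousWithinAt
    · exact fun t _ => ((hBd t).add ((hFd t).const_mul σ)).differentiableAt.differentiableWithinAt
    · intro t ht
      rw [interior_Ici] at ht
      have e : deriv (fun t => B t + σ * F t) t =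
          M * (1 - th t) + σ * (K t + φ'' t + 2 * q * φ' t) :=
        ((hBd t).add ((hFd t).const_mul σ)).deriv
      rw [e]
      have a1 := hder t ht
      have a2 : |σ * (K t + φ'' t + 2 * q * φ' t)| ≤ M * (1 - th t) := by
        rw [abs_mul, hσ, one_mul]; exact a1
      linarith [(abs_le.1 a2).1]
  have m1 := mono 1 (by simp) (Set.mem_Ici.2 le_rfl) (Set.mem_Ici.2 hR) hR
  have m2 := mono (-1) (by simp) (Set.mem_Ici.2 le_rfl) (Set.mem_Ici.2 hR) hR
  simp only [hF0, hB0] at m1 m2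
  have hlog : B R ≤ M * (Real.log 2 / 2) := by
    have a1 : Real.exp (2 * R) / 2 ≤ Real.cosh (2 * R) := by
      rw [Real.cosh_eq]
      have := Real.exp_pos (-(2 * R))
      linarith
    have a2 : 2 * R - Real.log 2 ≤ Real.log (Real.cosh (2 * R)) := by
      have a3 := Real.log_le_log (by positivity) a1
      rw [Real.log_div (Real.exp_pos _).ne' two_ne_zero, Real.log_exp] at a3
      exact a3
    simp only [hB]
    refine mul_le_mul_of_nonneg_left ?_ hM
    linarith
  rw [abs_le]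
  constructor <;> linarith

end ode

/-- the Fejér average of a function with bounded primitive -/
theorem avg_bdd {u : ℝ → ℝ} (hu : Continuous u) {A S : ℝ} (hS : 0 ≤ S)
    (hA : ∀ R, 0 ≤ R → |∫ t in (0:ℝ)..R, u t| ≤ A) :
    |∫ T in (0:ℝ)..S, (S - T) * u (2 * T)| ≤ A / 2 * S := by
  set V : ℝ → ℝ := fun R => ∫ t in (0:ℝ)..R, u t with hV
  have hVd : ∀ R, HasDerivAt V (u R) R := fun R =>
    integral_hasDerivAt_right (hu.intervalIntegrable 0 R)
      (hu.stronglyMeasurableAtFilter _ _) hu.continuousAt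
  have hVc : Continuous V := continuous_iff_continuousAt.2 fun R => (hVd R).continuousAt
  have hVc2 : Continuous fun x => V (2 * x) := hVc.comp (continuous_const.mul continuous_id)
  have h1 : ∀ T ∈ Set.uIcc 0 S, HasDerivAt
      (fun T => (S - T) * (1 / 2 * V (2 * T)) + 1 / 2 * ∫ x in (0:ℝ)..T, V (2 * x))
      ((S - T) * u (2 * T)) T := by
    intro T _
    have d2 : HasDerivAt (fun T => V (2 * T)) (2 * u (2 * T)) T := by
      have h2 : HasDerivAt (fun T : ℝ => 2 * T) 2 T := by
        simpa using (hasDerivAt_id' T).const_mul (2:ℝ)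
      have h3 := HasDerivAt.comp T (hVd (2 * T)) h2
      rw [mul_comm] at h3
      exact h3
    have dS : HasDerivAt (fun T : ℝ => S - T) (-1) T := by
      simpa using (hasDerivAt_id' T).const_sub S
    have a1 := dS.mul (d2.const_mul (1 / 2))
    have a2 := (integral_hasDerivAt_right (hVc2.intervalIntegrable 0 T)
      (hVc2.stronglyMeasurableAtFilter _ _) hVc2.continuousAt).const_mul (1 / 2 : ℝ)
    refine (a1.add a2).congr_deriv ?_
    ring
  have hc : Continuous fun T => (S - T) * u (2 * T) := by fun_prop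
  rw [integral_eq_sub_of_hasDerivAt h1 (hc.intervalIntegrable _ _)]
  have hV0 : V 0 = 0 := by simp [hV]
  have h5 : ‖∫ x in (0:ℝ)..S, V (2 * x)‖ ≤ A * |S - 0| := by
    refine intervalIntegral.norm_integral_le_of_norm_le_const fun x hx => ?_
    rw [Set.uIoc_of_le hS] at hx
    exact hA _ (by linarith [hx.1])
  rw [sub_zero, abs_of_nonneg hS, Real.norm_eq_abs] at h5
  simp only [mul_zero, sub_self, zero_mul, zero_add, hV0, integral_same, sub_zero, add_zero]
  rw [abs_mul, abs_of_pos (by norm_num : (0:ℝ) < 1 / 2)]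
  linarith

/-- the Fejér average of a derivative of a bounded function -/
theorem avg_deriv_bdd {v u : ℝ → ℝ} (hv : ∀ t, HasDerivAt v (u t) t) (hu : Continuous u)
    {B S : ℝ} (hS : 0 ≤ S) (hB : ∀ t, |v t| ≤ B) :
    |∫ T in (0:ℝ)..S, (S - T) * u (2 * T)| ≤ B * S := by
  have h := avg_bdd (A := 2 * B) hu hS fun R _ => by
    rw [integral_eq_sub_of_hasDerivAt (fun t _ => hv t) (hu.intervalIntegrable _ _)]
    exact (abs_sub _ _).trans (by linarith [hB R, hB 0])
  linarith

end Vale.Agent.P207.H391
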