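import Mathlib

/-!
# P207, block PI: the sharp truncation of the exact test field (abstract part)

One-parameter groups of isometries of a Hilbert space, the truncated field
`y = (1/2) ∫₀ᵀ exp(-κt) (U_t a - U_{-t} b) dt` and the exact value of
`q(y) = 2⟪Z, y⟫ - ‖X y‖² - κ² ‖y‖²`, `Z = (1/2) (X b - κ b + X a + κ a)`.
-/

open Filter Topology MeasureTheory intervalIntegral
open scoped InnerProductSpace

noncomputable section

namespace Vale.Agent.P207.H391

/-- A strongly continuous one-parameter group of isometries. -/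
structure Gr (H : Type*) [NormedAddCommGroup H] [InnerProductSpace ℝ H] where
  U : ℝ → H →L[ℝ] H
  zero : U 0 = 1
  add : ∀ s t, U (s + t) = U s * U t
  norm : ∀ t u, ‖U t u‖ = ‖u‖
  cont : ∀ u, Continuous fun t => U t u

namespace Gr

variable {H : Type*} [NormedAddCommGroup H] [InnerProductSpace ℝ H] (G : Gr H)

/-- `a'` is the derivative of `a` along the group. -/
def D (a a' : H) : Prop := HasDerivAt (fun t => G.U t a) a' 0

theorem U_U (s t : ℝ) (u : H) : G.U s (G.U t u) = G.U (s + t) u := by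
  rw [G.add]; rfl

theorem inner_U_U (t : ℝ) (u v : H) : ⟪G.U t u, G.U t v⟫_ℝ = ⟪u, v⟫_ℝ := by
  have h := fun w => G.norm t w
  have e1 : ⟪G.U t u, G.U t v⟫_ℝ = (‖G.U t u + G.U t v‖ * ‖G.U t u + G.U t v‖ -
      ‖G.U t u‖ * ‖G.U t u‖ - ‖G.U t v‖ * ‖G.U t v‖) / 2 := by
    rw [real_inner_eq_norm_add_mul_self_sub_norm_mul_self_sub_norm_mul_self_div_two]
  have e2 : ⟪u, v⟫_ℝ = (‖u + v‖ * ‖u + v‖ - ‖u‖ * ‖u‖ - ‖v‖ * ‖v‖) / 2 := by
    rw [real_inner_eq_norm_add_mul_self_sub_norm_mul_self_sub_norm_mul_self_div_two]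
  rw [e1, e2, ← map_add, h, h, h]

theorem inner_U_left (s t : ℝ) (u v : H) :
    ⟪G.U s u, G.U t v⟫_ℝ = ⟪G.U (s - t) u, v⟫_ℝ := by
  have h : G.U s u = G.U t (G.U (s - t) u) := by rw [U_U]; congr 2; ring
  rw [h, inner_U_U]

theorem inner_U_right (s t : ℝ) (u v : H) :
    ⟪G.U s u, G.U t v⟫_ℝ = ⟪u, G.U (t - s) v⟫_ℝ := by
  rw [real_inner_comm, inner_U_left, real_inner_comm]

theorem hasDerivAt {a a' : H} (h : G.D a a') (s : ℝ) :
    HasDerivAt (fun t => G.U t a) (G.U s a') s := by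
  have h2 : HasDerivAt (fun t => G.U s (G.U t a)) (G.U s a') 0 :=
    (G.U s).hasFDerivAt.comp_hasDerivAt 0 h
  have h3 : HasDerivAt (fun t => G.U s (G.U (t - s) a)) (G.U s a') s := by
    have h4 : HasDerivAt (fun t => G.U s (G.U t a)) (G.U s a') (s - s) := by
      simpa using h2
    exact h4.comp_sub_const s s
  refine h3.congr_of_eventuallyEq (Eventually.of_forall fun t => ?_)
  simp only
  rw [U_U]; congr 2; ring

theorem hasDerivAt_neg {a a' : H} (h : G.D a a') (s : ℝ) :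
    HasDerivAt (fun t => G.U (-t) a) (-G.U (-s) a') s := by
  have h7 := HasDerivAt.scomp s (G.hasDerivAt h (-s)) (_root_.hasDerivAt_neg s)
  simpa [Function.comp_def] using h7

theorem D.U {a a' : H} (h : G.D a a') (s : ℝ) : G.D (G.U s a) (G.U s a') := by
  have h1 : HasDerivAt (fun t => G.U s (G.U t a)) (G.U s a') 0 :=
    (G.U s).hasFDerivAt.comp_hasDerivAt 0 h
  refine h1.congr_of_eventuallyEq (Eventually.of_forall fun t => ?_)
  simp only
  rw [U_U, U_U, add_comm]

/-- skewness -/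
theorem skew {a a' b b' : H} (ha : G.D a a') (hb : G.D b b') :
    ⟪b', a⟫_ℝ = -⟪b, a'⟫_ℝ := by
  have h1 := HasDerivAt.inner ℝ hb ha
  have h2 : (fun t => ⟪G.U t b, G.U t a⟫_ℝ) = fun _ => ⟪b, a⟫_ℝ := by
    funext t; exact G.inner_U_U t b a
  rw [h2] at h1
  have h3 := h1.unique (hasDerivAt_const 0 ⟪b, a⟫_ℝ)
  simp only [G.zero, one_apply_eq_self] at h3
  linarith

theorem skewU {a a' b b' : H} (ha : G.D a a') (hb : G.D b b') (t : ℝ) :
    ⟪b', G.U t a⟫_ℝ = -⟪b, G.U t a'⟫_ℝ := G.skew (D.U G ha t) hb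

theorem exp_deriv (κ t : ℝ) :
    HasDerivAt (fun t : ℝ => Real.exp (-(κ * t))) (-κ * Real.exp (-(κ * t))) t := by
  have h3 : HasDerivAt (fun t : ℝ => -(κ * t)) (-κ) t := by
    have h4 := ((hasDerivAt_id' t).const_mul κ).neg
    rw [mul_one] at h4
    exact h4
  rw [mul_comm]
  exact h3.exp

/-- `∫₀ᵀ exp(-κt) U_t a dt` -/
def al (κ T : ℝ) (a : H) : H := ∫ t in (0:ℝ)..T, Real.exp (-(κ * t)) • G.U t a

/-- `∫₀ᵀ exp(-κt) U_{-t} b dt` -/
def be (κ T : ℝ) (b : H) : H := ∫ t in (0:ℝ)..T, Real.exp (-(κ * t)) • G.U (-t) b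

theorem cont_al (κ : ℝ) (a : H) : Continuous fun t => Real.exp (-(κ * t)) • G.U t a :=
  (by fun_prop : Continuous fun t : ℝ => Real.exp (-(κ * t))).smul (G.cont a)

theorem cont_be (κ : ℝ) (b : H) : Continuous fun t => Real.exp (-(κ * t)) • G.U (-t) b :=
  (by fun_prop : Continuous fun t : ℝ => Real.exp (-(κ * t))).smul
    ((G.cont b).comp continuous_neg)

variable [CompleteSpace H]

theorem al' {a a' : H} (κ T : ℝ) (h : G.D a a') :
    G.al κ T a' = Real.exp (-(κ * T)) • G.U T a - a + κ • G.al κ T a := by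
  have h1 : ∀ t ∈ Set.uIcc 0 T, HasDerivAt (fun t => Real.exp (-(κ * t)) • G.U t a)
      (Real.exp (-(κ * t)) • G.U t a' - κ • (Real.exp (-(κ * t)) • G.U t a)) t := by
    intro t _
    have h2 : HasDerivAt (fun t : ℝ => Real.exp (-(κ * t))) (-κ * Real.exp (-(κ * t))) t := by
      exact exp_deriv κ t
    have h4 := h2.smul (G.hasDerivAt h t)
    refine h4.congr_deriv ?_
    rw [neg_mul, neg_smul, smul_smul]; abel
  have i1 : IntervalIntegrable (fun t => Real.exp (-(κ * t)) • G.U t a') volume 0 T :=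
    (G.cont_al κ a').intervalIntegrable 0 T
  have i2 : IntervalIntegrable (fun t => κ • (Real.exp (-(κ * t)) • G.U t a)) volume 0 T :=
    ((G.cont_al κ a).const_smul κ).intervalIntegrable 0 T
  have h5 := integral_eq_sub_of_hasDerivAt h1 (i1.sub i2)
  rw [integral_sub i1 i2, intervalIntegral.integral_smul] at h5
  have h6 : G.al κ T a' - κ • G.al κ T a = Real.exp (-(κ * T)) • G.U T a - a := by
    simpa [al, G.zero] using h5
  rw [← h6]; abel

theorem be' {b b' : H} (κ T : ℝ) (h : G.D b b') :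
    G.be κ T b' = -(Real.exp (-(κ * T)) • G.U (-T) b - b + κ • G.be κ T b) := by
  have h1 : ∀ t ∈ Set.uIcc 0 T, HasDerivAt (fun t => Real.exp (-(κ * t)) • G.U (-t) b)
      (-(Real.exp (-(κ * t)) • G.U (-t) b') - κ • (Real.exp (-(κ * t)) • G.U (-t) b)) t := by
    intro t _
    have h2 : HasDerivAt (fun t : ℝ => Real.exp (-(κ * t))) (-κ * Real.exp (-(κ * t))) t := by
      exact exp_deriv κ t
    have h4 := h2.smul (G.hasDerivAt_neg h t)
    refine h4.congr_deriv ?_
    rw [neg_mul, neg_smul, smul_smul, smul_neg]; abel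
  have i0 : IntervalIntegrable (fun t => Real.exp (-(κ * t)) • G.U (-t) b') volume 0 T :=
    (G.cont_be κ b').intervalIntegrable 0 T
  have i1 : IntervalIntegrable (fun t => -(Real.exp (-(κ * t)) • G.U (-t) b')) volume 0 T :=
    i0.neg
  have i2 : IntervalIntegrable (fun t => κ • (Real.exp (-(κ * t)) • G.U (-t) b)) volume 0 T :=
    ((G.cont_be κ b).const_smul κ).intervalIntegrable 0 T
  have h5 := integral_eq_sub_of_hasDerivAt h1 (i1.sub i2)
  rw [integral_sub i1 i2, intervalIntegral.integral_smul, intervalIntegral.integral_neg] at h5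
  have h6 : -G.be κ T b' - κ • G.be κ T b = Real.exp (-(κ * T)) • G.U (-T) b - b := by
    simpa [be, G.zero] using h5
  have h7 : G.be κ T b' = -(Real.exp (-(κ * T)) • G.U (-T) b - b) - κ • G.be κ T b := by
    rw [← h6]; abel
  rw [h7]; abel

theorem inner_al (κ T : ℝ) (a v : H) :
    ⟪v, G.al κ T a⟫_ℝ = ∫ t in (0:ℝ)..T, Real.exp (-(κ * t)) * ⟪v, G.U t a⟫_ℝ := by
  have h := (innerSL ℝ v).intervalIntegral_comp_comm
    ((G.cont_al κ a).intervalIntegrable (μ := volume) 0 T)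
  simp only [innerSL_apply_apply] at h
  rw [al, ← h]
  refine integral_congr fun t _ => ?_
  simp [inner_smul_right]

theorem inner_be (κ T : ℝ) (b v : H) :
    ⟪v, G.be κ T b⟫_ℝ = ∫ t in (0:ℝ)..T, Real.exp (-(κ * t)) * ⟪v, G.U (-t) b⟫_ℝ := by
  have h := (innerSL ℝ v).intervalIntegral_comp_comm
    ((G.cont_be κ b).intervalIntegrable (μ := volume) 0 T)
  simp only [innerSL_apply_apply] at h
  rw [be, ← h]
  refine integral_congr fun t _ => ?_
  simp [inner_smul_right]

/-- the truncated integral lies in the domain -/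
theorem D_al (κ T : ℝ) (a : H) :
    G.D (G.al κ T a) (Real.exp (-(κ * T)) • G.U T a - a + κ • G.al κ T a) := by
  have hc := G.cont_al κ a
  have e1 : ∀ s, G.U s (G.al κ T a) = Real.exp (κ * s) •
      ((∫ t in (0:ℝ)..(T + s), Real.exp (-(κ * t)) • G.U t a) -
        ∫ t in (0:ℝ)..s, Real.exp (-(κ * t)) • G.U t a) := by
    intro s
    have h1 : G.U s (G.al κ T a) = ∫ t in (0:ℝ)..T, G.U s (Real.exp (-(κ * t)) • G.U t a) :=
      ((G.U s).intervalIntegral_comp_comm (hc.intervalIntegrable 0 T)).symm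
    have h2 : ∀ t, G.U s (Real.exp (-(κ * t)) • G.U t a) =
        Real.exp (κ * s) • (Real.exp (-(κ * (t + s))) • G.U (t + s) a) := by
      intro t
      rw [map_smul, U_U, smul_smul, ← Real.exp_add, add_comm s t]
      congr 2; ring
    rw [h1]
    simp only [h2]
    rw [intervalIntegral.integral_smul,
      intervalIntegral.integral_comp_add_right (fun t => Real.exp (-(κ * t)) • G.U t a) s,
      zero_add, intervalIntegral.integral_interval_sub_left (hc.intervalIntegrable _ _)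
        (hc.intervalIntegrable _ _)]
  have d1 : HasDerivAt (fun s => ∫ t in (0:ℝ)..(T + s), Real.exp (-(κ * t)) • G.U t a)
      (Real.exp (-(κ * T)) • G.U T a) 0 := by
    have h := intervalIntegral.integral_hasDerivAt_right (hc.intervalIntegrable 0 (T + 0))
      (hc.stronglyMeasurableAtFilter _ _) hc.continuousAt
    have h' := h.comp_const_add T 0
    simpa using h'
  have d2 : HasDerivAt (fun s => ∫ t in (0:ℝ)..s, Real.exp (-(κ * t)) • G.U t a) a 0 := by
    have h := intervalIntegral.integral_hasDerivAt_right (hc.intervalIntegrable 0 0)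
      (hc.stronglyMeasurableAtFilter _ _) hc.continuousAt
    simpa [G.zero] using h
  have d3 : HasDerivAt (fun s : ℝ => Real.exp (κ * s)) κ 0 := by
    have h := ((hasDerivAt_id' (0:ℝ)).const_mul κ).exp
    simpa using h
  have h := d3.smul (d1.sub d2)
  have e2 : (fun s => G.U s (G.al κ T a)) = ((fun s : ℝ => Real.exp (κ * s)) •
      ((fun s => ∫ t in (0:ℝ)..(T + s), Real.exp (-(κ * t)) • G.U t a) -
        fun s => ∫ t in (0:ℝ)..s, Real.exp (-(κ * t)) • G.U t a)) := by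
    funext s; exact e1 s
  unfold D
  rw [e2]
  refine h.congr_deriv ?_
  simp [al]

theorem D_be (κ T : ℝ) (b : H) :
    G.D (G.be κ T b) (-(Real.exp (-(κ * T)) • G.U (-T) b - b + κ • G.be κ T b)) := by
  have hc := G.cont_be κ b
  have e1 : ∀ s, G.U s (G.be κ T b) = Real.exp (-(κ * s)) •
      ((∫ t in (0:ℝ)..(T - s), Real.exp (-(κ * t)) • G.U (-t) b) -
        ∫ t in (0:ℝ)..(-s), Real.exp (-(κ * t)) • G.U (-t) b) := by
    intro s
    have h1 : G.U s (G.be κ T b) =
        ∫ t in (0:ℝ)..T, G.U s (Real.exp (-(κ * t)) • G.U (-t) b) :=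
      ((G.U s).intervalIntegral_comp_comm (hc.intervalIntegrable 0 T)).symm
    have h2 : ∀ t, G.U s (Real.exp (-(κ * t)) • G.U (-t) b) =
        Real.exp (-(κ * s)) • (Real.exp (-(κ * (t + (-s)))) • G.U (-(t + (-s))) b) := by
      intro t
      rw [map_smul, U_U, smul_smul, ← Real.exp_add]
      congr 2
      · ring_nf
      · ring_nf
    rw [h1]
    simp only [h2]
    rw [intervalIntegral.integral_smul,
      intervalIntegral.integral_comp_add_right (fun t => Real.exp (-(κ * t)) • G.U (-t) b) (-s),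
      zero_add, ← sub_eq_add_neg,
      intervalIntegral.integral_interval_sub_left (hc.intervalIntegrable _ _)
        (hc.intervalIntegrable _ _)]
  have d1 : HasDerivAt (fun s => ∫ t in (0:ℝ)..(T - s), Real.exp (-(κ * t)) • G.U (-t) b)
      (-(Real.exp (-(κ * T)) • G.U (-T) b)) 0 := by
    have h := intervalIntegral.integral_hasDerivAt_right (hc.intervalIntegrable 0 (T - 0))
      (hc.stronglyMeasurableAtFilter _ _) hc.continuousAt
    have h' := h.comp_const_sub T 0
    simpa using h'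
  have d2 : HasDerivAt (fun s => ∫ t in (0:ℝ)..(-s), Real.exp (-(κ * t)) • G.U (-t) b)
      (-b) 0 := by
    have h := intervalIntegral.integral_hasDerivAt_right (hc.intervalIntegrable 0 (0 - 0))
      (hc.stronglyMeasurableAtFilter _ _) hc.continuousAt
    have h' := h.comp_const_sub 0 0
    simpa [G.zero] using h'
  have d3 : HasDerivAt (fun s : ℝ => Real.exp (-(κ * s))) (-κ) 0 := by
    have h := exp_deriv κ 0
    simpa using h
  have h := d3.smul (d1.sub d2)
  have e2 : (fun s => G.U s (G.be κ T b)) = ((fun s : ℝ => Real.exp (-(κ * s))) •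
      ((fun s => ∫ t in (0:ℝ)..(T - s), Real.exp (-(κ * t)) • G.U (-t) b) -
        fun s => ∫ t in (0:ℝ)..(-s), Real.exp (-(κ * t)) • G.U (-t) b)) := by
    funext s; exact e1 s
  unfold D
  rw [e2]
  refine h.congr_deriv ?_
  simp [be]
  abel

omit [CompleteSpace H] in
/-- the algebra of the identity -/
theorem alg {κ e : ℝ} {a b a' b' α β A B : H}
    (r1 : ⟪b', α⟫_ℝ = -⟪b, e • A - a + κ • α⟫_ℝ)
    (r2 : ⟪b', β⟫_ℝ = -⟪b, -(e • B - b + κ • β)⟫_ℝ)
    (r3 : ⟪a', α⟫_ℝ = -⟪a, e • A - a + κ • α⟫_ℝ)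
    (r4 : ⟪a', β⟫_ℝ = -⟪a, -(e • B - b + κ • β)⟫_ℝ)
    (r5 : ⟪e • A - a + κ • α, α⟫_ℝ = -⟪α, e • A - a + κ • α⟫_ℝ)
    (r6 : ⟪-(e • B - b + κ • β), β⟫_ℝ = -⟪β, -(e • B - b + κ • β)⟫_ℝ) :
    2 * ⟪(1 / 2 : ℝ) • (b' - κ • b + a' + κ • a), (1 / 2 : ℝ) • (α - β)⟫_ℝ
      - ⟪(1 / 2 : ℝ) • (e • A + e • B - (a + b) + κ • (α + β)),
          (1 / 2 : ℝ) • (e • A + e • B - (a + b) + κ • (α + β))⟫_ℝ
      - κ ^ 2 * ⟪(1 / 2 : ℝ) • (α - β), (1 / 2 : ℝ) • (α - β)⟫_ℝ =
    1 / 4 * ⟪a + b, a + b⟫_ℝ - κ / 2 * (⟪a, β⟫_ℝ + ⟪b, α⟫_ℝ)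
      - κ / 2 * (e * ⟪A, β⟫_ℝ + e * ⟪B, α⟫_ℝ) - 1 / 4 * ⟪e • A + e • B, e • A + e • B⟫_ℝ := by
  simp only [inner_add_left, inner_add_right, inner_sub_left, inner_sub_right, inner_smul_left,
    inner_smul_right, inner_neg_left, inner_neg_right, map_div₀, map_one, map_ofNat,
    conj_trivial] at r1 r2 r3 r4 r5 r6 ⊢
  simp only [real_inner_comm a b, real_inner_comm a α, real_inner_comm a β, real_inner_comm a A,
    real_inner_comm a B, real_inner_comm b α, real_inner_comm b β, real_inner_comm b A,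
    real_inner_comm b B, real_inner_comm α β, real_inner_comm α A, real_inner_comm α B,
    real_inner_comm β A, real_inner_comm β B, real_inner_comm A B] at r1 r2 r3 r4 r5 r6 ⊢
  linear_combination (1 / 2) * r1 - (1 / 2) * r2 + (1 / 2) * r3 - (1 / 2) * r4 - (κ / 4) * r5 +
    (κ / 4) * r6

/-- the truncated field -/
def yT (κ T : ℝ) (a b : H) : H := (1 / 2 : ℝ) • (G.al κ T a - G.be κ T b)

/-- its derivative along the group -/
def zT (κ T : ℝ) (a b : H) : H :=
  (1 / 2 : ℝ) • (Real.exp (-(κ * T)) • G.U T a + Real.exp (-(κ * T)) • G.U (-T) b - (a + b) +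
    κ • (G.al κ T a + G.be κ T b))

/-- the functional -/
def q (κ : ℝ) (Z y z : H) : ℝ := 2 * ⟪Z, y⟫_ℝ - ⟪z, z⟫_ℝ - κ ^ 2 * ⟪y, y⟫_ℝ

/-- the correlation function -/
def c (κ : ℝ) (a b : H) (t : ℝ) : ℝ := Real.exp (-(κ * t)) * ⟪G.U t a, b⟫_ℝ

omit [CompleteSpace H] in
theorem cont_c (κ : ℝ) (a b : H) : Continuous (G.c κ a b) :=
  (by fun_prop : Continuous fun t : ℝ => Real.exp (-(κ * t))).mul
    ((G.cont a).inner continuous_const)

theorem D_yT (κ T : ℝ) (a b : H) : G.D (G.yT κ T a b) (G.zT κ T a b) := by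
  have h := ((G.D_al κ T a).sub (G.D_be κ T b)).const_smul (1 / 2 : ℝ)
  have e2 : (fun s => G.U s (G.yT κ T a b)) = ((1 / 2 : ℝ) •
      ((fun s => G.U s (G.al κ T a)) - fun s => G.U s (G.be κ T b))) := by
    funext s; simp [yT, map_smul, map_sub]
  unfold D
  rw [e2]
  refine h.congr_deriv ?_
  rw [zT]
  congr 1
  rw [smul_add]
  abel

/-- THE EXACT VALUE at the sharp truncation -/
theorem q_yT {κ T : ℝ} {a b a' b' : H} (ha : G.D a a') (hb : G.D b b') :
    q κ ((1 / 2 : ℝ) • (b' - κ • b + a' + κ • a)) (G.yT κ T a b) (G.zT κ T a b) =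
      1 / 4 * ‖a + b‖ ^ 2 - κ * (∫ t in (0:ℝ)..(2 * T), G.c κ a b t) -
        1 / 4 * ‖Real.exp (-(κ * T)) • G.U T a + Real.exp (-(κ * T)) • G.U (-T) b‖ ^ 2 := by
  have h := alg (κ := κ) (e := Real.exp (-(κ * T))) (G.skew (G.D_al κ T a) hb)
    (G.skew (G.D_be κ T b) hb) (G.skew (G.D_al κ T a) ha) (G.skew (G.D_be κ T b) ha)
    (G.skew (G.D_al κ T a) (G.D_al κ T a)) (G.skew (G.D_be κ T b) (G.D_be κ T b))
  have hc := G.cont_c κ a b
  -- the four integrals
  have i1 : ⟪a, G.be κ T b⟫_ℝ = ∫ t in (0:ℝ)..T, G.c κ a b t := by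
    rw [inner_be]
    refine integral_congr fun t _ => ?_
    simp only [c]
    have e := G.inner_U_right 0 (-t) a b
    have e' := G.inner_U_left t 0 a b
    simp only [G.zero, one_apply_eq_self, sub_zero] at e e'
    have e'' := G.inner_U_left 0 (-t) a b
    simp only [G.zero, one_apply_eq_self, sub_neg_eq_add, zero_add] at e''
    rw [e'']
  have i2 : ⟪b, G.al κ T a⟫_ℝ = ∫ t in (0:ℝ)..T, G.c κ a b t := by
    rw [inner_al]
    refine integral_congr fun t _ => ?_
    simp only [c]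
    rw [real_inner_comm]
  have i3 : Real.exp (-(κ * T)) * ⟪G.U T a, G.be κ T b⟫_ℝ =
      ∫ t in T..(2 * T), G.c κ a b t := by
    rw [inner_be, ← intervalIntegral.integral_const_mul]
    have e := intervalIntegral.integral_comp_add_right (a := 0) (b := T) (G.c κ a b) T
    rw [zero_add, ← two_mul] at e
    rw [← e]
    refine integral_congr fun t _ => ?_
    simp only [c]
    rw [G.inner_U_left, ← mul_assoc, ← Real.exp_add]
    congr 2
    · ring
    · congr 2; ring
  have i4 : Real.exp (-(κ * T)) * ⟪G.U (-T) b, G.al κ T a⟫_ℝ =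
      ∫ t in T..(2 * T), G.c κ a b t := by
    rw [inner_al, ← intervalIntegral.integral_const_mul]
    have e := intervalIntegral.integral_comp_add_right (a := 0) (b := T) (G.c κ a b) T
    rw [zero_add, ← two_mul] at e
    rw [← e]
    refine integral_congr fun t _ => ?_
    simp only [c]
    rw [real_inner_comm, G.inner_U_left, ← mul_assoc, ← Real.exp_add]
    congr 2
    · ring
    · congr 2; ring
  have i5 : (∫ t in (0:ℝ)..T, G.c κ a b t) + ∫ t in T..(2 * T), G.c κ a b t =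
      ∫ t in (0:ℝ)..(2 * T), G.c κ a b t :=
    intervalIntegral.integral_add_adjacent_intervals (hc.intervalIntegrable _ _)
      (hc.intervalIntegrable _ _)
  rw [i1, i2, i3, i4] at h
  rw [← i5]
  simp only [q, yT, zT, ← real_inner_self_eq_norm_sq]
  linarith [h]

end Gr

end Vale.Agent.P207.H391
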