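import Vale.Agent.P207.H391.PiLad
import Vale.Agent.P207.Low.Abs

/-!
# P207, block PI: the interface `PIat` of block LOW
-/

noncomputable section

universe u

namespace Vale.Agent.P207.H391

open Vale.Agent.P207.H662 Vale.Agent.P207.Low

variable {W : Type u} [AddCommGroup W] [Module ℝ W] {L : Lad W}

theorem Flw.Fs_mem (Φ : Flw L) {N : Submodule ℝ W} (hN : ∀ t, ∀ u ∈ N, Φ.U t u ∈ N) {f : W}
    (hf : f ∈ N) (M : ℕ) (T : ℝ) : Φ.Fs M T f ∈ N :=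
  N.sum_mem fun _ _ => N.smul_mem _ (N.sub_mem (hN _ _ hf) (hN _ _ hf))

theorem Flw.Gs_mem (Φ : Flw L) {N : Submodule ℝ W} (hN : ∀ t, ∀ u ∈ N, Φ.U t u ∈ N) {f : W}
    (hf : f ∈ N) (M : ℕ) (T : ℝ) : Φ.Gs M T f ∈ N :=
  N.neg_mem (N.sum_mem fun _ _ => N.smul_mem _ (N.add_mem (hN _ _ hf) (hN _ _ hf)))

/-- **theorem PI in the form of block LOW** -/
theorem piAt (Φ : Flw L) (he : 0 ≤ L.e) (hd : 0 ≤ L.d) {f : W} {lam : ℝ} (hlam : 0 ≤ lam)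
    (hf : L.Lam f = lam • f) {N : Submodule ℝ W} (hN : ∀ t, ∀ u ∈ N, Φ.U t u ∈ N) (hfN : f ∈ N)
    {F' G' : W} (hF : F' ∈ N) (hG : G' ∈ N) : PIat L N f F' G' := by
  intro ε hε
  obtain ⟨T, M, _, _, h⟩ := PI_lad_loc Φ he hd hlam hf F' G' hε
  refine ⟨_, N.smul_mem (1 / 2 : ℝ) (N.add_mem (Φ.Fs_mem hN hfN M T) hF),
    _, N.smul_mem (1 / 2 : ℝ) (N.add_mem (Φ.Gs_mem hN hfN M T) hG),
    _, Φ.Fs_mem hN hfN M T, _, N.smul_mem (1 / 2 : ℝ) (Φ.Gs_mem hN hfN M T), ?_⟩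
  unfold PP P1 P2
  linarith

end Vale.Agent.P207.H391
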