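import Vale.Agent.P207.H391.PiA

/-!
# P207, block PI: averaging over the truncation time

For a one-parameter group of isometries the correlation function `C(t) = ⟪U_t f, f⟫` satisfies
`∫₀ˢ (S - T) C(2T) dT ≥ 0`, `∫₀ˢ (S - T) ∫₀²ᵀ C dT ≥ 0`, `∫₀ˢ (S - T) C'(2T) dT ≥ - S ‖f‖²`.
-/

open Filter Topology MeasureTheory intervalIntegral
open scoped InnerProductSpace

noncomputable section

namespace Vale.Agent.P207.H391

namespace Gr

variable {H : Type*} [NormedAddCommGroup H] [InnerProductSpace ℝ H] (G : Gr H)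

/-- the correlation function -/
def C (f : H) (t : ℝ) : ℝ := ⟪G.U t f, f⟫_ℝ

/-- its primitive -/
def J (f : H) (R : ℝ) : ℝ := ∫ t in (0:ℝ)..R, G.C f t

theorem cont_C (f : H) : Continuous (G.C f) := (G.cont f).inner continuous_const

theorem abs_C_le (f : H) (t : ℝ) : |G.C f t| ≤ ‖f‖ ^ 2 := by
  have h := abs_real_inner_le_norm (G.U t f) f
  rw [G.norm] at h
  rw [pow_two]; exact h

theorem hasDerivAt_J (f : H) (R : ℝ) : HasDerivAt (G.J f) (G.C f R) R :=
  integral_hasDerivAt_right ((G.cont_C f).intervalIntegrable _ _)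
    ((G.cont_C f).stronglyMeasurableAtFilter _ _) (G.cont_C f).continuousAt

theorem cont_J (f : H) : Continuous (G.J f) :=
  continuous_iff_continuousAt.2 fun R => (G.hasDerivAt_J f R).continuousAt

theorem hasDerivAt_C {f f' : H} (h : G.D f f') (t : ℝ) :
    HasDerivAt (G.C f) ⟪G.U t f', f⟫_ℝ t := by
  have h1 := (G.hasDerivAt h t).inner ℝ (hasDerivAt_const t f)
  exact h1.congr_deriv (by simp)

/-- `∫₀ᴿ U_t f dt` -/
def P (f : H) (R : ℝ) : H := ∫ t in (0:ℝ)..R, G.U t f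

variable [CompleteSpace H]

theorem hasDerivAt_P (f : H) (R : ℝ) : HasDerivAt (G.P f) (G.U R f) R :=
  integral_hasDerivAt_right ((G.cont f).intervalIntegrable _ _)
    ((G.cont f).stronglyMeasurableAtFilter _ _) (G.cont f).continuousAt

theorem inner_P (f : H) (R : ℝ) : ⟪G.U R f, G.P f R⟫_ℝ = G.J f R := by
  have h := (innerSL ℝ (G.U R f)).intervalIntegral_comp_comm
    ((G.cont f).intervalIntegrable (μ := volume) 0 R)
  simp only [innerSL_apply_apply] at h
  rw [P, ← h, J]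
  have e : ∀ t, ⟪G.U R f, G.U t f⟫_ℝ = G.C f (R - t) := by
    intro t
    rw [G.inner_U_left, C]
  simp only [e]
  have h2 := intervalIntegral.integral_comp_sub_left (a := 0) (b := R) (G.C f) R
  rw [h2]; simp

/-- `‖∫₀ᴿ U_t f dt‖²` -/
def g (f : H) (R : ℝ) : ℝ := ⟪G.P f R, G.P f R⟫_ℝ

theorem hasDerivAt_g (f : H) (R : ℝ) : HasDerivAt (G.g f) (2 * G.J f R) R := by
  have h1 := (G.hasDerivAt_P f R).inner ℝ (G.hasDerivAt_P f R)
  have h2 : ⟪G.P f R, G.U R f⟫_ℝ + ⟪G.U R f, G.P f R⟫_ℝ = 2 * G.J f R := by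
    rw [real_inner_comm, inner_P]; ring
  rw [h2] at h1
  exact h1

theorem cont_g (f : H) : Continuous (G.g f) :=
  continuous_iff_continuousAt.2 fun R => (G.hasDerivAt_g f R).continuousAt

omit [CompleteSpace H] in
theorem g_nonneg (f : H) (R : ℝ) : 0 ≤ G.g f R := real_inner_self_nonneg

omit [CompleteSpace H] in
theorem comp_two {φ : ℝ → ℝ} {φ' T : ℝ} (h : HasDerivAt φ φ' (2 * T)) :
    HasDerivAt (fun T => φ (2 * T)) (2 * φ') T := by
  have h1 : HasDerivAt (fun T : ℝ => 2 * T) 2 T := by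
    simpa using (hasDerivAt_id' T).const_mul (2:ℝ)
  have h2 := HasDerivAt.comp T h h1
  rw [mul_comm] at h2
  exact h2

omit [CompleteSpace H] in
theorem dS (S T : ℝ) : HasDerivAt (fun T : ℝ => S - T) (-1) T := by
  simpa using (hasDerivAt_id' T).const_sub S

theorem avg_C (f : H) (S : ℝ) :
    0 ≤ ∫ T in (0:ℝ)..S, (S - T) * G.C f (2 * T) := by
  have h1 : ∀ T ∈ Set.uIcc 0 S, HasDerivAt
      (fun T => (S - T) * (1 / 2 * G.J f (2 * T)) + 1 / 8 * G.g f (2 * T))
      ((S - T) * G.C f (2 * T)) T := by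
    intro T _
    have a1 := (dS S T).mul ((comp_two (G.hasDerivAt_J f (2 * T))).const_mul (1 / 2))
    have a2 := (comp_two (G.hasDerivAt_g f (2 * T))).const_mul (1 / 8)
    refine (a1.add a2).congr_deriv ?_
    ring
  have hc : Continuous fun T => (S - T) * G.C f (2 * T) := by
    have := G.cont_C f
    fun_prop
  rw [integral_eq_sub_of_hasDerivAt h1 (hc.intervalIntegrable _ _)]
  have h0 : G.g f 0 = 0 := by simp [g, P]
  have h2 := G.g_nonneg f (2 * S)
  simp only [mul_zero, h0, sub_zero, sub_self, zero_mul, zero_add, J, integral_same]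
  linarith

theorem avg_J (f : H) {S : ℝ} (hS : 0 ≤ S) :
    0 ≤ ∫ T in (0:ℝ)..S, (S - T) * G.J f (2 * T) := by
  have hg : Continuous fun x => G.g f (2 * x) := by
    have := G.cont_g f
    fun_prop
  have h1 : ∀ T ∈ Set.uIcc 0 S, HasDerivAt
      (fun T => (S - T) * (1 / 4 * G.g f (2 * T)) + 1 / 4 * ∫ x in (0:ℝ)..T, G.g f (2 * x))
      ((S - T) * G.J f (2 * T)) T := by
    intro T _
    have a1 := (dS S T).mul ((comp_two (G.hasDerivAt_g f (2 * T))).const_mul (1 / 4))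
    have a2 := (integral_hasDerivAt_right (hg.intervalIntegrable 0 T)
      (hg.stronglyMeasurableAtFilter _ _) hg.continuousAt).const_mul (1 / 4 : ℝ)
    refine (a1.add a2).congr_deriv ?_
    ring
  have hc : Continuous fun T => (S - T) * G.J f (2 * T) := by
    have := G.cont_J f
    fun_prop
  rw [integral_eq_sub_of_hasDerivAt h1 (hc.intervalIntegrable _ _)]
  have h0 : G.g f 0 = 0 := by simp [g, P]
  have h2 : 0 ≤ ∫ x in (0:ℝ)..S, G.g f (2 * x) :=
    integral_nonneg hS fun x _ => G.g_nonneg f _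
  simp only [mul_zero, h0, sub_zero, sub_self, zero_mul, zero_add, integral_same]
  linarith

omit [CompleteSpace H] in
theorem avg_C' {f f' : H} (h : G.D f f') {S : ℝ} (hS : 0 ≤ S) :
    -(S * ‖f‖ ^ 2) ≤ ∫ T in (0:ℝ)..S, (S - T) * ⟪G.U (2 * T) f', f⟫_ℝ := by
  have h1 : ∀ T ∈ Set.uIcc 0 S, HasDerivAt
      (fun T => (S - T) * (1 / 2 * G.C f (2 * T)) + 1 / 4 * G.J f (2 * T))
      ((S - T) * ⟪G.U (2 * T) f', f⟫_ℝ) T := by
    intro T _
    have a1 := (dS S T).mul ((comp_two (G.hasDerivAt_C h (2 * T))).const_mul (1 / 2))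
    have a2 := (comp_two (G.hasDerivAt_J f (2 * T))).const_mul (1 / 4)
    refine (a1.add a2).congr_deriv ?_
    ring
  have hc : Continuous fun T => (S - T) * ⟪G.U (2 * T) f', f⟫_ℝ := by
    have h3 : Continuous fun T => ⟪G.U (2 * T) f', f⟫_ℝ :=
      ((G.cont f').comp (continuous_const.mul continuous_id)).inner continuous_const
    fun_prop
  rw [integral_eq_sub_of_hasDerivAt h1 (hc.intervalIntegrable _ _)]
  have h0 : G.C f 0 = ‖f‖ ^ 2 := by
    simp [C, G.zero]
  have h2 : -(2 * S * ‖f‖ ^ 2) ≤ G.J f (2 * S) := by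
    have h3 : ‖∫ t in (0:ℝ)..(2 * S), G.C f t‖ ≤ ‖f‖ ^ 2 * |2 * S - 0| :=
      intervalIntegral.norm_integral_le_of_norm_le_const fun t _ => G.abs_C_le f t
    rw [sub_zero, abs_of_nonneg (by linarith : 0 ≤ 2 * S), Real.norm_eq_abs] at h3
    have h4 := (abs_le.1 h3).1
    rw [J]; linarith
  have h5 : G.J f 0 = 0 := by simp [J]
  simp only [mul_zero, h0, h5, sub_zero, sub_self, zero_mul, zero_add, add_zero]
  linarith

theorem avg_exp {κ : ℝ} (hκ : 0 < κ) {S : ℝ} (hS : 0 ≤ S) :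
    ∫ T in (0:ℝ)..S, (S - T) * Real.exp (-(2 * κ * T)) ≤ S / (2 * κ) := by
  have hc : Continuous fun T : ℝ => (S - T) * Real.exp (-(2 * κ * T)) := by fun_prop
  have hc2 : Continuous fun T : ℝ => S * Real.exp (-(2 * κ * T)) := by fun_prop
  have h1 : ∫ T in (0:ℝ)..S, (S - T) * Real.exp (-(2 * κ * T)) ≤
      ∫ T in (0:ℝ)..S, S * Real.exp (-(2 * κ * T)) := by
    refine integral_mono_on hS (hc.intervalIntegrable _ _) (hc2.intervalIntegrable _ _) ?_
    intro T hT
    have : 0 < Real.exp (-(2 * κ * T)) := Real.exp_pos _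
    nlinarith [hT.1]
  refine h1.trans ?_
  have h2 : ∀ T ∈ Set.uIcc 0 S, HasDerivAt
      (fun T => -(S / (2 * κ)) * Real.exp (-(2 * κ * T))) (S * Real.exp (-(2 * κ * T))) T := by
    intro T _
    refine ((exp_deriv (2 * κ) T).const_mul (-(S / (2 * κ)))).congr_deriv ?_
    field_simp
  rw [integral_eq_sub_of_hasDerivAt h2 (hc2.intervalIntegrable _ _)]
  have h3 : 0 < Real.exp (-(2 * κ * S)) := Real.exp_pos _
  have h4 : 0 ≤ S / (2 * κ) := by positivity
  have h5 : Real.exp (-(2 * κ * 0)) = 1 := by simp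
  rw [h5]
  nlinarith

end Gr

end Vale.Agent.P207.H391
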