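import Vale.Agent.P207.H391.PiB

/-!
# P207, block PI: positivity of the nonlocal part with truncated fields

`exists_T`: for a function `f` with `C₁ f + C₂ f = L f + X X f`, `L ≥ 0`, and every `S > 0` there is a
truncation time `T ≤ S` such that the truncated exact fields `y₁`, `y₂` satisfy
`q₁(y₁) + 2 q₂(y₂) ≥ ‖V₁ f‖² + 2 ‖V₂ f‖² - (D₁ + 2 D₂) ‖f‖² - K / S`.
-/

open Filter Topology MeasureTheory
open scoped InnerProductSpace

noncomputable section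

namespace Vale.Agent.P207.H391

namespace Gr

variable {H : Type*} [NormedAddCommGroup H] [InnerProductSpace ℝ H] (G : Gr H)

theorem int_f' {f f' : H} (h : G.D f f') (R : ℝ) :
    ∫ t in (0:ℝ)..R, ⟪G.U t f, f'⟫_ℝ = ‖f‖ ^ 2 - G.C f R := by
  have hc : Continuous fun t => ⟪G.U t f', f⟫_ℝ := (G.cont f').inner continuous_const
  have e1 : ∀ t, ⟪G.U t f, f'⟫_ℝ = -⟪G.U t f', f⟫_ℝ := by
    intro t
    have := G.skew (D.U G h t) h
    rw [real_inner_comm, this, real_inner_comm]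
  have e2 := intervalIntegral.integral_eq_sub_of_hasDerivAt (a := 0) (b := R) (f := G.C f)
    (f' := fun t => ⟪G.U t f', f⟫_ℝ) (fun t _ => G.hasDerivAt_C h t) (hc.intervalIntegrable _ _)
  simp only [e1]
  rw [intervalIntegral.integral_neg, e2]
  have h0 : G.C f 0 = ‖f‖ ^ 2 := by simp [C, G.zero]
  rw [h0]; ring

theorem int_f'' {f f' f'' : H} (h : G.D f f') (h' : G.D f' f'') (R : ℝ) :
    ∫ t in (0:ℝ)..R, ⟪G.U t f, f''⟫_ℝ = ⟪G.U R f', f⟫_ℝ := by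
  have hc : Continuous fun t => ⟪G.U t f'', f⟫_ℝ := (G.cont f'').inner continuous_const
  have e1 : ∀ t, ⟪G.U t f, f''⟫_ℝ = ⟪G.U t f'', f⟫_ℝ := by
    intro t
    have h1 := G.skew (D.U G h t) h'
    have h2 := G.skew (D.U G h' t) h
    have h3 : ⟪f', G.U t f'⟫_ℝ = -⟪f, G.U t f''⟫_ℝ := h2
    have h4 : ⟪f'', G.U t f⟫_ℝ = -⟪f', G.U t f'⟫_ℝ := h1
    rw [real_inner_comm, h4, h3, neg_neg, real_inner_comm]
  have hd : ∀ t ∈ Set.uIcc 0 R, HasDerivAt (fun t => ⟪G.U t f', f⟫_ℝ) ⟪G.U t f'', f⟫_ℝ t := by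
    intro t _
    have h1 := (G.hasDerivAt h' t).inner ℝ (hasDerivAt_const t f)
    exact h1.congr_deriv (by simp)
  have e2 := intervalIntegral.integral_eq_sub_of_hasDerivAt hd (hc.intervalIntegrable _ _)
  simp only [e1]
  rw [e2]
  have h0 : ⟪G.U 0 f', f⟫_ℝ = 0 := by
    have := G.skew h h
    simp only [G.zero, one_apply_eq_self]
    rw [real_inner_comm] at this
    have h5 : ⟪f', f⟫_ℝ = ⟪f, f'⟫_ℝ := real_inner_comm _ _
    linarith
  rw [h0, sub_zero]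

/-- the error of the sharp truncation -/
theorem norm_eps_le (κ T : ℝ) (a b : H) :
    ‖Real.exp (-(κ * T)) • G.U T a + Real.exp (-(κ * T)) • G.U (-T) b‖ ^ 2 ≤
      Real.exp (-(2 * κ * T)) * (‖a‖ + ‖b‖) ^ 2 := by
  have h1 : ‖Real.exp (-(κ * T)) • G.U T a + Real.exp (-(κ * T)) • G.U (-T) b‖ ≤
      Real.exp (-(κ * T)) * (‖a‖ + ‖b‖) := by
    refine (norm_add_le _ _).trans ?_
    rw [norm_smul, norm_smul, G.norm, G.norm, Real.norm_eq_abs, abs_of_pos (Real.exp_pos _)]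
    exact le_of_eq (by ring)
  have h2 : Real.exp (-(2 * κ * T)) = Real.exp (-(κ * T)) ^ 2 := by
    rw [← Real.exp_nat_mul]; congr 1; push_cast; ring
  rw [h2, ← mul_pow]
  exact pow_le_pow_left₀ (norm_nonneg _) h1 2

end Gr

theorem cmul (r : ℝ) {φ : ℝ → ℝ} (h : Continuous φ) (a b : ℝ) :
    IntervalIntegrable (fun t => r * φ t) volume a b :=
  (continuous_const.mul h).intervalIntegrable a b

variable {E B₁ B₂ : Type*} [NormedAddCommGroup E] [InnerProductSpace ℝ E] [CompleteSpace E]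
  [NormedAddCommGroup B₁] [InnerProductSpace ℝ B₁] [CompleteSpace B₁]
  [NormedAddCommGroup B₂] [InnerProductSpace ℝ B₂] [CompleteSpace B₂]

/-- The nonlocal half of the positivity, with fields truncated at a time `T ≤ S`. -/
theorem exists_T (G : Gr E) (W₁ : Gr B₁) (W₂ : Gr B₂) {f f' f'' g₁ g₂ : E} {L D₁ D₂ : ℝ}
    (h1 : G.D f f') (h2 : G.D f' f'') (hL : g₁ + g₂ = L • f + f'') (hL0 : 0 ≤ L)
    (hD₁ : 0 ≤ D₁) (hD₂ : 0 ≤ D₂)
    {a₁ b₁ a₁' b₁' : B₁} (ha₁ : W₁.D a₁ a₁') (hb₁ : W₁.D b₁ b₁')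
    {a₂ b₂ a₂' b₂' : B₂} (ha₂ : W₂.D a₂ a₂') (hb₂ : W₂.D b₂ b₂')
    (hc₁ : ∀ t, W₁.c 1 a₁ b₁ t = D₁ * ⟪G.U t f, f'⟫_ℝ - ⟪G.U t f, g₁⟫_ℝ)
    (hc₂ : ∀ t, W₂.c 2 a₂ b₂ t = D₂ / 2 * ⟪G.U t f, f'⟫_ℝ - 1 / 4 * ⟪G.U t f, g₂⟫_ℝ)
    {S : ℝ} (hS : 0 < S) :
    ∃ T ∈ Set.Icc 0 S,
      1 / 4 * ‖a₁ + b₁‖ ^ 2 + 1 / 2 * ‖a₂ + b₂‖ ^ 2 - (D₁ + 2 * D₂) * ‖f‖ ^ 2
        - 2 / S * (‖f‖ ^ 2 + (‖a₁‖ + ‖b₁‖) ^ 2 / 8 + (‖a₂‖ + ‖b₂‖) ^ 2 / 8) ≤
      Gr.q 1 ((1 / 2 : ℝ) • (b₁' - (1:ℝ) • b₁ + a₁' + (1:ℝ) • a₁)) (W₁.yT 1 T a₁ b₁)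
          (W₁.zT 1 T a₁ b₁) +
        2 * Gr.q 2 ((1 / 2 : ℝ) • (b₂' - (2:ℝ) • b₂ + a₂' + (2:ℝ) • a₂)) (W₂.yT 2 T a₂ b₂)
          (W₂.zT 2 T a₂ b₂) := by
  set M₁ := ‖a₁‖ + ‖b₁‖ with hM₁
  set M₂ := ‖a₂‖ + ‖b₂‖ with hM₂
  -- the lower bound at a fixed `T`
  let Ψ : ℝ → ℝ := fun T => (D₁ + 2 * D₂) * G.C f (2 * T) + L * G.J f (2 * T) +
    ⟪G.U (2 * T) f', f⟫_ℝ - 1 / 4 * M₁ ^ 2 * Real.exp (-(2 * 1 * T)) -
    1 / 2 * M₂ ^ 2 * Real.exp (-(2 * 2 * T))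
  have hΨ : ∀ T, 1 / 4 * ‖a₁ + b₁‖ ^ 2 + 1 / 2 * ‖a₂ + b₂‖ ^ 2 - (D₁ + 2 * D₂) * ‖f‖ ^ 2 + Ψ T ≤
      Gr.q 1 ((1 / 2 : ℝ) • (b₁' - (1:ℝ) • b₁ + a₁' + (1:ℝ) • a₁)) (W₁.yT 1 T a₁ b₁)
          (W₁.zT 1 T a₁ b₁) +
        2 * Gr.q 2 ((1 / 2 : ℝ) • (b₂' - (2:ℝ) • b₂ + a₂' + (2:ℝ) • a₂)) (W₂.yT 2 T a₂ b₂)
          (W₂.zT 2 T a₂ b₂) := by
    intro T
    rw [W₁.q_yT ha₁ hb₁, W₂.q_yT ha₂ hb₂]
    have e1 := W₁.norm_eps_le 1 T a₁ b₁
    have e2 := W₂.norm_eps_le 2 T a₂ b₂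
    rw [← hM₁] at e1
    rw [← hM₂] at e2
    have cf' : Continuous fun t => ⟪G.U t f, f'⟫_ℝ := (G.cont f).inner continuous_const
    have cg₁ : Continuous fun t => ⟪G.U t f, g₁⟫_ℝ := (G.cont f).inner continuous_const
    have cg₂ : Continuous fun t => ⟪G.U t f, g₂⟫_ℝ := (G.cont f).inner continuous_const
    have cf'' : Continuous fun t => ⟪G.U t f, f''⟫_ℝ := (G.cont f).inner continuous_const
    have i1 : ∫ t in (0:ℝ)..(2 * T), W₁.c 1 a₁ b₁ t =
        D₁ * (∫ t in (0:ℝ)..(2 * T), ⟪G.U t f, f'⟫_ℝ) -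
          ∫ t in (0:ℝ)..(2 * T), ⟪G.U t f, g₁⟫_ℝ := by
      simp only [hc₁]
      rw [intervalIntegral.integral_sub (cmul D₁ cf' _ _)
        (cg₁.intervalIntegrable _ _), intervalIntegral.integral_const_mul]
    have i2 : ∫ t in (0:ℝ)..(2 * T), W₂.c 2 a₂ b₂ t =
        D₂ / 2 * (∫ t in (0:ℝ)..(2 * T), ⟪G.U t f, f'⟫_ℝ) -
          1 / 4 * ∫ t in (0:ℝ)..(2 * T), ⟪G.U t f, g₂⟫_ℝ := by
      simp only [hc₂]
      rw [intervalIntegral.integral_sub (cmul _ cf' _ _) (cmul _ cg₂ _ _),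
        intervalIntegral.integral_const_mul, intervalIntegral.integral_const_mul]
    have i3 : (∫ t in (0:ℝ)..(2 * T), ⟪G.U t f, g₁⟫_ℝ) +
        (∫ t in (0:ℝ)..(2 * T), ⟪G.U t f, g₂⟫_ℝ) =
        L * G.J f (2 * T) + ⟪G.U (2 * T) f', f⟫_ℝ := by
      rw [← intervalIntegral.integral_add (cg₁.intervalIntegrable _ _) (cg₂.intervalIntegrable _ _),
        ← G.int_f'' h1 h2 (2 * T), Gr.J, ← intervalIntegral.integral_const_mul,
        ← intervalIntegral.integral_add (cmul L (G.cont_C f) _ _)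
          (cf''.intervalIntegrable _ _)]
      refine intervalIntegral.integral_congr fun t _ => ?_
      simp only [Gr.C]
      rw [← inner_add_right, hL, inner_add_right, inner_smul_right]
    rw [i1, i2, G.int_f' h1]
    simp only [Ψ]
    linear_combination (1 / 4 : ℝ) * e1 + (1 / 2 : ℝ) * e2 - i3
  -- averaging
  have hcΨ : Continuous Ψ := by
    have c1 := G.cont_C f
    have c2 := G.cont_J f
    have h3 : Continuous fun T => ⟪G.U (2 * T) f', f⟫_ℝ :=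
      ((G.cont f').comp (continuous_const.mul continuous_id)).inner continuous_const
    simp only [Ψ]
    fun_prop
  have havg : -(S * (‖f‖ ^ 2 + M₁ ^ 2 / 8 + M₂ ^ 2 / 8)) ≤
      ∫ T in (0:ℝ)..S, (S - T) * Ψ T := by
    have c1 : Continuous fun T => (S - T) * G.C f (2 * T) := by
      have := G.cont_C f
      fun_prop
    have c2 : Continuous fun T => (S - T) * G.J f (2 * T) := by
      have := G.cont_J f
      fun_prop
    have c3 : Continuous fun T => (S - T) * ⟪G.U (2 * T) f', f⟫_ℝ := by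
      have h3 : Continuous fun T => ⟪G.U (2 * T) f', f⟫_ℝ :=
        ((G.cont f').comp (continuous_const.mul continuous_id)).inner continuous_const
      fun_prop
    have c4 : ∀ κ : ℝ, Continuous fun T => (S - T) * Real.exp (-(2 * κ * T)) := by
      intro κ; fun_prop
    have e : ∀ T, (S - T) * Ψ T = (D₁ + 2 * D₂) * ((S - T) * G.C f (2 * T)) +
        L * ((S - T) * G.J f (2 * T)) + (S - T) * ⟪G.U (2 * T) f', f⟫_ℝ -
        1 / 4 * M₁ ^ 2 * ((S - T) * Real.exp (-(2 * 1 * T))) -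
        1 / 2 * M₂ ^ 2 * ((S - T) * Real.exp (-(2 * 2 * T))) := by
      intro T; simp only [Ψ]; ring
    simp only [e]
    rw [intervalIntegral.integral_sub, intervalIntegral.integral_sub, intervalIntegral.integral_add, intervalIntegral.integral_add, intervalIntegral.integral_const_mul,
      intervalIntegral.integral_const_mul, intervalIntegral.integral_const_mul, intervalIntegral.integral_const_mul]
    · have a1 := G.avg_C f S
      have a2 := G.avg_J f hS.le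
      have a3 := G.avg_C' h1 hS.le
      have a4 := Gr.avg_exp (κ := 1) one_pos hS.le
      have a5 := Gr.avg_exp (κ := 2) two_pos hS.le
      have b1 := mul_nonneg (by positivity : 0 ≤ D₁ + 2 * D₂) a1
      have b2 := mul_nonneg hL0 a2
      have b4 := mul_le_mul_of_nonneg_left a4 (by positivity : 0 ≤ 1 / 4 * M₁ ^ 2)
      have b5 := mul_le_mul_of_nonneg_left a5 (by positivity : 0 ≤ 1 / 2 * M₂ ^ 2)
      have e4 : 1 / 4 * M₁ ^ 2 * (S / (2 * 1)) = S * (M₁ ^ 2 / 8) := by ring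
      have e5 : 1 / 2 * M₂ ^ 2 * (S / (2 * 2)) = S * (M₂ ^ 2 / 8) := by ring
      rw [e4] at b4
      rw [e5] at b5
      linarith
    · exact (continuous_const.mul c1).intervalIntegrable _ _
    · exact (continuous_const.mul c2).intervalIntegrable _ _
    · exact ((continuous_const.mul c1).add (continuous_const.mul c2)).intervalIntegrable _ _
    · exact c3.intervalIntegrable _ _
    · exact (((continuous_const.mul c1).add (continuous_const.mul c2)).add c3).intervalIntegrable _ _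
    · exact (continuous_const.mul (c4 1)).intervalIntegrable _ _
    · exact ((((continuous_const.mul c1).add (continuous_const.mul c2)).add c3).sub
        (continuous_const.mul (c4 1))).intervalIntegrable _ _
    · exact (continuous_const.mul (c4 2)).intervalIntegrable _ _
  -- some `T` is good
  set K := ‖f‖ ^ 2 + M₁ ^ 2 / 8 + M₂ ^ 2 / 8 with hK
  by_contra hcon
  push Not at hcon
  have hlt : ∀ T ∈ Set.Icc 0 S, Ψ T < -(2 / S * K) := by
    intro T hT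
    have h5 := hcon T hT
    have h6 := hΨ T
    linarith
  have hint : ∫ T in (0:ℝ)..S, (S - T) = S ^ 2 / 2 := by
    have hd : ∀ T ∈ Set.uIcc 0 S, HasDerivAt (fun T => S * T - T ^ 2 / 2) (S - T) T := by
      intro T _
      have h5 := ((hasDerivAt_id' T).const_mul S).sub ((hasDerivAt_pow 2 T).div_const 2)
      refine h5.congr_deriv ?_
      simp
    rw [intervalIntegral.integral_eq_sub_of_hasDerivAt hd
      ((by fun_prop : Continuous fun T : ℝ => S - T).intervalIntegrable _ _)]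
    ring
  have h7 : ∫ T in (0:ℝ)..S, (S - T) * Ψ T < ∫ T in (0:ℝ)..S, (S - T) * (-(2 / S * K)) := by
    refine intervalIntegral.integral_lt_integral_of_continuousOn_of_le_of_exists_lt hS ?_ ?_ ?_ ?_
    · exact (Continuous.mul (by fun_prop) hcΨ).continuousOn
    · exact (by fun_prop : Continuous fun T : ℝ => (S - T) * (-(2 / S * K))).continuousOn
    · intro T hT
      exact mul_le_mul_of_nonneg_left (hlt T ⟨hT.1.le, hT.2⟩).le (by linarith [hT.2])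
    · exact ⟨0, ⟨le_refl _, hS.le⟩, mul_lt_mul_of_pos_left (hlt 0 ⟨le_refl _, hS.le⟩)
        (by linarith)⟩
  rw [intervalIntegral.integral_mul_const, hint] at h7
  have h8 : S ^ 2 / 2 * (-(2 / S * K)) = -(S * K) := by
    field_simp
  rw [h8] at h7
  linarith

end Vale.Agent.P207.H391
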