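import Vale.Agent.P207.H391.PiC

/-!
# P207, block PI: theorem PI

`KSys` : a Hilbert space `B` of fields with a group `W`, smooth fields `B1`, and the operators
`V`, `H` from smooth functions to smooth fields (`[X, V] = - H`, `[X, H] = - κ² V`).

`PI`, `PI_loc` : the nonlocal half of the positivity with test fields which are finite sums of
translates of `V f ∓ H f / κ`.
-/

open Filter Topology MeasureTheory
open scoped InnerProductSpace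

noncomputable section

namespace Vale.Agent.P207.H391

/-- Riemann sums of a continuous function converge to the integral. -/
theorem riemann {F : Type*} [NormedAddCommGroup F] [NormedSpace ℝ F] [CompleteSpace F] {φ : ℝ → F}
    (hφ : Continuous φ) {T : ℝ} (hT : 0 ≤ T) :
    Tendsto (fun N : ℕ => ∑ j ∈ Finset.range N, (T / N) • φ (j * (T / N))) atTop
      (𝓝 (∫ t in (0:ℝ)..T, φ t)) := by
  rw [Metric.tendsto_atTop]
  intro ε hε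
  have hu : UniformContinuousOn φ (Set.Icc 0 T) :=
    isCompact_Icc.uniformContinuousOn_of_continuous hφ.continuousOn
  obtain ⟨δ, hδ, h1⟩ := Metric.uniformContinuousOn_iff.1 hu (ε / (T + 1)) (by positivity)
  obtain ⟨N₀, hN₀⟩ := exists_nat_gt (T / δ)
  refine ⟨max N₀ 1, fun N hN => ?_⟩
  have hN1 : 1 ≤ N := le_trans (le_max_right _ _) hN
  have hNpos : (0:ℝ) < N := by exact_mod_cast hN1
  have hNδ : T / N < δ := by
    have h2 : (N₀ : ℝ) ≤ N := by exact_mod_cast le_trans (le_max_left _ _) hN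
    rw [div_lt_iff₀ hNpos]
    rw [div_lt_iff₀ hδ] at hN₀
    nlinarith
  have hh : 0 ≤ T / N := by positivity
  have hsum : ∑ j ∈ Finset.range N, ∫ t in ((j:ℕ) * (T / N) : ℝ)..(((j + 1 : ℕ) : ℝ) * (T / N)), φ t =
      ∫ t in (0:ℝ)..T, φ t := by
    have h3 := intervalIntegral.sum_integral_adjacent_intervals (f := φ) (μ := volume)
      (a := fun j : ℕ => (j : ℝ) * (T / N)) (n := N)
      (fun k _ => hφ.intervalIntegrable _ _)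
    rw [h3]
    congr 1
    · simp
    · field_simp
  rw [dist_eq_norm, ← hsum, ← Finset.sum_sub_distrib]
  have h4 : ∀ j ∈ Finset.range N, ‖(T / N) • φ (j * (T / N)) -
      ∫ t in ((j:ℕ) * (T / N) : ℝ)..(((j + 1 : ℕ) : ℝ) * (T / N)), φ t‖ ≤
        ε / (T + 1) * (T / N) := by
    intro j hj
    have hj' : (j:ℝ) + 1 ≤ N := by exact_mod_cast Finset.mem_range.1 hj
    have hlen : (((j + 1 : ℕ) : ℝ) * (T / N)) - (j:ℕ) * (T / N) = T / N := by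
      push_cast; ring
    have h5 : (T / N) • φ (j * (T / N)) =
        ∫ t in ((j:ℕ) * (T / N) : ℝ)..(((j + 1 : ℕ) : ℝ) * (T / N)), φ (j * (T / N)) := by
      rw [intervalIntegral.integral_const, hlen]
    rw [h5, ← intervalIntegral.integral_sub (intervalIntegrable_const)
      (hφ.intervalIntegrable _ _)]
    have h6 : ∀ t ∈ Set.uIoc ((j:ℕ) * (T / N) : ℝ) (((j + 1 : ℕ) : ℝ) * (T / N)),
        ‖φ (j * (T / N)) - φ t‖ ≤ ε / (T + 1) := by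
      intro t ht
      have hle : ((j:ℕ) * (T / N) : ℝ) ≤ (((j + 1 : ℕ) : ℝ) * (T / N)) := by
        push_cast; nlinarith
      rw [Set.uIoc_of_le hle] at ht
      have hjt : 0 ≤ (j:ℝ) * (T / N) := by positivity
      have htT : (((j + 1 : ℕ) : ℝ) * (T / N)) ≤ T := by
        push_cast
        calc ((j:ℝ) + 1) * (T / N) ≤ N * (T / N) := by
              exact mul_le_mul_of_nonneg_right hj' hh
          _ = T := by field_simp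
      have h7 := h1 (j * (T / N)) ⟨hjt, by linarith⟩ t ⟨by linarith [ht.1], by linarith [ht.2]⟩ (by
        rw [Real.dist_eq, abs_lt]
        constructor <;> linarith [ht.1, ht.2])
      rw [dist_eq_norm] at h7
      exact h7.le
    refine (intervalIntegral.norm_integral_le_of_norm_le_const h6).trans ?_
    rw [hlen, abs_of_nonneg hh]
  calc ‖∑ j ∈ Finset.range N, ((T / N) • φ (j * (T / N)) -
        ∫ t in ((j:ℕ) * (T / N) : ℝ)..(((j + 1 : ℕ) : ℝ) * (T / N)), φ t)‖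
      ≤ ∑ j ∈ Finset.range N, ε / (T + 1) * (T / N) :=
        (norm_sum_le _ _).trans (Finset.sum_le_sum h4)
    _ = ε * (T / (T + 1)) := by
        rw [Finset.sum_const, Finset.card_range, nsmul_eq_mul]
        field_simp
    _ < ε * 1 := by
        refine mul_lt_mul_of_pos_left ?_ hε
        rw [div_lt_one (by linarith)]
        linarith
    _ = ε := mul_one ε

/-- The data at one root `κ`: fields, their group, the operators `V` and `H`. -/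
structure KSys {E : Type*} [NormedAddCommGroup E] [InnerProductSpace ℝ E] (G : Gr E)
    (E1 : Submodule ℝ E) (hU : ∀ t, ∀ f ∈ E1, G.U t f ∈ E1) (X : E1 →ₗ[ℝ] E1) (κ D : ℝ)
    (B : Type*) [NormedAddCommGroup B] [InnerProductSpace ℝ B] where
  W : Gr B
  B1 : Submodule ℝ B
  Y : B1 →ₗ[ℝ] B1
  W_mem : ∀ t, ∀ b ∈ B1, W.U t b ∈ B1
  W_deriv : ∀ b : B1, W.D (b : B) (Y b : B)
  V : E1 →ₗ[ℝ] B1
  H : E1 →ₗ[ℝ] B1
  YV : ∀ f, Y (V f) = V (X f) - H f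
  YH : ∀ f, Y (H f) = H (X f) - κ ^ 2 • V f
  conj : ∀ t (f : E1), (V ⟨G.U t f, hU t f f.2⟩ : B) - κ⁻¹ • (H ⟨G.U t f, hU t f f.2⟩ : B) =
    Real.exp (-(κ * t)) • W.U t ((V f : B) - κ⁻¹ • (H f : B))
  C : E1 →ₗ[ℝ] E1
  VH : ∀ f g : E1, ⟪(V f : B), (H g : B)⟫_ℝ - ⟪(H f : B), (V g : B)⟫_ℝ =
    D * ⟪(f : E), (X g : E)⟫_ℝ
  HH : ∀ f g : E1, ⟪(H f : B), (H g : B)⟫_ℝ =
    ⟪(f : E), (C g : E)⟫_ℝ + κ ^ 2 * ⟪(V f : B), (V g : B)⟫_ℝ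

namespace KSys

variable {E : Type*} [NormedAddCommGroup E] [InnerProductSpace ℝ E] {G : Gr E}
  {E1 : Submodule ℝ E} {hU : ∀ t, ∀ f ∈ E1, G.U t f ∈ E1} {X : E1 →ₗ[ℝ] E1} {κ D : ℝ}
  {B : Type*} [NormedAddCommGroup B] [InnerProductSpace ℝ B] (K : KSys G E1 hU X κ D B)

/-- the functional `q(y) = 2⟪V X f - 2 H f, y⟫ - ‖Y y‖² - κ² ‖y‖²` -/
def q (f : E1) (y : K.B1) : ℝ :=
  2 * ⟪(K.V (X f) : B) - (2:ℝ) • (K.H f : B), (y : B)⟫_ℝ - ‖(K.Y y : B)‖ ^ 2 -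
    κ ^ 2 * ‖(y : B)‖ ^ 2

/-- the group on smooth fields -/
def WA (t : ℝ) (b : K.B1) : K.B1 := ⟨K.W.U t b, K.W_mem t b b.2⟩

/-- The finite sums. -/
def rs (N : ℕ) (T : ℝ) (f : E1) : K.B1 :=
  ∑ j ∈ Finset.range N, ((1 / 2 : ℝ) * (T / N) * Real.exp (-(κ * (j * (T / N))))) •
    (K.WA (j * (T / N)) (K.V f - κ⁻¹ • K.H f) - K.WA (-(j * (T / N))) (K.V f + κ⁻¹ • K.H f))

theorem Y_WA (t : ℝ) (b : K.B1) : K.Y (K.WA t b) = K.WA t (K.Y b) := by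
  apply Subtype.ext
  have h1 := K.W_deriv (K.WA t b)
  have h2 := Gr.D.U K.W (K.W_deriv b) t
  exact h1.unique h2

variable [CompleteSpace B]

theorem tendsto_rs {T : ℝ} (hT : 0 ≤ T) (f : E1) :
    Tendsto (fun N : ℕ => (K.rs N T f : B)) atTop
      (𝓝 (K.W.yT κ T (K.V f - κ⁻¹ • K.H f : K.B1) (K.V f + κ⁻¹ • K.H f : K.B1))) := by
  have h1 := (riemann (K.W.cont_al κ ((K.V f - κ⁻¹ • K.H f : K.B1) : B)) hT).sub
    (riemann (K.W.cont_be κ ((K.V f + κ⁻¹ • K.H f : K.B1) : B)) hT)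
  have h2 := h1.const_smul (1 / 2 : ℝ)
  refine h2.congr fun N => ?_
  rw [rs, ← Finset.sum_sub_distrib, Finset.smul_sum, AddSubmonoidClass.coe_finsetSum]
  refine Finset.sum_congr rfl fun j _ => ?_
  rw [Submodule.coe_smul, AddSubgroupClass.coe_sub, ← smul_sub, ← smul_sub, smul_smul, smul_smul]
  rfl

theorem tendsto_Yrs {T : ℝ} (hT : 0 ≤ T) (f : E1) :
    Tendsto (fun N : ℕ => (K.Y (K.rs N T f) : B)) atTop
      (𝓝 (K.W.zT κ T (K.V f - κ⁻¹ • K.H f : K.B1) (K.V f + κ⁻¹ • K.H f : K.B1))) := by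
  have h1 := (riemann (K.W.cont_al κ (K.Y (K.V f - κ⁻¹ • K.H f) : B)) hT).sub
    (riemann (K.W.cont_be κ (K.Y (K.V f + κ⁻¹ • K.H f) : B)) hT)
  have h2 := h1.const_smul (1 / 2 : ℝ)
  have e : (1 / 2 : ℝ) • ((∫ t in (0:ℝ)..T, Real.exp (-(κ * t)) •
      K.W.U t (K.Y (K.V f - κ⁻¹ • K.H f) : B)) - ∫ t in (0:ℝ)..T, Real.exp (-(κ * t)) •
      K.W.U (-t) (K.Y (K.V f + κ⁻¹ • K.H f) : B)) =
      K.W.zT κ T (K.V f - κ⁻¹ • K.H f : K.B1) (K.V f + κ⁻¹ • K.H f : K.B1) := by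
    have e1 := K.W.al' κ T (K.W_deriv (K.V f - κ⁻¹ • K.H f))
    have e2 := K.W.be' κ T (K.W_deriv (K.V f + κ⁻¹ • K.H f))
    simp only [Gr.al, Gr.be] at e1 e2
    rw [e1, e2, Gr.zT]
    congr 1
    simp only [Gr.al, Gr.be, smul_add]
    abel
  rw [e] at h2
  refine h2.congr fun N => ?_
  rw [rs, ← Finset.sum_sub_distrib, Finset.smul_sum, map_sum,
    AddSubmonoidClass.coe_finsetSum]
  refine Finset.sum_congr rfl fun j _ => ?_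
  have e3 : ∀ (r t s : ℝ) (a b : K.B1), K.Y (r • (K.WA t a - K.WA s b)) =
      r • (K.WA t (K.Y a) - K.WA s (K.Y b)) := by
    intro r t s a b
    rw [map_smul, map_sub, Y_WA, Y_WA]
  rw [e3, Submodule.coe_smul, AddSubgroupClass.coe_sub, ← smul_sub,
    ← smul_sub, smul_smul, smul_smul]
  rfl

/-- the value of the functional along the sums -/
theorem tendsto_q {T : ℝ} (hT : 0 ≤ T) (hκ : κ ≠ 0) (f : E1) :
    Tendsto (fun N : ℕ => K.q f (K.rs N T f)) atTop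
      (𝓝 (Gr.q κ ((1 / 2 : ℝ) • ((K.Y (K.V f + κ⁻¹ • K.H f) : B) -
        κ • ((K.V f + κ⁻¹ • K.H f : K.B1) : B) + (K.Y (K.V f - κ⁻¹ • K.H f) : B) +
          κ • ((K.V f - κ⁻¹ • K.H f : K.B1) : B)))
        (K.W.yT κ T (K.V f - κ⁻¹ • K.H f : K.B1) (K.V f + κ⁻¹ • K.H f : K.B1))
        (K.W.zT κ T (K.V f - κ⁻¹ • K.H f : K.B1) (K.V f + κ⁻¹ • K.H f : K.B1)))) := by
  have eZ : (1 / 2 : ℝ) • ((K.Y (K.V f + κ⁻¹ • K.H f) : B) -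
        κ • ((K.V f + κ⁻¹ • K.H f : K.B1) : B) + (K.Y (K.V f - κ⁻¹ • K.H f) : B) +
          κ • ((K.V f - κ⁻¹ • K.H f : K.B1) : B)) = (K.V (X f) : B) - (2:ℝ) • (K.H f : B) := by
    have h1 : κ * κ⁻¹ = 1 := mul_inv_cancel₀ hκ
    have h2 : κ⁻¹ * κ ^ 2 = κ := by field_simp
    simp only [map_add, map_sub, map_smul, K.YV, K.YH, Submodule.coe_add, Submodule.coe_smul,
      AddSubgroupClass.coe_sub, smul_add, smul_sub, smul_smul, h1, h2, mul_one]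
    module
  rw [eZ]
  have h1 := K.tendsto_rs hT f
  have h2 := K.tendsto_Yrs hT f
  have a1 : Tendsto (fun N : ℕ => ⟪(K.V (X f) : B) - (2:ℝ) • (K.H f : B), (K.rs N T f : B)⟫_ℝ)
      atTop _ := tendsto_const_nhds.inner h1
  have a2 : Tendsto (fun N : ℕ => ⟪(K.Y (K.rs N T f) : B), (K.Y (K.rs N T f) : B)⟫_ℝ)
      atTop _ := h2.inner h2
  have a3 : Tendsto (fun N : ℕ => ⟪(K.rs N T f : B), (K.rs N T f : B)⟫_ℝ)
      atTop _ := h1.inner h1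
  have h4 := ((a1.const_mul 2).sub a2).sub (a3.const_mul (κ ^ 2))
  refine h4.congr fun N => ?_
  simp only [q, real_inner_self_eq_norm_sq]

omit [CompleteSpace B] in
/-- the correlation function in terms of functions -/
theorem c_eq (hκ : κ ≠ 0) (f : E1) (t : ℝ) :
    K.W.c κ (K.V f - κ⁻¹ • K.H f : K.B1) (K.V f + κ⁻¹ • K.H f : K.B1) t =
      D / κ * ⟪G.U t f, (X f : E)⟫_ℝ - 1 / κ ^ 2 * ⟪G.U t f, (K.C f : E)⟫_ℝ := by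
  have h1 := K.conj t f
  have h2 := K.VH ⟨G.U t f, hU t f f.2⟩ f
  have h3 := K.HH ⟨G.U t f, hU t f f.2⟩ f
  have h4 : K.W.c κ (K.V f - κ⁻¹ • K.H f : K.B1) (K.V f + κ⁻¹ • K.H f : K.B1) t =
      ⟪(K.V ⟨G.U t f, hU t f f.2⟩ : B) - κ⁻¹ • (K.H ⟨G.U t f, hU t f f.2⟩ : B),
        (K.V f : B) + κ⁻¹ • (K.H f : B)⟫_ℝ := by
    rw [h1, inner_smul_left]
    simp [Gr.c]
  rw [h4]
  simp only [inner_add_right, inner_sub_left, inner_smul_left, inner_smul_right,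
    conj_trivial] at h2 h3 ⊢
  have h5 : κ⁻¹ * κ⁻¹ * κ ^ 2 = 1 := by field_simp
  have h6 : (D / κ) = κ⁻¹ * D := by field_simp
  have h7 : (1 / κ ^ 2) = κ⁻¹ * κ⁻¹ := by field_simp
  rw [h6, h7]
  linear_combination κ⁻¹ * h2 - κ⁻¹ * κ⁻¹ * h3 -
    ⟪(K.V ⟨G.U t f, hU t f f.2⟩ : B), (K.V f : B)⟫_ℝ * h5

omit [CompleteSpace B] in
/-- concavity of the functional -/
theorem q_mid (f : E1) (y y' : K.B1) :
    1 / 2 * K.q f y + 1 / 2 * K.q f y' ≤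
      K.q f ((1 / 2 : ℝ) • y + (1 / 2 : ℝ) • y') := by
  have h1 := parallelogram_law_with_norm ℝ (K.Y y : B) (K.Y y' : B)
  have h2 := parallelogram_law_with_norm ℝ (y : B) (y' : B)
  have e1 : ‖((K.Y ((1 / 2 : ℝ) • y + (1 / 2 : ℝ) • y') : K.B1) : B)‖ ^ 2 =
      1 / 4 * (‖(K.Y y : B) + (K.Y y' : B)‖ * ‖(K.Y y : B) + (K.Y y' : B)‖) := by
    rw [map_add, map_smul, map_smul, ← smul_add, Submodule.coe_smul, Submodule.coe_add,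
      norm_smul, Real.norm_eq_abs, abs_of_pos (by norm_num : (0:ℝ) < 1 / 2)]
    ring
  have e2 : ‖(((1 / 2 : ℝ) • y + (1 / 2 : ℝ) • y' : K.B1) : B)‖ ^ 2 =
      1 / 4 * (‖(y : B) + (y' : B)‖ * ‖(y : B) + (y' : B)‖) := by
    rw [← smul_add, Submodule.coe_smul, Submodule.coe_add,
      norm_smul, Real.norm_eq_abs, abs_of_pos (by norm_num : (0:ℝ) < 1 / 2)]
    ring
  have e3 : ⟪(K.V (X f) : B) - (2:ℝ) • (K.H f : B),
      (((1 / 2 : ℝ) • y + (1 / 2 : ℝ) • y' : K.B1) : B)⟫_ℝ =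
      1 / 2 * ⟪(K.V (X f) : B) - (2:ℝ) • (K.H f : B), (y : B)⟫_ℝ +
      1 / 2 * ⟪(K.V (X f) : B) - (2:ℝ) • (K.H f : B), (y' : B)⟫_ℝ := by
    rw [Submodule.coe_add, Submodule.coe_smul, Submodule.coe_smul, inner_add_right,
      inner_smul_right, inner_smul_right]
  simp only [q]
  rw [e1, e2, e3]
  have h3 : 0 ≤ ‖(K.Y y : B) - (K.Y y' : B)‖ * ‖(K.Y y : B) - (K.Y y' : B)‖ := by positivity
  have h4 : 0 ≤ κ ^ 2 * (‖(y : B) - (y' : B)‖ * ‖(y : B) - (y' : B)‖) := by positivity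
  have h5 := congrArg (fun x => κ ^ 2 * x) h2
  simp only [mul_add] at h5
  nlinarith

omit [CompleteSpace B] in
/-- bounds of the finite sums -/
theorem rs_bound (ν : Seminorm ℝ K.B1) {N : ℕ} (hN : 0 < N) {T S m : ℝ} (hT : 0 ≤ T)
    (hTS : T ≤ S) (hκ : 0 ≤ κ) (f : E1)
    (h1 : ∀ t, |t| ≤ S → ν (K.WA t (K.V f - κ⁻¹ • K.H f)) ≤ m)
    (h2 : ∀ t, |t| ≤ S → ν (K.WA t (K.V f + κ⁻¹ • K.H f)) ≤ m) :
    ν (K.rs N T f) ≤ S * m := by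
  have hm : 0 ≤ m := (apply_nonneg ν _).trans (h1 0 (by simpa using hT.trans hTS))
  have hNp : (0:ℝ) < N := by exact_mod_cast hN
  have hh : 0 ≤ T / N := by positivity
  have h3 : ∀ j ∈ Finset.range N, ν (((1 / 2 : ℝ) * (T / N) *
      Real.exp (-(κ * (j * (T / N))))) • (K.WA (j * (T / N)) (K.V f - κ⁻¹ • K.H f) -
        K.WA (-(j * (T / N))) (K.V f + κ⁻¹ • K.H f))) ≤ T / N * m := by
    intro j hj
    have hj' : (j:ℝ) ≤ N := by exact_mod_cast (Finset.mem_range.1 hj).le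
    have hjt : 0 ≤ (j:ℝ) * (T / N) := by positivity
    have hjS : (j:ℝ) * (T / N) ≤ S := by
      calc (j:ℝ) * (T / N) ≤ N * (T / N) := mul_le_mul_of_nonneg_right hj' hh
        _ = T := by field_simp
        _ ≤ S := hTS
    have hexp : Real.exp (-(κ * (j * (T / N)))) ≤ 1 :=
      Real.exp_le_one_iff.2 (by nlinarith [mul_nonneg hκ hjt])
    have h4 := h1 ((j:ℝ) * (T / N)) (by rwa [abs_of_nonneg hjt])
    have h5 := h2 (-((j:ℝ) * (T / N))) (by rwa [abs_neg, abs_of_nonneg hjt])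
    rw [map_smul_eq_mul, Real.norm_eq_abs, abs_of_nonneg (by positivity)]
    have h6 := map_sub_le_add ν (K.WA (j * (T / N)) (K.V f - κ⁻¹ • K.H f))
      (K.WA (-(j * (T / N))) (K.V f + κ⁻¹ • K.H f))
    calc (1 / 2 : ℝ) * (T / N) * Real.exp (-(κ * (j * (T / N)))) *
          ν (K.WA (j * (T / N)) (K.V f - κ⁻¹ • K.H f) -
            K.WA (-(j * (T / N))) (K.V f + κ⁻¹ • K.H f))
        ≤ (1 / 2 : ℝ) * (T / N) * 1 * (m + m) := by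
          refine mul_le_mul (mul_le_mul_of_nonneg_left hexp (by positivity))
            (h6.trans (add_le_add h4 h5)) (apply_nonneg _ _) (by positivity)
      _ = T / N * m := by ring
  calc ν (K.rs N T f) ≤ ∑ j ∈ Finset.range N, T / N * m :=
        (Finset.le_sum_of_subadditive ν (map_zero ν).le (fun a b => map_add_le_add ν a b) _ _).trans
          (Finset.sum_le_sum h3)
    _ = T * m := by
        rw [Finset.sum_const, Finset.card_range, nsmul_eq_mul]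
        field_simp
    _ ≤ S * m := mul_le_mul_of_nonneg_right hTS hm

end KSys

variable {E : Type*} [NormedAddCommGroup E] [InnerProductSpace ℝ E] [CompleteSpace E] {G : Gr E}
  {E1 : Submodule ℝ E} {hU : ∀ t, ∀ f ∈ E1, G.U t f ∈ E1} {X : E1 →ₗ[ℝ] E1} {D₁ D₂ : ℝ}
  {B₁ B₂ : Type*} [NormedAddCommGroup B₁] [InnerProductSpace ℝ B₁] [CompleteSpace B₁]
  [NormedAddCommGroup B₂] [InnerProductSpace ℝ B₂] [CompleteSpace B₂]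

/-- THEOREM PI. -/
theorem PI (hX : ∀ f : E1, G.D (f : E) (X f : E)) (K₁ : KSys G E1 hU X 1 D₁ B₁)
    (K₂ : KSys G E1 hU X 2 D₂ B₂) (hD₁ : 0 ≤ D₁) (hD₂ : 0 ≤ D₂) (f : E1) {L : ℝ} (hL0 : 0 ≤ L)
    (hL : K₁.C f + K₂.C f = L • f + X (X f)) {S η : ℝ} (hS : 0 < S) (hη : 0 < η) :
    ∃ T ∈ Set.Icc 0 S, ∃ N : ℕ, 0 < N ∧
      ‖(K₁.V f : B₁)‖ ^ 2 + 2 * ‖(K₂.V f : B₂)‖ ^ 2 - (D₁ + 2 * D₂) * ‖(f : E)‖ ^ 2
        - 2 / S * (‖(f : E)‖ ^ 2 + (‖(K₁.V f : B₁)‖ + ‖(K₁.H f : B₁)‖) ^ 2 / 2 +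
          (‖(K₂.V f : B₂)‖ + ‖(K₂.H f : B₂)‖ / 2) ^ 2 / 2) - η ≤
      K₁.q f (K₁.rs N T f) + 2 * K₂.q f (K₂.rs N T f) := by
  have hc₁ : ∀ t, K₁.W.c 1 (K₁.V f - (1:ℝ)⁻¹ • K₁.H f : K₁.B1)
      (K₁.V f + (1:ℝ)⁻¹ • K₁.H f : K₁.B1) t =
      D₁ * ⟪G.U t f, (X f : E)⟫_ℝ - ⟪G.U t f, (K₁.C f : E)⟫_ℝ := by
    intro t; rw [K₁.c_eq one_ne_zero]; ring
  have hc₂ : ∀ t, K₂.W.c 2 (K₂.V f - (2:ℝ)⁻¹ • K₂.H f : K₂.B1)
      (K₂.V f + (2:ℝ)⁻¹ • K₂.H f : K₂.B1) t =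
      D₂ / 2 * ⟪G.U t f, (X f : E)⟫_ℝ - 1 / 4 * ⟪G.U t f, (K₂.C f : E)⟫_ℝ := by
    intro t; rw [K₂.c_eq two_ne_zero]; ring
  have hL' : (K₁.C f : E) + (K₂.C f : E) = L • (f : E) + (X (X f) : E) := by
    have := congrArg (fun x : E1 => (x : E)) hL
    simpa using this
  obtain ⟨T, hT, h⟩ := exists_T G K₁.W K₂.W (hX f) (hX (X f)) hL' hL0 hD₁ hD₂
    (K₁.W_deriv (K₁.V f - (1:ℝ)⁻¹ • K₁.H f)) (K₁.W_deriv (K₁.V f + (1:ℝ)⁻¹ • K₁.H f))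
    (K₂.W_deriv (K₂.V f - (2:ℝ)⁻¹ • K₂.H f)) (K₂.W_deriv (K₂.V f + (2:ℝ)⁻¹ • K₂.H f))
    hc₁ hc₂ hS
  have ht := (K₁.tendsto_q hT.1 one_ne_zero f).add
    ((K₂.tendsto_q hT.1 two_ne_zero f).const_mul 2)
  -- the norms
  have n1 : ‖((K₁.V f - (1:ℝ)⁻¹ • K₁.H f : K₁.B1) : B₁) +
      ((K₁.V f + (1:ℝ)⁻¹ • K₁.H f : K₁.B1) : B₁)‖ ^ 2 = 4 * ‖(K₁.V f : B₁)‖ ^ 2 := by
    have e : ((K₁.V f - (1:ℝ)⁻¹ • K₁.H f : K₁.B1) : B₁) +
      ((K₁.V f + (1:ℝ)⁻¹ • K₁.H f : K₁.B1) : B₁) = (2:ℝ) • (K₁.V f : B₁) := by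
      simp only [Submodule.coe_add, AddSubgroupClass.coe_sub, Submodule.coe_smul]
      module
    rw [e, norm_smul, mul_pow, Real.norm_eq_abs, abs_of_pos two_pos]; norm_num
  have n2 : ‖((K₂.V f - (2:ℝ)⁻¹ • K₂.H f : K₂.B1) : B₂) +
      ((K₂.V f + (2:ℝ)⁻¹ • K₂.H f : K₂.B1) : B₂)‖ ^ 2 = 4 * ‖(K₂.V f : B₂)‖ ^ 2 := by
    have e : ((K₂.V f - (2:ℝ)⁻¹ • K₂.H f : K₂.B1) : B₂) +
      ((K₂.V f + (2:ℝ)⁻¹ • K₂.H f : K₂.B1) : B₂) = (2:ℝ) • (K₂.V f : B₂) := by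
      simp only [Submodule.coe_add, AddSubgroupClass.coe_sub, Submodule.coe_smul]
      module
    rw [e, norm_smul, mul_pow, Real.norm_eq_abs, abs_of_pos two_pos]; norm_num
  have m1 : ‖((K₁.V f - (1:ℝ)⁻¹ • K₁.H f : K₁.B1) : B₁)‖ +
      ‖((K₁.V f + (1:ℝ)⁻¹ • K₁.H f : K₁.B1) : B₁)‖ ≤
        2 * (‖(K₁.V f : B₁)‖ + ‖(K₁.H f : B₁)‖) := by
    simp only [Submodule.coe_add, AddSubgroupClass.coe_sub, inv_one, one_smul]
    have := norm_sub_le (K₁.V f : B₁) (K₁.H f : B₁)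
    have := norm_add_le (K₁.V f : B₁) (K₁.H f : B₁)
    linarith
  have m2 : ‖((K₂.V f - (2:ℝ)⁻¹ • K₂.H f : K₂.B1) : B₂)‖ +
      ‖((K₂.V f + (2:ℝ)⁻¹ • K₂.H f : K₂.B1) : B₂)‖ ≤
        2 * (‖(K₂.V f : B₂)‖ + ‖(K₂.H f : B₂)‖ / 2) := by
    simp only [Submodule.coe_add, AddSubgroupClass.coe_sub, Submodule.coe_smul]
    have h1 := norm_sub_le (K₂.V f : B₂) ((2:ℝ)⁻¹ • (K₂.H f : B₂))
    have h2 := norm_add_le (K₂.V f : B₂) ((2:ℝ)⁻¹ • (K₂.H f : B₂))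
    rw [norm_smul, norm_inv, Real.norm_eq_abs, abs_of_pos two_pos] at h1 h2
    linarith
  have m1' := pow_le_pow_left₀ (by positivity) m1 2
  have m2' := pow_le_pow_left₀ (by positivity) m2 2
  rw [n1, n2] at h
  have hlow : ‖(K₁.V f : B₁)‖ ^ 2 + 2 * ‖(K₂.V f : B₂)‖ ^ 2 - (D₁ + 2 * D₂) * ‖(f : E)‖ ^ 2
        - 2 / S * (‖(f : E)‖ ^ 2 + (‖(K₁.V f : B₁)‖ + ‖(K₁.H f : B₁)‖) ^ 2 / 2 +
          (‖(K₂.V f : B₂)‖ + ‖(K₂.H f : B₂)‖ / 2) ^ 2 / 2) ≤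
      1 / 4 * (4 * ‖(K₁.V f : B₁)‖ ^ 2) + 1 / 2 * (4 * ‖(K₂.V f : B₂)‖ ^ 2) -
        (D₁ + 2 * D₂) * ‖(f : E)‖ ^ 2 - 2 / S * (‖(f : E)‖ ^ 2 +
          (‖((K₁.V f - (1:ℝ)⁻¹ • K₁.H f : K₁.B1) : B₁)‖ +
            ‖((K₁.V f + (1:ℝ)⁻¹ • K₁.H f : K₁.B1) : B₁)‖) ^ 2 / 8 +
          (‖((K₂.V f - (2:ℝ)⁻¹ • K₂.H f : K₂.B1) : B₂)‖ +
            ‖((K₂.V f + (2:ℝ)⁻¹ • K₂.H f : K₂.B1) : B₂)‖) ^ 2 / 8) := by
    have hS2 : 0 < 2 / S := by positivity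
    have h9 := mul_le_mul_of_nonneg_left (add_le_add (add_le_add (le_refl (‖(f : E)‖ ^ 2))
      (div_le_div_of_nonneg_right m1' (by norm_num : (0:ℝ) ≤ 8)))
      (div_le_div_of_nonneg_right m2' (by norm_num : (0:ℝ) ≤ 8))) hS2.le
    have e9 : 2 / S * (‖(f : E)‖ ^ 2 + (2 * (‖(K₁.V f : B₁)‖ + ‖(K₁.H f : B₁)‖)) ^ 2 / 8 +
        (2 * (‖(K₂.V f : B₂)‖ + ‖(K₂.H f : B₂)‖ / 2)) ^ 2 / 8) =
        2 / S * (‖(f : E)‖ ^ 2 + (‖(K₁.V f : B₁)‖ + ‖(K₁.H f : B₁)‖) ^ 2 / 2 +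
          (‖(K₂.V f : B₂)‖ + ‖(K₂.H f : B₂)‖ / 2) ^ 2 / 2) := by ring
    rw [e9] at h9
    linarith
  have hev := (ht.eventually (lt_mem_nhds (lt_of_lt_of_le (sub_lt_self _ hη) (hlow.trans h)))).and
    (eventually_gt_atTop 0)
  obtain ⟨N, hN, hN0⟩ := hev.exists
  exact ⟨T, hT, N, hN0, hN.le⟩

/-- THEOREM PI with a local field: only the fields of the root `1` remain. -/
theorem PI_loc (hX : ∀ f : E1, G.D (f : E) (X f : E)) (K₁ : KSys G E1 hU X 1 D₁ B₁)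
    (K₂ : KSys G E1 hU X 2 D₂ B₂) (hD₁ : 0 ≤ D₁) (hD₂ : 0 ≤ D₂) (f : E1) {L : ℝ} (hL0 : 0 ≤ L)
    (hL : K₁.C f + K₂.C f = L • f + X (X f)) (y : K₁.B1) {S η : ℝ} (hS : 0 < S) (hη : 0 < η) :
    ∃ T ∈ Set.Icc 0 S, ∃ N : ℕ, 0 < N ∧
      1 / 2 * (K₁.q f y - ‖(K₁.V f : B₁)‖ ^ 2 + D₁ * ‖(f : E)‖ ^ 2)
        - 1 / S * (‖(f : E)‖ ^ 2 + (‖(K₁.V f : B₁)‖ + ‖(K₁.H f : B₁)‖) ^ 2 / 2 +
          (‖(K₂.V f : B₂)‖ + ‖(K₂.H f : B₂)‖ / 2) ^ 2 / 2) - η ≤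
      K₁.q f ((1 / 2 : ℝ) • K₁.rs N T f + (1 / 2 : ℝ) • y) + K₂.q f (K₂.rs N T f)
        - ‖(K₁.V f : B₁)‖ ^ 2 - ‖(K₂.V f : B₂)‖ ^ 2 + (D₁ + D₂) * ‖(f : E)‖ ^ 2 := by
  obtain ⟨T, hT, N, hN, h⟩ := PI hX K₁ K₂ hD₁ hD₂ f hL0 hL hS (by positivity : 0 < 2 * η)
  refine ⟨T, hT, N, hN, ?_⟩
  have h1 := K₁.q_mid f (K₁.rs N T f) y
  have e : 2 / S * (‖(f : E)‖ ^ 2 + (‖(K₁.V f : B₁)‖ + ‖(K₁.H f : B₁)‖) ^ 2 / 2 +
          (‖(K₂.V f : B₂)‖ + ‖(K₂.H f : B₂)‖ / 2) ^ 2 / 2) =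
      2 * (1 / S * (‖(f : E)‖ ^ 2 + (‖(K₁.V f : B₁)‖ + ‖(K₁.H f : B₁)‖) ^ 2 / 2 +
          (‖(K₂.V f : B₂)‖ + ‖(K₂.H f : B₂)‖ / 2) ^ 2 / 2)) := by ring
  rw [e] at h
  linarith

end Vale.Agent.P207.H391
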