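import Vale.Agent.P207.H391.PiD

/-!
# P207, block PI: Hilbert space of a positive form with a one-parameter group

`exists_hilb`: a real vector space with a positive semidefinite form, a one-parameter group of
form preserving maps and its weak derivative is realised in a Hilbert space with a strongly
continuous group (structure `Gr`) and strong derivatives.
-/

open Filter Topology MeasureTheory UniformSpace
open scoped InnerProductSpace

noncomputable section

universe u

namespace Vale.Agent.P207.H391

/-- A positive semidefinite form with a one-parameter group and its weak derivative. -/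
structure Frm (P : Type*) [AddCommGroup P] [Module ℝ P] where
  β : P → P → ℝ
  add_left : ∀ x y z, β (x + y) z = β x z + β y z
  smul_left : ∀ (r : ℝ) x y, β (r • x) y = r * β x y
  symm : ∀ x y, β x y = β y x
  nonneg : ∀ x, 0 ≤ β x x
  W : ℝ → P →ₗ[ℝ] P
  zero : ∀ x, W 0 x = x
  add : ∀ s t x, W (s + t) x = W s (W t x)
  iso : ∀ t x y, β (W t x) (W t y) = β x y
  Y : P →ₗ[ℝ] P
  der : ∀ x y, HasDerivAt (fun t => β (W t x) y) (β (Y x) y) 0

/-- a weakly differentiable curve with continuous derivative is differentiable -/
theorem deriv_of_weak {H : Type*} [NormedAddCommGroup H] [InnerProductSpace ℝ H] [CompleteSpace H]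
    {φ ψ : ℝ → H} (hψ : Continuous ψ) {S : Set H} (hS : Dense S)
    (h : ∀ v ∈ S, ∀ t, HasDerivAt (fun t => ⟪φ t, v⟫_ℝ) ⟪ψ t, v⟫_ℝ t) (t : ℝ) :
    HasDerivAt φ (ψ t) t := by
  have h1 : ∀ r, φ r = φ 0 + ∫ s in (0:ℝ)..r, ψ s := by
    intro r
    rw [← sub_eq_iff_eq_add']
    refine hS.eq_of_inner_left (𝕜 := ℝ) ?_
    intro v hv
    have hc : Continuous fun s => ⟪ψ s, v⟫_ℝ := hψ.inner continuous_const
    have h2 := intervalIntegral.integral_eq_sub_of_hasDerivAt (a := 0) (b := r)
      (fun s _ => h v hv s) (hc.intervalIntegrable _ _)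
    have h3 := (innerSL ℝ v).intervalIntegral_comp_comm
      (hψ.intervalIntegrable (μ := volume) 0 r)
    simp only [innerSL_apply_apply] at h3
    rw [inner_sub_left, ← h2, real_inner_comm, ← h3]
    refine intervalIntegral.integral_congr fun s _ => ?_
    exact real_inner_comm _ _
  have h4 : HasDerivAt (fun r => φ 0 + ∫ s in (0:ℝ)..r, ψ s) (ψ t) t :=
    (intervalIntegral.integral_hasDerivAt_right (hψ.intervalIntegrable _ _)
      (hψ.stronglyMeasurableAtFilter _ _) hψ.continuousAt).const_add _
  exact h4.congr_of_eventuallyEq (Eventually.of_forall h1)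

theorem exists_hilb {P : Type u} [AddCommGroup P] [Module ℝ P] (F : Frm P) :
    ∃ (H : Type u) (_ : NormedAddCommGroup H) (_ : InnerProductSpace ℝ H) (_ : CompleteSpace H)
      (ι : P →ₗ[ℝ] H) (G : Gr H), (∀ x y, ⟪ι x, ι y⟫_ℝ = F.β x y) ∧
      (∀ t x, G.U t (ι x) = ι (F.W t x)) ∧ (∀ x, G.D (ι x) (ι (F.Y x))) := by
  let core : PreInnerProductSpace.Core ℝ P :=
    { inner := F.β
      conj_inner_symm := fun x y => by simpa using F.symm y x
      re_inner_nonneg := fun x => by simpa using F.nonneg x
      add_left := fun x y z => F.add_left x y z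
      smul_left := fun x y r => by simpa using F.smul_left r x y }
  let _ : SeminormedAddCommGroup P :=
    InnerProductSpace.Core.toSeminormedAddCommGroup (𝕜 := ℝ) (c := core)
  let _ : InnerProductSpace ℝ P := InnerProductSpace.ofCore core
  have hβ : ∀ x y : P, ⟪x, y⟫_ℝ = F.β x y := fun x y => rfl
  have hnorm : ∀ t (x : P), ‖F.W t x‖ = ‖x‖ := by
    intro t x
    have h1 : ‖F.W t x‖ ^ 2 = ‖x‖ ^ 2 := by
      rw [← real_inner_self_eq_norm_sq, ← real_inner_self_eq_norm_sq, hβ, hβ, F.iso]
    exact (pow_left_inj₀ (norm_nonneg _) (norm_nonneg _) two_ne_zero).1 h1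
  let WL : ℝ → P →L[ℝ] P := fun t => (F.W t).mkContinuous 1 (fun x => by rw [hnorm, one_mul])
  have hWL : ∀ t x, WL t x = F.W t x := fun t x => rfl
  let U : ℝ → Completion P →L[ℝ] Completion P := fun t => (WL t).completion
  have hU : ∀ t (x : P), U t (x : Completion P) = ((F.W t x : P) : Completion P) := by
    intro t x
    exact (WL t).completion_apply_coe x
  have hUn : ∀ t (u : Completion P), ‖U t u‖ = ‖u‖ := by
    intro t u
    induction u using Completion.induction_on with
    | hp => exact isClosed_eq ((U t).continuous.norm) continuous_norm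
    | ih x => rw [hU, Completion.norm_coe, Completion.norm_coe, hnorm]
  have hU0 : ∀ u : Completion P, U 0 u = u := by
    intro u
    induction u using Completion.induction_on with
    | hp => exact isClosed_eq ((U 0).continuous) continuous_id
    | ih x => rw [hU, F.zero]
  have hUadd : ∀ s t (u : Completion P), U (s + t) u = U s (U t u) := by
    intro s t u
    induction u using Completion.induction_on with
    | hp => exact isClosed_eq ((U _).continuous) ((U s).continuous.comp (U t).continuous)
    | ih x => rw [hU, hU, hU, F.add]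
  -- continuity at `0` for smooth vectors
  have hc0 : ∀ x : P, Tendsto (fun t => ‖U t (x : Completion P) - x‖) (𝓝 0) (𝓝 0) := by
    intro x
    have h1 : Tendsto (fun t => F.β (F.W t x) x) (𝓝 0) (𝓝 (F.β x x)) := by
      have := (F.der x x).continuousAt.tendsto
      simpa [F.zero] using this
    have h2 : ∀ t, ‖U t (x : Completion P) - x‖ ^ 2 = 2 * F.β x x - 2 * F.β (F.W t x) x := by
      intro t
      rw [hU, ← Completion.coe_sub, Completion.norm_coe, norm_sub_sq_real, hnorm,
        ← real_inner_self_eq_norm_sq, hβ, hβ]
      ring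
    have h3 : Tendsto (fun t => ‖U t (x : Completion P) - x‖ ^ 2) (𝓝 0) (𝓝 0) := by
      simp only [h2]
      have h4 := (tendsto_const_nhds (x := 2 * F.β x x)).sub (h1.const_mul 2)
      simpa using h4
    have h5 := h3.sqrt
    simpa [Real.sqrt_sq (norm_nonneg _)] using h5
  have hcont0 : ∀ u : Completion P, Tendsto (fun t => U t u) (𝓝 0) (𝓝 u) := by
    intro u
    rw [Metric.tendsto_nhds]
    intro ε hε
    obtain ⟨v, hv1, hv⟩ := Metric.mem_closure_iff.1 (Completion.denseRange_coe u) (ε / 3)
      (by positivity)
    obtain ⟨x, rfl⟩ := hv1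
    have h1 := (Metric.tendsto_nhds.1 (hc0 x)) (ε / 3) (by positivity)
    filter_upwards [h1] with t ht
    rw [Real.dist_eq, sub_zero, abs_of_nonneg (norm_nonneg _)] at ht
    calc dist (U t u) u ≤ dist (U t u) (U t (x : Completion P)) + dist (U t (x : Completion P)) x
          + dist (x : Completion P) u := dist_triangle4 _ _ _ _
      _ < ε / 3 + ε / 3 + ε / 3 := by
          rw [dist_eq_norm, ← map_sub, hUn, ← dist_eq_norm, dist_eq_norm (U t _), dist_comm _ u]
          exact add_lt_add (add_lt_add hv ht) hv
      _ = ε := by ring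
  have hcont : ∀ u : Completion P, Continuous fun t => U t u := by
    intro u
    rw [continuous_iff_continuousAt]
    intro s
    have h1 : Tendsto (fun t => U s (U (t - s) u)) (𝓝 s) (𝓝 (U s u)) := by
      have h2 : Tendsto (fun t => U (t - s) u) (𝓝 s) (𝓝 u) := by
        refine (hcont0 u).comp ?_
        have : Tendsto (fun t : ℝ => t - s) (𝓝 s) (𝓝 (s - s)) :=
          (continuous_id.sub continuous_const).continuousAt
        simpa using this
      exact ((U s).continuous.tendsto u).comp h2
    refine h1.congr fun t => ?_
    rw [← hUadd, add_sub_cancel]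
  let G : Gr (Completion P) :=
    { U := U
      zero := ContinuousLinearMap.ext hU0
      add := fun s t => ContinuousLinearMap.ext fun u => hUadd s t u
      norm := hUn
      cont := hcont }
  refine ⟨Completion P, inferInstance, inferInstance, inferInstance,
    (Completion.toComplₗᵢ : P →ₗᵢ[ℝ] Completion P).toLinearMap, G, ?_, ?_, ?_⟩
  · intro x y
    exact Completion.inner_coe x y
  · intro t x
    exact hU t x
  · intro x
    have h1 := deriv_of_weak (φ := fun t => U t (x : Completion P))
      (ψ := fun t => U t ((F.Y x : P) : Completion P)) (hcont _)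
      (S := Set.range ((↑) : P → Completion P)) Completion.denseRange_coe ?_ 0
    · have h2 : U 0 ((F.Y x : P) : Completion P) = ((F.Y x : P) : Completion P) := hU0 _
      simp only [h2] at h1
      exact h1
    · rintro _ ⟨y, rfl⟩ t
      have e1 : ∀ (z : P) s, ⟪U s (z : Completion P), (y : Completion P)⟫_ℝ =
          F.β (F.W (s - t) z) (F.W (-t) y) := by
        intro z s
        rw [hU, Completion.inner_coe, hβ, ← F.iso (-t) (F.W s z) y, ← F.add]
        congr 2; ring_nf
      simp only [e1]
      have h3 := F.der x (F.W (-t) y)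
      have h4 : HasDerivAt (fun s => F.β (F.W s x) (F.W (-t) y)) (F.β (F.Y x) (F.W (-t) y))
          (t - t) := by rw [sub_self]; exact h3
      have h5 := h4.comp_sub_const t t
      rw [sub_self, F.zero]
      exact h5

end Vale.Agent.P207.H391
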