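import Mathlib

/-!
# Comparison of the matrix Riccati equation with scalar Riccati equations

`U' = K - U²`, `f ≤ K ≤ F`, `p' = f - p²`, `P' = F - P²`, `p 0 ≤ U 0 ≤ P 0` imply `p ≤ U ≤ P`
for the times `s ≥ 0`.
-/

open Set Filter Topology Metric MeasureTheory

noncomputable section

namespace Vale.Agent.P207.H391.RicE

/-- `g' ≥ - c g` and `g 0 ≥ 0` imply `g ≥ 0` -/
theorem nonneg_of_deriv {g c : ℝ → ℝ} (hc : ContinuousOn c (Ici 0))
    (hg : ∀ s, 0 ≤ s → ∃ g', HasDerivAt g g' s ∧ -(c s) * g s ≤ g') (h0 : 0 ≤ g 0) {s : ℝ}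
    (hs : 0 ≤ s) : 0 ≤ g s := by
  have hcc : Continuous fun r : ℝ => c (max r 0) :=
    hc.comp_continuous (by fun_prop) fun r => le_max_right r 0
  set C : ℝ → ℝ := fun s => ∫ r in (0 : ℝ)..s, c (max r 0) with hC
  have hCd : ∀ s, HasDerivAt C (c (max s 0)) s := fun s =>
    (hcc.integral_hasStrictDerivAt 0 s).hasDerivAt
  have hG : ∀ s, 0 ≤ s → ∃ G', HasDerivAt (fun s => g s * Real.exp (C s)) G' s ∧ 0 ≤ G' := by
    intro s hs
    obtain ⟨g', h1, h2⟩ := hg s hs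
    have h3 := (hCd s).exp
    rw [max_eq_left hs] at h3
    refine ⟨_, h1.mul h3, ?_⟩
    have h4 : 0 ≤ (g' + c s * g s) * Real.exp (C s) :=
      mul_nonneg (by linarith) (Real.exp_pos _).le
    calc (0 : ℝ) ≤ (g' + c s * g s) * Real.exp (C s) := h4
      _ = _ := by ring
  have hmono : MonotoneOn (fun s => g s * Real.exp (C s)) (Ici 0) := by
    refine monotoneOn_of_deriv_nonneg (convex_Ici 0)
      (fun s hs => ((hG s hs).choose_spec.1).continuousAt.continuousWithinAt) ?_ ?_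
    · intro s hs
      rw [interior_Ici] at hs
      exact ((hG s (le_of_lt hs)).choose_spec.1).differentiableAt.differentiableWithinAt
    · intro s hs
      rw [interior_Ici] at hs
      rw [((hG s (le_of_lt hs)).choose_spec.1).deriv]
      exact (hG s (le_of_lt hs)).choose_spec.2
  have h1 := hmono (mem_Ici.2 le_rfl) (mem_Ici.2 hs) hs
  have h2 : 0 ≤ g s * Real.exp (C s) := by
    refine le_trans ?_ h1
    exact mul_nonneg h0 (Real.exp_pos _).le
  exact nonneg_of_mul_nonneg_left h2 (Real.exp_pos _)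

variable {E : Type*} [NormedAddCommGroup E] [InnerProductSpace ℝ E]

variable {U K : ℝ → E →L[ℝ] E} {f F p P : ℝ → ℝ}

/-- the upper bound, for a fixed vector -/
theorem ric_up (hU : ∀ s, 0 ≤ s → HasDerivAt U (K s - U s ∘L U s) s)
    (hsym : ∀ s v w, inner ℝ (U s v) w = inner ℝ v (U s w))
    (hK : ∀ s, 0 ≤ s → ∀ v, inner ℝ (K s v) v ≤ F s * ‖v‖ ^ 2)
    (hP : ∀ s, 0 ≤ s → HasDerivAt P (F s - P s ^ 2) s)
    (h0 : ∀ v, inner ℝ (U 0 v) v ≤ P 0 * ‖v‖ ^ 2) {s : ℝ} (hs : 0 ≤ s) (v : E) :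
    inner ℝ (U s v) v ≤ P s * ‖v‖ ^ 2 := by
  have key : 0 ≤ P s * ‖v‖ ^ 2 - inner ℝ (U s v) v := by
    refine nonneg_of_deriv (g := fun s => P s * ‖v‖ ^ 2 - inner ℝ (U s v) v)
      (c := fun s => 2 * P s) ?_ ?_ (by linarith [h0 v]) hs
    · intro r hr
      exact ((hP r hr).continuousAt.const_mul 2).continuousWithinAt
    · intro r hr
      have e1 : HasDerivAt (fun r => U r v) ((K r - U r ∘L U r) v) r :=
        (hU r hr).clm_apply (hasDerivAt_const r v) |>.congr_deriv (by simp)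
      have e2 : HasDerivAt (fun r => inner ℝ (U r v) v)
          (inner ℝ ((K r - U r ∘L U r) v) v) r := by
        have h := e1.inner ℝ (hasDerivAt_const r v)
        simpa using h
      refine ⟨_, ((hP r hr).mul_const _).sub e2, ?_⟩
      have e3 : inner ℝ ((K r - U r ∘L U r) v) v = inner ℝ (K r v) v - ‖U r v‖ ^ 2 := by
        change inner ℝ (K r v - U r (U r v)) v = _
        rw [inner_sub_left, hsym r (U r v) v, real_inner_self_eq_norm_sq]
      have e4 : 0 ≤ ‖U r v - P r • v‖ ^ 2 := sq_nonneg _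
      rw [norm_sub_sq_real, inner_smul_right, norm_smul, mul_pow, Real.norm_eq_abs, sq_abs] at e4
      rw [e3]
      have e5 := hK r hr v
      nlinarith
  linarith

/-- the lower bound along a solution of `X' = U X` -/
theorem ric_lo_along (hU : ∀ s, 0 ≤ s → HasDerivAt U (K s - U s ∘L U s) s)
    (hK : ∀ s, 0 ≤ s → ∀ v, f s * ‖v‖ ^ 2 ≤ inner ℝ (K s v) v)
    (hp : ∀ s, 0 ≤ s → HasDerivAt p (f s - p s ^ 2) s)
    (h0 : ∀ v, p 0 * ‖v‖ ^ 2 ≤ inner ℝ (U 0 v) v) {X : ℝ → E}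
    (hX : ∀ s, 0 ≤ s → HasDerivAt X (U s (X s)) s) {s : ℝ} (hs : 0 ≤ s) :
    p s * ‖X s‖ ^ 2 ≤ inner ℝ (U s (X s)) (X s) := by
  have key : 0 ≤ inner ℝ (U s (X s)) (X s) - p s * ‖X s‖ ^ 2 := by
    refine nonneg_of_deriv (g := fun s => inner ℝ (U s (X s)) (X s) - p s * ‖X s‖ ^ 2)
      (c := fun _ => 0) continuousOn_const ?_ (by linarith [h0 (X 0)]) hs
    intro r hr
    have e1 : HasDerivAt (fun r => U r (X r)) ((K r - U r ∘L U r) (X r) + U r (U r (X r))) r :=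
      (hU r hr).clm_apply (hX r hr)
    have e2 := e1.inner ℝ (hX r hr)
    have e3 := (hp r hr).mul (hX r hr).norm_sq
    refine ⟨_, e2.sub e3, ?_⟩
    have e4 : (K r - U r ∘L U r) (X r) + U r (U r (X r)) = K r (X r) := by
      change K r (X r) - U r (U r (X r)) + U r (U r (X r)) = K r (X r)
      abel
    have e5 : 0 ≤ ‖U r (X r) - p r • X r‖ ^ 2 := sq_nonneg _
    rw [norm_sub_sq_real, inner_smul_right, norm_smul, mul_pow, Real.norm_eq_abs, sq_abs] at e5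
    have e6 := hK r hr (X r)
    rw [e4, real_inner_self_eq_norm_sq, real_inner_comm (U r (X r)) (X r)]
    nlinarith
  linarith

/-- **The comparison.** `D` is the flow of `X' = U X`. -/
theorem ric_between (hU : ∀ s, 0 ≤ s → HasDerivAt U (K s - U s ∘L U s) s)
    (hsym : ∀ s v w, inner ℝ (U s v) w = inner ℝ v (U s w))
    (hK : ∀ s, 0 ≤ s → ∀ v, f s * ‖v‖ ^ 2 ≤ inner ℝ (K s v) v ∧
      inner ℝ (K s v) v ≤ F s * ‖v‖ ^ 2)
    (hp : ∀ s, 0 ≤ s → HasDerivAt p (f s - p s ^ 2) s)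
    (hP : ∀ s, 0 ≤ s → HasDerivAt P (F s - P s ^ 2) s)
    (h0 : ∀ v, p 0 * ‖v‖ ^ 2 ≤ inner ℝ (U 0 v) v ∧ inner ℝ (U 0 v) v ≤ P 0 * ‖v‖ ^ 2)
    {D : ℝ → E →L[ℝ] E} (hD : ∀ s, 0 ≤ s → ∀ v, HasDerivAt (fun r => D r v) (U s (D s v)) s)
    (hsurj : ∀ s, 0 ≤ s → Function.Surjective (D s)) {s : ℝ} (hs : 0 ≤ s) (v : E) :
    p s * ‖v‖ ^ 2 ≤ inner ℝ (U s v) v ∧ inner ℝ (U s v) v ≤ P s * ‖v‖ ^ 2 := by
  refine ⟨?_, ric_up hU hsym (fun s hs v => (hK s hs v).2) hP (fun v => (h0 v).2) hs v⟩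
  obtain ⟨w, rfl⟩ := hsurj s hs v
  exact ric_lo_along hU (fun s hs v => (hK s hs v).1) hp (fun v => (h0 v).1)
    (fun s hs => hD s hs w) hs

end Vale.Agent.P207.H391.RicE
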