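import Vale.Agent.P207.H391.PiLad
import Vale.Agent.P207.Low.Sub

/-!
# P207, block LOW: the flow closure of a stable submodule is stable (X3)

`Flw.Δ_U` : `Δ U_t f = U_t (a Δ + b E + c S + r X) f` for a definite form.
`stable_closure` : `Stable L (⨆ t, N.map (U_t))`.
-/

open Filter Topology

noncomputable section

universe u

namespace Vale.Agent.P207.H391

open Vale.Agent.P207.H662 Vale.Agent.P207.Low

variable {W : Type u} [AddCommGroup W] [Module ℝ W]

section one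

variable {ip : W →ₗ[ℝ] W →ₗ[ℝ] ℝ} {X : W →ₗ[ℝ] W} {U : ℝ → W →ₗ[ℝ] W}

/-- the product rule at all times -/
theorem HasD.at {D : W →ₗ[ℝ] W} (h : HasD ip X U D)
    (hadd : ∀ s t f, U (s + t) f = U s (U t f)) (f g : W) (t : ℝ) :
    HasDerivAt (fun t => ip (D (U t f)) (U t g))
      (ip (D (X (U t f))) (U t g) + ip (D (U t f)) (X (U t g))) t := by
  have h1 := h (U t f) (U t g)
  have h2 : HasDerivAt (fun s => ip (D (U s (U t f))) (U s (U t g)))
      (ip (D (X (U t f))) (U t g) + ip (D (U t f)) (X (U t g))) (t - t) := by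
    rw [sub_self]; exact h1
  refine (h2.comp_sub_const t t).congr_of_eventuallyEq (Eventually.of_forall fun s => ?_)
  simp only
  rw [← hadd, ← hadd, sub_add_cancel]

end one

variable {L : Lad W} (Φ : Flw L)

namespace Flw

include Φ

/-- `ip (X U_t f) g = ip (U_t X f) g` -/
theorem ip_X_U (t : ℝ) (f g : W) : L.ip (L.X (Φ.U t f)) g = L.ip (Φ.U t (L.X f)) g := by
  have h1 := Φ.der (Φ.U t f) g
  have h2 : HasDerivAt (fun s => L.ip (Φ.U s (Φ.U t f)) g) (L.ip (Φ.U t (L.X f)) g) 0 := by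
    have h3 := Φ.der f (Φ.U (-t) g)
    have e : ∀ u, L.ip u (Φ.U (-t) g) = L.ip (Φ.U t u) g := by
      intro u
      rw [← Φ.iso t u (Φ.U (-t) g), ← Φ.add, add_neg_cancel, Φ.zero]
    rw [e] at h3
    refine h3.congr_of_eventuallyEq (Eventually.of_forall fun s => ?_)
    simp only
    rw [e, ← Φ.add, ← Φ.add, add_comm]
  exact h1.unique h2

/-- equality tested against the translates -/
theorem ext_U (hdef : ∀ f, L.ip f f = 0 → f = 0) (t : ℝ) {u v : W}
    (h : ∀ g, L.ip u (Φ.U t g) = L.ip v (Φ.U t g)) : u = v := by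
  have h1 : L.ip (u - v) (u - v) = 0 := by
    have h2 := h (Φ.U (-t) (u - v))
    rw [← Φ.add, add_neg_cancel, Φ.zero] at h2
    have h3 : L.ip (u - v) (u - v) = L.ip u (u - v) - L.ip v (u - v) := by
      rw [map_sub L.ip u v, LinearMap.sub_apply]
    rw [h3, h2, sub_self]
  exact sub_eq_zero.1 (hdef _ h1)

theorem X_U (hdef : ∀ f, L.ip f f = 0 → f = 0) (t : ℝ) (f : W) :
    L.X (Φ.U t f) = Φ.U t (L.X f) :=
  Φ.ext_U hdef t fun g => Φ.ip_X_U t f (Φ.U t g)

omit Φ in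
/-- a function with derivative `c y` is an exponential -/
theorem exp_const {y : ℝ → ℝ} {c : ℝ} (h : ∀ t, HasDerivAt y (c * y t) t) (t : ℝ) :
    y t = Real.exp (c * t) * y 0 := by
  have h1 : ∀ t, HasDerivAt (fun t => Real.exp (-(c * t)) * y t) 0 t := by
    intro t
    have h2 : HasDerivAt (fun t : ℝ => Real.exp (-(c * t))) (-c * Real.exp (-(c * t))) t :=
      Gr.exp_deriv c t
    refine (h2.mul (h t)).congr_deriv ?_
    ring
  have h3 := is_const_of_deriv_eq_zero (fun t => (h1 t).differentiableAt)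
    (fun t => (h1 t).deriv) t 0
  simp only [mul_zero, neg_zero, Real.exp_zero, one_mul] at h3
  rw [← h3, ← mul_assoc, ← Real.exp_add]
  simp

/-- the conjugate of `Δ` by the flow, weak form -/
theorem ip_Δ_U {κ q k : ℝ} (L1 : Lad1 W L.ip L.X κ q) (hk : k ≠ 0) (hκ : κ = k ^ 2)
    (hΔ : HasD L.ip L.X Φ.U L1.Δ) (hE : HasD L.ip L.X Φ.U L1.E) (hS : HasD L.ip L.X Φ.U L1.S)
    (t : ℝ) (f g : W) :
    L.ip (L1.Δ (Φ.U t f)) (Φ.U t g) =
      (((Real.exp (-(2 * k) * t) * (k * (2 * L.ip (L1.E f) g + q * L.ip (L.X f) g) +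
        (κ * L.ip (L1.Δ f) g + L.ip (L1.S f) g)) +
        Real.exp (2 * k * t) * (-k * (2 * L.ip (L1.E f) g + q * L.ip (L.X f) g) +
        (κ * L.ip (L1.Δ f) g + L.ip (L1.S f) g))) / 2) -
        (L.ip (L1.S f) g - κ * L.ip (L1.Δ f) g)) / (2 * κ) := by
  have hκ0 : κ ≠ 0 := by rw [hκ]; positivity
  set p : ℝ → ℝ := fun t => L.ip (L1.Δ (Φ.U t f)) (Φ.U t g) with hp
  set e : ℝ → ℝ := fun t => L.ip (L1.E (Φ.U t f)) (Φ.U t g) with he
  set s : ℝ → ℝ := fun t => L.ip (L1.S (Φ.U t f)) (Φ.U t g) with hs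
  have hx : ∀ t, L.ip (L.X (Φ.U t f)) (Φ.U t g) = L.ip (L.X f) g := by
    intro t
    rw [Φ.ip_X_U, Φ.iso]
  have sk : ∀ u v : W, L.ip u (L.X v) = - L.ip (L.X u) v := by
    intro u v; rw [L.skew]; ring
  have dp : ∀ t, HasDerivAt p (-(2 * e t + q * L.ip (L.X f) g)) t := by
    intro t
    refine (hΔ.at Φ.add f g t).congr_deriv ?_
    rw [sk, L1.X_Δ]
    simp only [map_add, map_smul, LinearMap.add_apply, LinearMap.smul_apply, smul_eq_mul, he]
    rw [hx]; ring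
  have de : ∀ t, HasDerivAt e (-(κ * p t + s t)) t := by
    intro t
    refine (hE.at Φ.add f g t).congr_deriv ?_
    rw [sk, L1.X_E]
    simp only [map_add, map_smul, LinearMap.add_apply, LinearMap.smul_apply, smul_eq_mul, hp, hs]
    ring
  have ds : ∀ t, HasDerivAt s (-(κ * (2 * e t + q * L.ip (L.X f) g))) t := by
    intro t
    refine (hS.at Φ.add f g t).congr_deriv ?_
    rw [sk, L1.X_S]
    simp only [map_add, map_smul, LinearMap.add_apply, LinearMap.smul_apply, smul_eq_mul, he]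
    rw [hx]; ring
  set x := L.ip (L.X f) g with hxd
  -- the two exponentials and the constant
  have hu := exp_const (y := fun t => k * (2 * e t + q * x) + (κ * p t + s t)) (c := -(2 * k))
    (fun t => (((((de t).const_mul 2).add_const (q * x)).const_mul k).add
      (((dp t).const_mul κ).add (ds t))).congr_deriv (by rw [hκ]; ring)) t
  have hv := exp_const (y := fun t => -k * (2 * e t + q * x) + (κ * p t + s t)) (c := 2 * k)
    (fun t => (((((de t).const_mul 2).add_const (q * x)).const_mul (-k)).add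
      (((dp t).const_mul κ).add (ds t))).congr_deriv (by rw [hκ]; ring)) t
  have hc : s t - κ * p t = s 0 - κ * p 0 := by
    refine is_const_of_deriv_eq_zero (f := fun t => s t - κ * p t)
      (fun t => ((ds t).sub ((dp t).const_mul κ)).differentiableAt)
      (fun t => ?_) t 0
    have h := ((ds t).sub ((dp t).const_mul κ)).deriv
    have h' : deriv (fun t => s t - κ * p t) t = _ := h
    rw [h']; ring
  have e0 : e 0 = L.ip (L1.E f) g := by simp [he, Φ.zero]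
  have p0 : p 0 = L.ip (L1.Δ f) g := by simp [hp, Φ.zero]
  have s0 : s 0 = L.ip (L1.S f) g := by simp [hs, Φ.zero]
  simp only [e0, p0, s0] at hu hv hc
  rw [← hu, ← hv, ← hc]
  show p t = _
  field_simp
  ring

/-- the conjugate of `Δ` by the flow -/
theorem Δ_U (hdef : ∀ f, L.ip f f = 0 → f = 0) {κ q k : ℝ} (L1 : Lad1 W L.ip L.X κ q)
    (hk : k ≠ 0) (hκ : κ = k ^ 2)
    (hΔ : HasD L.ip L.X Φ.U L1.Δ) (hE : HasD L.ip L.X Φ.U L1.E) (hS : HasD L.ip L.X Φ.U L1.S)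
    (t : ℝ) (f : W) :
    L1.Δ (Φ.U t f) = Φ.U t ((2 * κ)⁻¹ • ((1 / 2 : ℝ) • (Real.exp (-(2 * k) * t) •
        (k • ((2 : ℝ) • L1.E f + q • L.X f) + (κ • L1.Δ f + L1.S f)) +
        Real.exp (2 * k * t) • ((-k) • ((2 : ℝ) • L1.E f + q • L.X f) +
        (κ • L1.Δ f + L1.S f))) - (L1.S f - κ • L1.Δ f))) := by
  refine Φ.ext_U hdef t fun g => ?_
  rw [Φ.iso, Φ.ip_Δ_U L1 hk hκ hΔ hE hS]
  simp only [map_add, map_sub, map_smul, LinearMap.add_apply, LinearMap.sub_apply,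
    LinearMap.smul_apply, smul_eq_mul]
  field_simp

/-- the flow closure of a submodule -/
def cl (N : Submodule ℝ W) : Submodule ℝ W := ⨆ t, N.map (Φ.U t)

theorem U_mem_cl {N : Submodule ℝ W} {u : W} (hu : u ∈ N) (t : ℝ) : Φ.U t u ∈ Φ.cl N :=
  Submodule.mem_iSup_of_mem t (Submodule.mem_map_of_mem hu)

theorem le_cl (N : Submodule ℝ W) : N ≤ Φ.cl N := fun u hu => by
  have h := Φ.U_mem_cl hu 0
  rwa [Φ.zero] at h

/-- a linear map which maps all translates of `N` to `M` maps `cl N` to `M` -/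
theorem cl_induction {N M : Submodule ℝ W} {A : W →ₗ[ℝ] W}
    (h : ∀ t, ∀ u ∈ N, A (Φ.U t u) ∈ M) {u : W} (hu : u ∈ Φ.cl N) : A u ∈ M := by
  have h1 : Φ.cl N ≤ M.comap A := by
    refine iSup_le fun t => ?_
    rintro _ ⟨v, hv, rfl⟩
    exact h t v hv
  exact h1 hu

theorem U_cl {N : Submodule ℝ W} (s : ℝ) {u : W} (hu : u ∈ Φ.cl N) : Φ.U s u ∈ Φ.cl N :=
  Φ.cl_induction (fun t v hv => by
    rw [← Φ.add]
    exact Φ.U_mem_cl hv _) hu

theorem cl_le {N M : Submodule ℝ W} (h : N ≤ M) (hM : ∀ t, ∀ u ∈ M, Φ.U t u ∈ M) :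
    Φ.cl N ≤ M := by
  refine iSup_le fun t => ?_
  rintro _ ⟨v, hv, rfl⟩
  exact hM t v (h hv)

/-- **(X3) the flow closure of a stable submodule is stable** -/
theorem stable_cl (hdef : ∀ f, L.ip f f = 0 → f = 0) {N : Submodule ℝ W} (hN : Stable L N) :
    Stable L (Φ.cl N) := by
  have hX : ∀ u ∈ Φ.cl N, L.X u ∈ Φ.cl N := fun u hu => Φ.cl_induction (fun t v hv => by
    rw [Φ.X_U hdef]
    exact Φ.U_mem_cl (hN.X v hv) t) hu
  have q1 : (1:ℝ) = 1 ^ 2 := by norm_num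
  have q2 : (4:ℝ) = 2 ^ 2 := by norm_num
  refine Stable.of hX ?_ ?_
  · exact fun u hu => Φ.cl_induction (fun t v hv => by
      rw [Φ.Δ_U hdef L.L1 one_ne_zero q1 Φ.dΔ1 Φ.dE1 Φ.dS1]
      refine Φ.U_mem_cl (N.smul_mem _ (N.sub_mem (N.smul_mem _ (N.add_mem ?_ ?_))
        (N.sub_mem (hN.S1 v hv) (N.smul_mem _ (hN.Δ1 v hv))))) t
      · exact N.smul_mem _ (N.add_mem (N.smul_mem _ (N.add_mem (N.smul_mem _ (hN.E1 v hv))
          (N.smul_mem _ (hN.X v hv)))) (N.add_mem (N.smul_mem _ (hN.Δ1 v hv)) (hN.S1 v hv)))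
      · exact N.smul_mem _ (N.add_mem (N.smul_mem _ (N.add_mem (N.smul_mem _ (hN.E1 v hv))
          (N.smul_mem _ (hN.X v hv)))) (N.add_mem (N.smul_mem _ (hN.Δ1 v hv)) (hN.S1 v hv)))) hu
  · exact fun u hu => Φ.cl_induction (fun t v hv => by
      rw [Φ.Δ_U hdef L.L2 two_ne_zero q2 Φ.dΔ2 Φ.dE2 Φ.dS2]
      refine Φ.U_mem_cl (N.smul_mem _ (N.sub_mem (N.smul_mem _ (N.add_mem ?_ ?_))
        (N.sub_mem (hN.S2 v hv) (N.smul_mem _ (hN.Δ2 v hv))))) t
      · exact N.smul_mem _ (N.add_mem (N.smul_mem _ (N.add_mem (N.smul_mem _ (hN.E2 v hv))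
          (N.smul_mem _ (hN.X v hv)))) (N.add_mem (N.smul_mem _ (hN.Δ2 v hv)) (hN.S2 v hv)))
      · exact N.smul_mem _ (N.add_mem (N.smul_mem _ (N.add_mem (N.smul_mem _ (hN.E2 v hv))
          (N.smul_mem _ (hN.X v hv)))) (N.add_mem (N.smul_mem _ (hN.Δ2 v hv)) (hN.S2 v hv)))) hu

/-- orthogonality of the flow closures from `⟨U_t u, v⟩ = 0` -/
theorem perp_cl {M N : Submodule ℝ W} (h : ∀ t, ∀ u ∈ M, ∀ v ∈ N, L.ip (Φ.U t u) v = 0) :
    Perp L (Φ.cl M) (Φ.cl N) := by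
  intro u hu v hv
  have h1 : Φ.cl M ≤ LinearMap.ker (LinearMap.flip L.ip v) := by
    refine iSup_le fun s => ?_
    rintro _ ⟨a, ha, rfl⟩
    rw [LinearMap.mem_ker, LinearMap.flip_apply]
    have h2 : Φ.cl N ≤ LinearMap.ker (L.ip (Φ.U s a)) := by
      refine iSup_le fun t => ?_
      rintro _ ⟨b, hb, rfl⟩
      rw [LinearMap.mem_ker]
      have e : L.ip (Φ.U s a) (Φ.U t b) = L.ip (Φ.U (s - t) a) b := by
        rw [← Φ.iso t (Φ.U (s - t) a) b, ← Φ.add]
        congr 2; ring_nf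
      rw [e]
      exact h _ a ha b hb
    exact LinearMap.mem_ker.1 (h2 hv)
  have h3 := LinearMap.mem_ker.1 (h1 hu)
  rwa [LinearMap.flip_apply] at h3

end Flw

end Vale.Agent.P207.H391
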